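import Mathlib

open MeasureTheory
open scoped ENNReal RealInnerProductSpace

namespace Vale.Agent.P074

/-- Euclidean space. -/
abbrev Sp (d : ℕ) := EuclideanSpace ℝ (Fin d)

/-- The cube `[-1,1]^d`. -/
def cube (d : ℕ) : Set (Sp d) := {x | ∀ i, x i ∈ Set.Icc (-1 : ℝ) 1}

/-- product volume -/
lemma vol_box (d : ℕ) (I : Fin d → Set ℝ) (hI : ∀ i, MeasurableSet (I i)) :
    volume {x : Sp d | ∀ i, x i ∈ I i} = ∏ i, volume (I i) := by
  have h : {x : Sp d | ∀ i, x i ∈ I i} = (fun x : Sp d => WithLp.ofLp x) ⁻¹' (Set.univ.pi I) := by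
    ext x; simp
  rw [h, (PiLp.volume_preserving_ofLp (Fin d)).measure_preimage
    (MeasurableSet.univ_pi hI).nullMeasurableSet, volume_pi_pi]

lemma vol_cube (d : ℕ) : volume (cube d) = 2 ^ d := by
  rw [cube, vol_box d (fun _ => Set.Icc (-1 : ℝ) 1) (fun _ => measurableSet_Icc)]
  have h : volume (Set.Icc (-1 : ℝ) 1) = 2 := by
    rw [Real.volume_Icc]
    norm_num
  simp [h]

lemma vol_box2 (d : ℕ) (i0 i1 : Fin d) (hne : i0 ≠ i1) (s : ℝ) (hs : 0 ≤ s) :
    ENNReal.ofReal (s / 64) * 2 ^ d ≤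
      volume {x : Sp d | ∀ i, x i ∈ (if i = i0 then Set.Icc (-(s/8)) (s/8) else
        if i = i1 then Set.Icc (3/4) 1 else Set.Icc (-1 : ℝ) 1)} := by
  rw [vol_box d (fun i => (if i = i0 then Set.Icc (-(s/8)) (s/8) else
        if i = i1 then Set.Icc (3/4) 1 else Set.Icc (-1 : ℝ) 1))]
  swap
  · intro i
    split_ifs <;> exact measurableSet_Icc
  have h : ∀ i : Fin d, volume (if i = i0 then Set.Icc (-(s/8)) (s/8) else
        if i = i1 then Set.Icc (3/4) 1 else Set.Icc (-1 : ℝ) 1) =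
        2 * ((if i = i0 then ENNReal.ofReal (s/8) else 1) *
          (if i = i1 then ENNReal.ofReal (1/8) else 1)) := by
    intro i
    split_ifs with h1 h2 h2
    · exact absurd (h1.symm.trans h2) hne
    · rw [Real.volume_Icc, mul_one, show (2 : ℝ≥0∞) = ENNReal.ofReal 2 by norm_num,
        ← ENNReal.ofReal_mul (by norm_num)]
      congr 1; ring
    · rw [Real.volume_Icc, one_mul, show (2 : ℝ≥0∞) = ENNReal.ofReal 2 by norm_num,
        ← ENNReal.ofReal_mul (by norm_num)]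
      congr 1; norm_num
    · rw [Real.volume_Icc]
      norm_num
  simp_rw [h]
  rw [Finset.prod_mul_distrib, Finset.prod_mul_distrib, Finset.prod_ite_eq', Finset.prod_ite_eq']
  simp only [Finset.prod_const, Finset.card_univ, Fintype.card_fin, Finset.mem_univ, if_true]
  rw [← ENNReal.ofReal_mul (by positivity), mul_comm]
  gcongr
  linarith

lemma isCompact_cube (d : ℕ) : IsCompact (cube d) := by
  have h : cube d = (WithLp.ofLp : Sp d → (Fin d → ℝ)) ⁻¹' (Set.univ.pi fun _ => Set.Icc (-1 : ℝ) 1) := by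
    ext x; simp only [cube, Set.mem_setOf_eq, Set.mem_preimage, Set.mem_univ_pi]
  rw [h]
  exact (PiLp.homeomorph 2 (fun _ : Fin d => ℝ)).isCompact_preimage.mpr
    (isCompact_univ_pi fun _ => isCompact_Icc)

lemma convex_cube (d : ℕ) : Convex ℝ (cube d) := by
  intro x hx y hy a b ha hb hab i
  have := convex_Icc (-1 : ℝ) 1 (hx i) (hy i) ha hb hab
  simpa using this

lemma interior_cube (d : ℕ) : (interior (cube d)).Nonempty := by
  refine ⟨0, mem_interior_iff_mem_nhds.mpr ?_⟩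
  refine Filter.mem_of_superset (Metric.ball_mem_nhds (0 : Sp d) one_pos) ?_
  intro x hx i
  have h1 : ‖x‖ < 1 := by simpa using hx
  have h2 : ‖x i‖ ≤ ‖x‖ := PiLp.norm_apply_le x i
  rw [Real.norm_eq_abs] at h2
  exact abs_le.mp (h2.trans h1.le)

lemma norm_le_of_mem_cube (d : ℕ) (x : Sp d) (hx : x ∈ cube d) : ‖x‖ ≤ d := by
  rw [EuclideanSpace.norm_eq]
  have h : ∑ i, ‖x i‖ ^ 2 ≤ d := by
    calc ∑ i, ‖x i‖ ^ 2 ≤ ∑ i : Fin d, (1 : ℝ) := by
          refine Finset.sum_le_sum fun i _ => ?_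
          have := abs_le.mpr (hx i)
          rw [Real.norm_eq_abs]
          nlinarith [abs_nonneg (x i)]
      _ = d := by simp
  rw [Real.sqrt_le_left (by positivity)]
  refine h.trans ?_
  rcases Nat.eq_zero_or_pos d with h0 | h0
  · subst h0; simp
  · have : (1 : ℝ) ≤ d := by exact_mod_cast h0
    nlinarith

end Vale.Agent.P074
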