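import Mathlib

open MeasureTheory
open scoped ENNReal RealInnerProductSpace

namespace Vale.Agent.P074

variable {E : Type*} [NormedAddCommGroup E] [InnerProductSpace ℝ E] [MeasurableSpace E]
  [BorelSpace E] [SecondCountableTopology E]

/-- Cost of a bounded map as a real integral. -/
lemma cost_eq (ρ : Measure E) [IsProbabilityMeasure ρ] (T : E → E) (hT : Measurable T)
    (R : ℝ) (hx : ∀ᵐ x ∂ρ, ‖x‖ ≤ R) (hTx : ∀ᵐ x ∂ρ, ‖T x‖ ≤ R) :
    Integrable (fun x => ‖x - T x‖ ^ 2) ρ ∧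
    ∫⁻ x, ‖x - T x‖ₑ ^ 2 ∂ρ = ENNReal.ofReal (∫ x, ‖x - T x‖ ^ 2 ∂ρ) := by
  have hmeas : Measurable (fun x => ‖x - T x‖ ^ 2) :=
    ((measurable_id.sub hT).norm).pow_const 2
  have hint : Integrable (fun x => ‖x - T x‖ ^ 2) ρ := by
    refine Integrable.of_bound hmeas.aestronglyMeasurable ((R + R) ^ 2) ?_
    filter_upwards [hx, hTx] with x h1 h2
    rw [Real.norm_of_nonneg (by positivity)]
    have h3 : ‖x - T x‖ ≤ R + R := (norm_sub_le _ _).trans (add_le_add h1 h2)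
    have h4 : 0 ≤ ‖x - T x‖ := norm_nonneg _
    nlinarith
  refine ⟨hint, ?_⟩
  rw [ofReal_integral_eq_lintegral_ofReal hint (Filter.Eventually.of_forall fun x => by positivity)]
  refine lintegral_congr fun x => ?_
  rw [ENNReal.ofReal_pow (norm_nonneg _), ofReal_norm_eq_enorm]

/-- Sufficient (duality) criterion for optimality. -/
lemma opt_of_dual (ρ : Measure E) [IsProbabilityMeasure ρ] (T : E → E) (hT : Measurable T)
    (R : ℝ) (hx : ∀ᵐ x ∂ρ, ‖x‖ ≤ R) (A : Set E) (hA : MeasurableSet A)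
    (hAR : ∀ y ∈ A, ‖y‖ ≤ R) (hTA : ∀ x, T x ∈ A)
    (F k : E → ℝ) (hk : Measurable k) (hFint : Integrable F ρ) (Ck : ℝ) (hkb : ∀ y, |k y| ≤ Ck)
    (h1 : ∀ x, ‖x - T x‖ ^ 2 = F x + k (T x))
    (h2 : ∀ x, ∀ y ∈ A, F x + k y ≤ ‖x - y‖ ^ 2)
    (S : E → E) (hS : Measurable S) (hST : ρ.map S = ρ.map T) :
    ∫⁻ x, ‖x - T x‖ₑ ^ 2 ∂ρ ≤ ∫⁻ x, ‖x - S x‖ₑ ^ 2 ∂ρ := by
  have hSA : ∀ᵐ x ∂ρ, S x ∈ A := by
    have h3 : ρ.map T Aᶜ = 0 := by
      rw [Measure.map_apply hT hA.compl]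
      have : T ⁻¹' Aᶜ = ∅ := by
        ext x; simp [hTA x]
      rw [this, measure_empty]
    rw [← hST, Measure.map_apply hS hA.compl] at h3
    exact h3
  obtain ⟨i1, e1⟩ := cost_eq ρ T hT R hx (Filter.Eventually.of_forall fun x => hAR _ (hTA x))
  obtain ⟨i2, e2⟩ := cost_eq ρ S hS R hx (hSA.mono fun x h => hAR _ h)
  rw [e1, e2]
  refine ENNReal.ofReal_le_ofReal ?_
  have hkT : Integrable (fun x => k (T x)) ρ :=
    Integrable.of_bound (hk.comp hT).aestronglyMeasurable Ck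
      (Filter.Eventually.of_forall fun x => by simpa using hkb (T x))
  have hkS : Integrable (fun x => k (S x)) ρ :=
    Integrable.of_bound (hk.comp hS).aestronglyMeasurable Ck
      (Filter.Eventually.of_forall fun x => by simpa using hkb (S x))
  have hkk : ∫ x, k (T x) ∂ρ = ∫ x, k (S x) ∂ρ := by
    rw [← integral_map hT.aemeasurable hk.aestronglyMeasurable,
      ← integral_map hS.aemeasurable hk.aestronglyMeasurable, hST]
  calc ∫ x, ‖x - T x‖ ^ 2 ∂ρ = ∫ x, (F x + k (T x)) ∂ρ := integral_congr_ae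
        (Filter.Eventually.of_forall h1)
    _ = ∫ x, F x ∂ρ + ∫ x, k (T x) ∂ρ := integral_add hFint hkT
    _ = ∫ x, F x ∂ρ + ∫ x, k (S x) ∂ρ := by rw [hkk]
    _ = ∫ x, (F x + k (S x)) ∂ρ := (integral_add hFint hkS).symm
    _ ≤ ∫ x, ‖x - S x‖ ^ 2 ∂ρ := by
        refine integral_mono_ae (hFint.add hkS) i2 ?_
        filter_upwards [hSA] with x hx'
        exact h2 x _ hx'

end Vale.Agent.P074
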