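import Mathlib
import Vale.Agent.P074.Dual
import Vale.Agent.P074.Cube

open MeasureTheory
open scoped ENNReal RealInnerProductSpace

namespace Vale.Agent.P074

/-- Uniform probability measure. -/
noncomputable def unif {d : ℕ} (K : Set (Sp d)) : Measure (Sp d) := (volume K)⁻¹ • volume.restrict K

lemma unif_prob {d : ℕ} (K : Set (Sp d)) (h0 : volume K ≠ 0) (h1 : volume K ≠ ⊤) :
    IsProbabilityMeasure (unif K) := by
  constructor
  rw [unif, Measure.smul_apply, Measure.restrict_apply_univ, smul_eq_mul, ENNReal.inv_mul_cancel h0 h1]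

lemma unif_ae {d : ℕ} (K : Set (Sp d)) (hK : MeasurableSet K) : ∀ᵐ x ∂(unif K), x ∈ K := by
  rw [unif]
  exact Measure.ae_smul_measure (ae_restrict_mem hK) _

section
variable {d : ℕ} (i0 i1 : Fin d) (s : ℝ)

/-- unit vectors -/
noncomputable def ev {d : ℕ} (i : Fin d) : Sp d := EuclideanSpace.single i 1

/-- the thin cell -/
def cell {d : ℕ} (i0 i1 : Fin d) (s : ℝ) : Set (Sp d) := {x | |x i0| < s * x i1 - |s| / 2}

open Classical in
/-- the map -/
noncomputable def Tm {d : ℕ} (i0 i1 : Fin d) (s : ℝ) (x : Sp d) : Sp d :=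
  if x ∈ cell i0 i1 s then s • ev i1 else if 0 ≤ x i0 then ev i0 else - ev i0

lemma measurableSet_cell : MeasurableSet (cell i0 i1 s) := by
  apply measurableSet_lt
  · fun_prop
  · fun_prop

lemma measurable_Tm : Measurable (Tm i0 i1 s) := by
  classical
  refine Measurable.ite (measurableSet_cell i0 i1 s) measurable_const ?_
  refine Measurable.ite ?_ measurable_const measurable_const
  apply measurableSet_le
  · fun_prop
  · fun_prop

/-- atoms -/
def atoms {d : ℕ} (i0 i1 : Fin d) (s : ℝ) : Set (Sp d) := {s • ev i1, ev i0, - ev i0}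

lemma Tm_mem (x : Sp d) : Tm i0 i1 s x ∈ atoms i0 i1 s := by
  classical
  unfold Tm atoms
  split_ifs <;> simp

lemma norm_ev (i : Fin d) : ‖ev i‖ = 1 := by simp [ev]

lemma atoms_norm (hs : |s| ≤ 1) (y : Sp d) (hy : y ∈ atoms i0 i1 s) : ‖y‖ ≤ 1 := by
  simp only [atoms, Set.mem_insert_iff, Set.mem_singleton_iff] at hy
  rcases hy with rfl | rfl | rfl
  · rw [norm_smul, norm_ev, mul_one]; exact hs
  · rw [norm_ev]
  · rw [norm_neg, norm_ev]

open Classical in
/-- dual weight -/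
noncomputable def kk {d : ℕ} (i1 : Fin d) (s : ℝ) (y : Sp d) : ℝ := if y = s • ev i1 then s ^ 2 - |s| else 1

/-- source part -/
noncomputable def FF {d : ℕ} (i0 i1 : Fin d) (s : ℝ) (x : Sp d) : ℝ :=
  ‖x‖ ^ 2 - 2 * max |x i0| (s * x i1 - |s| / 2)

lemma inner_ev (i : Fin d) (x : Sp d) : ⟪x, ev i⟫ = x i := by
  simp [ev, PiLp.inner_apply]

lemma sq_sub_single (x : Sp d) (c : ℝ) (i : Fin d) : ‖x - c • ev i‖ ^ 2 = ‖x‖ ^ 2 - 2 * c * x i + c ^ 2 := by
  rw [norm_sub_sq_real, real_inner_smul_right, inner_ev, norm_smul, norm_ev, mul_one, Real.norm_eq_abs, sq_abs]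
  ring

lemma ev_ne (hne : i0 ≠ i1) (c : ℝ) (hc : c ≠ 0) (s : ℝ) : c • ev i0 ≠ s • (ev i1 : Sp d) := by
  intro h
  have := congrArg (fun v : Sp d => v i0) h
  simp [ev, hne] at this
  exact hc this

lemma h1_eq (hne : i0 ≠ i1) (x : Sp d) :
    ‖x - Tm i0 i1 s x‖ ^ 2 = FF i0 i1 s x + kk i1 s (Tm i0 i1 s x) := by
  classical
  unfold Tm
  split_ifs with h1 h2
  · have h3 : |x i0| < s * x i1 - |s| / 2 := h1
    rw [sq_sub_single, kk, if_pos rfl, FF, max_eq_right h3.le]
    ring
  · have h3 : ¬ |x i0| < s * x i1 - |s| / 2 := h1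
    have h4 : (ev i0 : Sp d) = (1 : ℝ) • ev i0 := by simp
    rw [h4, sq_sub_single, kk, if_neg (ev_ne i0 i1 hne 1 one_ne_zero s), FF,
      max_eq_left (not_lt.mp h3), abs_of_nonneg h2]
    ring
  · have h3 : ¬ |x i0| < s * x i1 - |s| / 2 := h1
    have h4 : (-ev i0 : Sp d) = (-1 : ℝ) • ev i0 := by simp
    rw [h4, sq_sub_single, kk, if_neg (ev_ne i0 i1 hne (-1) (by norm_num) s), FF,
      max_eq_left (not_lt.mp h3), abs_of_neg (not_le.mp h2)]
    ring

lemma h2_le (hne : i0 ≠ i1) (x y : Sp d) (hy : y ∈ atoms i0 i1 s) :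
    FF i0 i1 s x + kk i1 s y ≤ ‖x - y‖ ^ 2 := by
  simp only [atoms, Set.mem_insert_iff, Set.mem_singleton_iff] at hy
  have hm1 : |x i0| ≤ max |x i0| (s * x i1 - |s| / 2) := le_max_left _ _
  have hm2 : s * x i1 - |s| / 2 ≤ max |x i0| (s * x i1 - |s| / 2) := le_max_right _ _
  rcases hy with rfl | rfl | rfl
  · rw [sq_sub_single, kk, if_pos rfl, FF]
    linarith
  · have h4 : (ev i0 : Sp d) = (1 : ℝ) • ev i0 := by simp
    rw [h4, sq_sub_single, kk, if_neg (ev_ne i0 i1 hne 1 one_ne_zero s), FF]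
    have := le_abs_self (x i0)
    linarith
  · have h4 : (-ev i0 : Sp d) = (-1 : ℝ) • ev i0 := by simp
    rw [h4, sq_sub_single, kk, if_neg (ev_ne i0 i1 hne (-1) (by norm_num) s), FF]
    have := neg_abs_le (x i0)
    linarith

/-- the uniform measure on the cube -/
noncomputable def rho (d : ℕ) : Measure (Sp d) := unif (cube d)

instance (d : ℕ) : IsProbabilityMeasure (rho d) := by
  refine unif_prob _ ?_ ?_
  · rw [vol_cube]; positivity
  · rw [vol_cube]; finiteness

lemma rho_ae_norm (d : ℕ) : ∀ᵐ x ∂(rho d), ‖x‖ ≤ d + 1 := by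
  filter_upwards [unif_ae (cube d) (isCompact_cube d).measurableSet] with x hx
  have := norm_le_of_mem_cube d x hx
  linarith

lemma Tm_opt (hne : i0 ≠ i1) (hs : |s| ≤ 1) (S : Sp d → Sp d) (hS : Measurable S)
    (hST : (rho d).map S = (rho d).map (Tm i0 i1 s)) :
    ∫⁻ x, ‖x - Tm i0 i1 s x‖ₑ ^ 2 ∂(rho d) ≤ ∫⁻ x, ‖x - S x‖ₑ ^ 2 ∂(rho d) := by
  classical
  have hA : MeasurableSet (atoms i0 i1 s) := by
    unfold atoms
    exact ((Set.finite_singleton _).insert _ |>.insert _).measurableSet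
  have hk : Measurable (kk i1 s : Sp d → ℝ) := by
    refine Measurable.ite ?_ measurable_const measurable_const
    exact measurableSet_eq
  have hFm : Measurable (FF i0 i1 s : Sp d → ℝ) := by
    unfold FF
    refine (measurable_norm.pow_const 2).sub (Measurable.const_mul (Measurable.max ?_ ?_) 2)
    · fun_prop
    · fun_prop
  refine opt_of_dual (rho d) (Tm i0 i1 s) (measurable_Tm i0 i1 s) (d + 1) (rho_ae_norm d)
    (atoms i0 i1 s) hA ?_ (Tm_mem i0 i1 s) (FF i0 i1 s) (kk i1 s) hk ?_ (s ^ 2 + |s| + 1) ?_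
    (h1_eq i0 i1 s hne) (h2_le i0 i1 s hne) S hS hST
  · intro y hy
    have := atoms_norm i0 i1 s hs y hy
    have hd : (0 : ℝ) ≤ d := Nat.cast_nonneg d
    linarith
  · refine Integrable.of_bound hFm.aestronglyMeasurable ((d + 1 : ℝ) ^ 2 + 2 * ((d + 1) + (|s| * (d + 1) + |s|))) ?_
    filter_upwards [rho_ae_norm d] with x hx
    unfold FF
    have e0 : |x i0| ≤ d + 1 := by
      have := PiLp.norm_apply_le x i0
      rw [Real.norm_eq_abs] at this
      linarith
    have e1 : |x i1| ≤ d + 1 := by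
      have := PiLp.norm_apply_le x i1
      rw [Real.norm_eq_abs] at this
      linarith
    have e2 : |s * x i1 - |s| / 2| ≤ |s| * (d + 1) + |s| := by
      calc |s * x i1 - |s| / 2| ≤ |s * x i1| + |(|s| / 2)| := abs_sub _ _
        _ ≤ |s| * (d + 1) + |s| := by
            rw [abs_mul, abs_of_nonneg (show 0 ≤ |s| / 2 by positivity)]
            have := abs_nonneg s
            nlinarith
    have e3 : |max |x i0| (s * x i1 - |s| / 2)| ≤ (d + 1) + (|s| * (d + 1) + |s|) := by
      have hs0 := abs_nonneg s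
      have hd : (0 : ℝ) ≤ d := Nat.cast_nonneg d
      have p1 : 0 ≤ |s| * (d + 1) + |s| := by positivity
      rw [abs_of_nonneg (le_max_of_le_left (abs_nonneg _))]
      refine max_le ?_ ?_
      · linarith
      · have := le_abs_self (s * x i1 - |s| / 2)
        linarith
    rw [Real.norm_eq_abs]
    calc |‖x‖ ^ 2 - 2 * max |x i0| (s * x i1 - |s| / 2)|
        ≤ |‖x‖ ^ 2| + |2 * max |x i0| (s * x i1 - |s| / 2)| := abs_sub _ _
      _ ≤ _ := by
          rw [abs_mul, abs_of_nonneg (sq_nonneg ‖x‖), abs_of_pos (two_pos)]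
          have := norm_nonneg x
          nlinarith
  · intro y
    unfold kk
    split_ifs
    · have h1 := abs_nonneg s
      have h2 := sq_nonneg s
      rw [abs_le]
      constructor <;> linarith
    · have h1 := abs_nonneg s
      have h2 := sq_nonneg s
      rw [abs_one]; linarith

end

end Vale.Agent.P074
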