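import Mathlib

open MeasureTheory Metric Filter Topology
open scoped RealInnerProductSpace NNReal ENNReal

namespace Vale.Agent.P074

variable {E : Type*} [NormedAddCommGroup E] [InnerProductSpace ℝ E] [FiniteDimensional ℝ E]
  [MeasurableSpace E] [BorelSpace E] (m : Measure E) [m.IsAddHaarMeasure]

section shift
variable {n : ℕ} (z : Fin n → E) (r : ℝ) (σ : Equiv.Perm (Fin n))

/-- rearrangement permuting the balls -/
noncomputable def shiftMap (x : E) : E :=
  x + ∑ i, (closedBall (z i) r).indicator (fun _ => z (σ i) - z i) x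

lemma measurable_shiftMap : Measurable (shiftMap z r σ) := by
  unfold shiftMap
  refine measurable_id.add ?_
  refine Finset.measurable_sum _ fun i _ => ?_
  exact measurable_const.indicator isClosed_closedBall.measurableSet

variable {z r}

omit [InnerProductSpace ℝ E] [FiniteDimensional ℝ E] [MeasurableSpace E] [BorelSpace E] in
lemma shiftMap_on (hd : Pairwise fun i j => Disjoint (closedBall (z i) r) (closedBall (z j) r))
    (i : Fin n) (x : E) (hx : x ∈ closedBall (z i) r) :
    shiftMap z r σ x = x + (z (σ i) - z i) := by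
  unfold shiftMap
  congr 1
  rw [Finset.sum_eq_single i]
  · exact Set.indicator_of_mem hx _
  · intro j _ hj
    refine Set.indicator_of_notMem ?_ _
    intro h
    exact Set.disjoint_left.mp (hd hj) h hx
  · simp

omit [InnerProductSpace ℝ E] [FiniteDimensional ℝ E] [MeasurableSpace E] [BorelSpace E] in
lemma shiftMap_off (x : E) (hx : ∀ i, x ∉ closedBall (z i) r) :
    shiftMap z r σ x = x := by
  unfold shiftMap
  rw [Finset.sum_eq_zero, add_zero]
  intro i _
  exact Set.indicator_of_notMem (hx i) _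

omit [InnerProductSpace ℝ E] [FiniteDimensional ℝ E] [MeasurableSpace E] [BorelSpace E] in
lemma ball_preimage (a b : E) (r : ℝ) :
    (fun x => x + (b - a)) ⁻¹' closedBall b r = closedBall a r := by
  ext x
  simp only [Set.mem_preimage, mem_closedBall, dist_eq_norm]
  rw [show x + (b - a) - b = x - a by abel]

lemma lintegral_shiftMap (hd : Pairwise fun i j => Disjoint (closedBall (z i) r) (closedBall (z j) r))
    (K : Set E) (hK : MeasurableSet K) (hzK : ∀ i, closedBall (z i) r ⊆ K)
    (F : E → ℝ≥0∞) (hF : Measurable F) :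
    ∫⁻ x in K, F (shiftMap z r σ x) ∂m = ∫⁻ x in K, F x ∂m := by
  set U : Set E := ⋃ i, closedBall (z i) r with hU
  have hUm : MeasurableSet U := MeasurableSet.iUnion fun i => isClosed_closedBall.measurableSet
  have hUK : U ⊆ K := Set.iUnion_subset hzK
  have hsplit : ∀ H : E → ℝ≥0∞, ∫⁻ x in K, H x ∂m = ∫⁻ x in K \ U, H x ∂m + ∑ i, ∫⁻ x in closedBall (z i) r, H x ∂m := by
    intro H
    rw [← lintegral_inter_add_sdiff H K hUm, Set.inter_eq_self_of_subset_right hUK, add_comm]
    congr 1
    rw [hU, lintegral_iUnion (fun i => isClosed_closedBall.measurableSet) hd, tsum_fintype]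
  rw [hsplit, hsplit]
  congr 1
  · refine setLIntegral_congr_fun (hK.diff hUm) ?_
    intro x hx
    simp only
    rw [shiftMap_off]
    intro i hi
    exact hx.2 (Set.mem_iUnion.mpr ⟨i, hi⟩)
  · rw [← Equiv.sum_comp σ (fun i => ∫⁻ x in closedBall (z i) r, F x ∂m)]
    refine Finset.sum_congr rfl fun i _ => ?_
    have h1 : ∫⁻ x in closedBall (z i) r, F (shiftMap z r σ x) ∂m =
        ∫⁻ x in closedBall (z i) r, F (x + (z (σ i) - z i)) ∂m := by
      refine setLIntegral_congr_fun isClosed_closedBall.measurableSet ?_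
      intro x hx
      simp only
      rw [shiftMap_on σ hd i x hx]
    rw [h1, ← ball_preimage (z i) (z (σ i)) r]
    exact (measurePreserving_add_right m (z (σ i) - z i)).setLIntegral_comp_preimage
      isClosed_closedBall.measurableSet hF

lemma cm_balls (hd : Pairwise fun i j => Disjoint (closedBall (z i) r) (closedBall (z j) r))
    (K : Set E) (hKc : IsCompact K) (hzK : ∀ i, closedBall (z i) r ⊆ K)
    (T : E → E) (hT : Measurable T) (R : ℝ) (hR : ∀ x, ‖T x‖ ≤ R)
    (hopt : ∀ g : E → E, Measurable g → (∀ F : E → ℝ≥0∞, Measurable F →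
      ∫⁻ x in K, F (g x) ∂m = ∫⁻ x in K, F x ∂m) →
      ∫ x in K, ⟪x, T (g x)⟫ ∂m ≤ ∫ x in K, ⟪x, T x⟫ ∂m) :
    ∑ i, ⟪z (σ i) - z i, ∫ x in closedBall (z i) r, T x ∂m⟫ ≤ 0 := by
  have key : ∀ τ : Equiv.Perm (Fin n),
      0 ≤ ∑ i, ⟪z (τ i) - z i, ∫ x in closedBall (z (τ i)) r, T x ∂m⟫ := by
    intro τ
    have hK : MeasurableSet K := hKc.measurableSet
    have h := hopt (shiftMap z r τ) (measurable_shiftMap z r τ)
      (fun F hF => lintegral_shiftMap m τ hd K hK hzK F hF)
    obtain ⟨RK, hRK⟩ := hKc.isBounded.exists_norm_le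
    have hKfin : m K ≠ ⊤ := hKc.measure_lt_top.ne
    have : IsFiniteMeasure (m.restrict K) := ⟨by
      rw [Measure.restrict_apply_univ]; exact hKc.measure_lt_top⟩
    have hint : ∀ (g : E → E), Measurable g → IntegrableOn (fun x => ⟪x, T (g x)⟫) K m := by
      intro g hg
      refine Integrable.of_bound ?_ (RK * R) ?_
      · exact (measurable_id.inner (hT.comp hg)).aestronglyMeasurable
      · filter_upwards [ae_restrict_mem hK] with x hx
        refine (norm_inner_le_norm _ _).trans ?_
        exact mul_le_mul (hRK x hx) (hR _) (norm_nonneg _) ((norm_nonneg x).trans (hRK x hx))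
    have hi1 := hint _ (measurable_shiftMap z r τ)
    have hi2 := hint id measurable_id
    simp only [id] at hi2
    have hdiff : ∫ x in K, (⟪x, T (shiftMap z r τ x)⟫ - ⟪x, T x⟫) ∂m ≤ 0 := by
      rw [integral_sub hi1 hi2]; linarith
    set U : Set E := ⋃ i, closedBall (z i) r with hU
    have hUm : MeasurableSet U := MeasurableSet.iUnion fun i => isClosed_closedBall.measurableSet
    have hUK : U ⊆ K := Set.iUnion_subset hzK
    have hred : ∫ x in K, (⟪x, T (shiftMap z r τ x)⟫ - ⟪x, T x⟫) ∂m =
        ∫ x in U, (⟪x, T (shiftMap z r τ x)⟫ - ⟪x, T x⟫) ∂m := by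
      refine setIntegral_eq_of_subset_of_forall_sdiff_eq_zero hK hUK ?_
      intro x hx
      rw [shiftMap_off, sub_self]
      intro i hi
      exact hx.2 (Set.mem_iUnion.mpr ⟨i, hi⟩)
    have hi12 : IntegrableOn (fun x => ⟪x, T (shiftMap z r τ x)⟫ - ⟪x, T x⟫) K m := hi1.sub hi2
    rw [hred, hU, integral_iUnion_fintype (fun i => isClosed_closedBall.measurableSet) hd
      (fun i => hi12.mono_set (hzK i))] at hdiff
    have hball : ∀ i, ∫ x in closedBall (z i) r, (⟪x, T (shiftMap z r τ x)⟫ - ⟪x, T x⟫) ∂m =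
        ∫ x in closedBall (z (τ i)) r, ⟪x, T x⟫ ∂m
          - ⟪z (τ i) - z i, ∫ x in closedBall (z (τ i)) r, T x ∂m⟫
          - ∫ x in closedBall (z i) r, ⟪x, T x⟫ ∂m := by
      intro i
      rw [integral_sub (hi1.mono_set (hzK i)) (hi2.mono_set (hzK i))]
      congr 1
      have h1 : ∫ x in closedBall (z i) r, ⟪x, T (shiftMap z r τ x)⟫ ∂m =
          ∫ x in closedBall (z i) r, ⟪(x + (z (τ i) - z i)) - (z (τ i) - z i),
            T (x + (z (τ i) - z i))⟫ ∂m := by
        refine setIntegral_congr_fun isClosed_closedBall.measurableSet ?_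
        intro x hx
        simp only
        rw [shiftMap_on τ hd i x hx, add_sub_cancel_right]
      have hTint : IntegrableOn T (closedBall (z (τ i)) r) m := by
        refine Measure.integrableOn_of_bounded (M := R) ?_ hT.aestronglyMeasurable
          (Filter.Eventually.of_forall hR)
        exact ((hKc.measure_lt_top).trans_le' (measure_mono (hzK _))).ne
      rw [h1, ← ball_preimage (z i) (z (τ i)) r,
        (measurePreserving_add_right m (z (τ i) - z i)).setIntegral_preimage_emb
          (measurableEmbedding_addRight _)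
          (fun x => ⟪x - (z (τ i) - z i), T x⟫)]
      have h2 : ∀ x, ⟪x - (z (τ i) - z i), T x⟫ = ⟪x, T x⟫ - ⟪z (τ i) - z i, T x⟫ := by
        intro x; rw [inner_sub_left]
      simp_rw [h2]
      rw [integral_sub (hi2.mono_set (hzK (τ i))) (hTint.const_inner _)]
      congr 1
      exact integral_inner hTint _
    simp_rw [hball] at hdiff
    rw [Finset.sum_sub_distrib, Finset.sum_sub_distrib] at hdiff
    rw [Equiv.sum_comp τ (fun i => ∫ x in closedBall (z i) r, ⟪x, T x⟫ ∂m)] at hdiff
    linarith
  have h := key σ.symm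
  rw [← Equiv.sum_comp σ] at h
  simp only [Equiv.symm_apply_apply] at h
  have h2 : ∑ i, ⟪z (σ i) - z i, ∫ x in closedBall (z i) r, T x ∂m⟫ =
      - ∑ i, ⟪z i - z (σ i), ∫ x in closedBall (z i) r, T x ∂m⟫ := by
    rw [← Finset.sum_neg_distrib]
    refine Finset.sum_congr rfl fun i _ => ?_
    rw [← inner_neg_left, neg_sub]
  rw [h2]
  linarith

end shift

end Vale.Agent.P074
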