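import Mathlib
import Vale.Agent.P074.Rearr

open MeasureTheory Metric Filter Topology
open scoped RealInnerProductSpace NNReal ENNReal

namespace Vale.Agent.P074

variable {E : Type*} [NormedAddCommGroup E] [InnerProductSpace ℝ E] [FiniteDimensional ℝ E]
  [MeasurableSpace E] [BorelSpace E] (m : Measure E) [m.IsAddHaarMeasure]

lemma cm_points (K : Set E) (hKc : IsCompact K) (hKconv : Convex ℝ K)
    (T : E → E) (hT : Measurable T) (R : ℝ) (hR : ∀ x, ‖T x‖ ≤ R)
    (hopt : ∀ g : E → E, Measurable g → (∀ F : E → ℝ≥0∞, Measurable F →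
      ∫⁻ x in K, F (g x) ∂m = ∫⁻ x in K, F x ∂m) →
      ∫ x in K, ⟪x, T (g x)⟫ ∂m ≤ ∫ x in K, ⟪x, T x⟫ ∂m)
    (u : E) (hu : ‖u‖ = 1) :
    ∃ G : Set E, (∀ᵐ x ∂m, x ∈ K → x ∈ G) ∧ G ⊆ K ∧
      ∀ (n : ℕ) (x : Fin n → E), (∀ i, x i ∈ G) → ∀ σ : Equiv.Perm (Fin n),
        ∑ i, ⟪x (σ i) - x i, T (x i)⟫ ≤ 0 := by
  have hloc : LocallyIntegrable T m := by
    rw [locallyIntegrable_iff]
    intro k hk
    exact Measure.integrableOn_of_bounded (M := R) hk.measure_lt_top.ne hT.aestronglyMeasurable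
      (Filter.Eventually.of_forall hR)
  have hleb : ∀ᵐ x ∂m, ∀ N : ℕ, ∀ (w : ℕ → E) (δ : ℕ → ℝ), Tendsto δ atTop (𝓝[>] 0) →
      (∀ᶠ j in atTop, x ∈ closedBall (w j) (N * δ j)) →
      Tendsto (fun j => ⨍ y in closedBall (w j) (δ j), T y ∂m) atTop (𝓝 (T x)) := by
    rw [ae_all_iff]
    intro N
    filter_upwards [IsUnifLocDoublingMeasure.ae_tendsto_average m hloc (N : ℝ)] with x hx w δ h1 h2
    exact hx w δ h1 h2
  refine ⟨interior K ∩ {x | ∀ N : ℕ, ∀ (w : ℕ → E) (δ : ℕ → ℝ), Tendsto δ atTop (𝓝[>] 0) →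
      (∀ᶠ j in atTop, x ∈ closedBall (w j) (N * δ j)) →
      Tendsto (fun j => ⨍ y in closedBall (w j) (δ j), T y ∂m) atTop (𝓝 (T x))}, ?_, ?_, ?_⟩
  · have hfr : ∀ᵐ x ∂m, x ∉ frontier K := by
      have := hKconv.addHaar_frontier m
      rw [ae_iff]; simpa using this
    filter_upwards [hleb, hfr] with x hx hx2 hxK
    refine ⟨?_, hx⟩
    by_contra h
    exact hx2 ⟨subset_closure hxK, h⟩
  · exact Set.inter_subset_left.trans interior_subset
  · intro n x hx σ
    set δ : ℕ → ℝ := fun j => 1 / ((j : ℝ) + 1) with hδ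
    have hδpos : ∀ j, 0 < δ j := fun j => by rw [hδ]; positivity
    have hδ0 : Tendsto δ atTop (𝓝 0) := tendsto_one_div_add_atTop_nhds_zero_nat
    have hδlim : Tendsto δ atTop (𝓝[>] 0) :=
      tendsto_nhdsWithin_iff.mpr ⟨hδ0, Filter.Eventually.of_forall hδpos⟩
    set z : ℕ → Fin n → E := fun j i => x i + (3 * (i : ℝ) * δ j) • u with hz
    have hzlim : ∀ i, Tendsto (fun j => z j i) atTop (𝓝 (x i)) := by
      intro i
      have h1 : Tendsto (fun j => (3 * (i : ℝ) * δ j) • u) atTop (𝓝 ((3 * (i : ℝ) * 0) • u)) :=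
        (hδ0.const_mul _).smul_const u
      have h2 := h1.const_add (x i)
      simpa using h2
    have hzx : ∀ j i, dist (x i) (z j i) = 3 * (i : ℝ) * δ j := by
      intro j i
      have h0 : 0 ≤ 3 * (i : ℝ) * δ j := by have := (hδpos j).le; positivity
      rw [dist_eq_norm, hz]
      simp only [sub_add_cancel_left, norm_neg, norm_smul, hu, mul_one, Real.norm_eq_abs]
      exact abs_of_nonneg h0
    have hdisj : ∀ᶠ j in atTop, ∀ i i' : Fin n, i ≠ i' → δ j + δ j < dist (z j i) (z j i') := by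
      rw [Filter.eventually_all]; intro i
      rw [Filter.eventually_all]; intro i'
      by_cases hii : i = i'
      · simp [hii]
      by_cases hxx : x i = x i'
      · refine Filter.Eventually.of_forall fun j _ => ?_
        have h1 : z j i - z j i' = (3 * ((i : ℝ) - i') * δ j) • u := by
          rw [hz]; simp only
          rw [hxx, add_sub_add_left_eq_sub, ← sub_smul]
          congr 1; ring
        rw [dist_eq_norm, h1, norm_smul, hu, mul_one, Real.norm_eq_abs, abs_mul, abs_mul,
          abs_of_pos (hδpos j), abs_of_pos (by norm_num : (0 : ℝ) < 3)]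
        have h2 : (1 : ℝ) ≤ |(i : ℝ) - i'| := by
          have h3 : ((i : ℕ) : ℤ) - ((i' : ℕ) : ℤ) ≠ 0 := by
            intro h4
            apply hii
            apply Fin.ext
            omega
          have h5 : (1 : ℤ) ≤ |((i : ℕ) : ℤ) - ((i' : ℕ) : ℤ)| := Int.one_le_abs h3
          have h6 : ((1 : ℤ) : ℝ) ≤ ((|((i : ℕ) : ℤ) - ((i' : ℕ) : ℤ)| : ℤ) : ℝ) := by
            exact_mod_cast h5
          push_cast at h6
          exact h6
        have := hδpos j
        nlinarith
      · have hlim : Tendsto (fun j => dist (z j i) (z j i')) atTop (𝓝 (dist (x i) (x i'))) :=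
          (hzlim i).dist (hzlim i')
        have hlim2 : Tendsto (fun j => δ j + δ j) atTop (𝓝 (0 + 0)) := hδ0.add hδ0
        have hpos : (0 : ℝ) + 0 < dist (x i) (x i') := by simpa using dist_pos.mpr hxx
        filter_upwards [hlim2.eventually_lt hlim hpos] with j hj _
        exact hj
    have hsub : ∀ᶠ j in atTop, ∀ i : Fin n, closedBall (z j i) (δ j) ⊆ K := by
      rw [Filter.eventually_all]; intro i
      obtain ⟨ε, hε, hb⟩ := Metric.isOpen_iff.mp isOpen_interior (x i) (hx i).1
      have hlim : Tendsto (fun j => δ j + 3 * (i : ℝ) * δ j) atTop (𝓝 (0 + 3 * (i : ℝ) * 0)) :=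
        hδ0.add (hδ0.const_mul _)
      rw [mul_zero, add_zero] at hlim
      filter_upwards [hlim.eventually_lt_const hε] with j hj y hy
      apply interior_subset
      apply hb
      rw [mem_ball]
      calc dist y (x i) ≤ dist y (z j i) + dist (z j i) (x i) := dist_triangle _ _ _
        _ ≤ δ j + 3 * (i : ℝ) * δ j := by
            rw [dist_comm (z j i), hzx]
            exact add_le_add hy le_rfl
        _ < ε := hj
    have hlimsum : Tendsto (fun j => ∑ i, ⟪z j (σ i) - z j i, ⨍ y in closedBall (z j i) (δ j), T y ∂m⟫)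
        atTop (𝓝 (∑ i, ⟪x (σ i) - x i, T (x i)⟫)) := by
      refine tendsto_finset_sum _ fun i _ => ?_
      refine ((hzlim (σ i)).sub (hzlim i)).inner ?_
      refine (hx i).2 (3 * (i : ℕ)) (fun j => z j i) δ hδlim ?_
      refine Filter.Eventually.of_forall fun j => ?_
      rw [mem_closedBall, hzx]
      push_cast
      exact le_rfl
    refine le_of_tendsto hlimsum ?_
    filter_upwards [hdisj, hsub] with j h1 h2
    have h3 := cm_balls m σ (z := z j) (r := δ j)
      (fun i i' hii => closedBall_disjoint_closedBall (h1 i i' hii)) K hKc h2 T hT R hR hopt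
    have h4 : ∀ i, ⨍ y in closedBall (z j i) (δ j), T y ∂m =
        (m.real (closedBall (0 : E) (δ j)))⁻¹ • ∫ y in closedBall (z j i) (δ j), T y ∂m := by
      intro i
      rw [setAverage_eq]
      congr 2
      simp only [Measure.real]
      rw [Measure.addHaar_closedBall_center]
    simp_rw [h4, real_inner_smul_right]
    rw [← Finset.mul_sum]
    exact mul_nonpos_of_nonneg_of_nonpos (inv_nonneg.mpr measureReal_nonneg) h3

end Vale.Agent.P074
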