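import Mathlib

open scoped RealInnerProductSpace NNReal

namespace Vale.Agent.P074

variable {E : Type*} [NormedAddCommGroup E] [InnerProductSpace ℝ E]

/-- total of a chain -/
noncomputable def chainSum (T : E → E) (c : ℕ → E) (n : ℕ) : ℝ :=
  ∑ i ∈ Finset.range n, ⟪c (i + 1) - c i, T (c i)⟫

/-- the set of chain totals from `x0` to `x` -/
def chainSet (T : E → E) (G : Set E) (x0 x : E) : Set ℝ :=
  {s | ∃ (n : ℕ) (c : ℕ → E), c 0 = x0 ∧ c n = x ∧ (∀ i ≤ n, c i ∈ G) ∧ s = chainSum T c n}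

lemma chainSet_step (T : E → E) (G : Set E) (x0 x x' : E) (hx' : x' ∈ G) (s : ℝ)
    (hs : s ∈ chainSet T G x0 x) : s + ⟪x' - x, T x⟫ ∈ chainSet T G x0 x' := by
  obtain ⟨n, c, h0, hn, hG, rfl⟩ := hs
  refine ⟨n + 1, fun i => if i ≤ n then c i else x', by simpa using h0, by simp, ?_, ?_⟩
  · intro i hi
    by_cases h : i ≤ n
    · simpa [h] using hG i h
    · simpa [h] using hx'
  · unfold chainSum
    rw [Finset.sum_range_succ]
    congr 1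
    · refine Finset.sum_congr rfl fun i hi => ?_
      have h1 : i < n := Finset.mem_range.mp hi
      simp [h1.le, Nat.succ_le_of_lt h1]
    · simp [hn]

lemma chainSet_bound (T : E → E) (G : Set E)
    (hCM : ∀ (n : ℕ) (x : Fin n → E), (∀ i, x i ∈ G) → ∀ σ : Equiv.Perm (Fin n),
      ∑ i, ⟪x (σ i) - x i, T (x i)⟫ ≤ 0)
    (x0 x : E) (s : ℝ) (hs : s ∈ chainSet T G x0 x) : s ≤ ⟪x - x0, T x⟫ := by
  obtain ⟨n, c, h0, hn, hG, rfl⟩ := hs
  have h := hCM (n + 1) (fun i => c i) (fun i => hG i (Nat.lt_succ_iff.mp i.2)) (finRotate (n + 1))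
  rw [Fin.sum_univ_castSucc] at h
  have h1 : ∀ i : Fin n, finRotate (n + 1) (Fin.castSucc i) = Fin.succ i := by
    intro i
    rw [finRotate_succ_apply, Fin.coeSucc_eq_succ]
  have h2 : finRotate (n + 1) (Fin.last n) = 0 := finRotate_last
  simp only [h1, h2, Fin.val_succ, Fin.val_castSucc, Fin.val_zero, Fin.val_last, hn, h0] at h
  unfold chainSum
  rw [Finset.sum_range]
  have h3 : ⟪x0 - x, T x⟫ = - ⟪x - x0, T x⟫ := by
    rw [← inner_neg_left, neg_sub]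
  rw [h3] at h
  linarith

/-- Rockafellar's theorem on a set. -/
lemma exists_potential (T : E → E) (G : Set E) (R : ℝ≥0) (hR : ∀ x ∈ G, ‖T x‖ ≤ R)
    (hCM : ∀ (n : ℕ) (x : Fin n → E), (∀ i, x i ∈ G) → ∀ σ : Equiv.Perm (Fin n),
      ∑ i, ⟪x (σ i) - x i, T (x i)⟫ ≤ 0) :
    ∃ φ : E → ℝ, LipschitzWith R φ ∧ ∀ x ∈ G, ∀ x' ∈ G, ⟪x' - x, T x⟫ ≤ φ x' - φ x := by
  rcases G.eq_empty_or_nonempty with rfl | ⟨x0, hx0⟩
  · exact ⟨fun _ => 0, LipschitzWith.const 0 |>.weaken (zero_le), by simp⟩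
  set φ0 : E → ℝ := fun x => sSup (chainSet T G x0 x) with hφ0
  have hbdd : ∀ x, BddAbove (chainSet T G x0 x) := by
    intro x
    exact ⟨_, fun s hs => chainSet_bound T G hCM x0 x s hs⟩
  have hne : ∀ x ∈ G, (chainSet T G x0 x).Nonempty := by
    intro x hx
    have h : (0 : ℝ) ∈ chainSet T G x0 x0 := by
      refine ⟨0, fun _ => x0, rfl, rfl, fun _ _ => hx0, by simp [chainSum]⟩
    exact ⟨_, chainSet_step T G x0 x0 x hx 0 h⟩
  have hsub : ∀ x ∈ G, ∀ x' ∈ G, ⟪x' - x, T x⟫ ≤ φ0 x' - φ0 x := by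
    intro x hx x' hx'
    rw [le_sub_iff_add_le, add_comm]
    rw [← le_sub_iff_add_le]
    refine csSup_le (hne x hx) fun s hs => ?_
    rw [le_sub_iff_add_le]
    exact le_csSup (hbdd x') (chainSet_step T G x0 x x' hx' s hs)
  have hlip : LipschitzOnWith R φ0 G := by
    refine LipschitzOnWith.of_le_add_mul _ fun x hx y hy => ?_
    have h1 := hsub x hx y hy
    have h2 : |⟪y - x, T x⟫| ≤ ‖y - x‖ * ‖T x‖ := abs_real_inner_le_norm _ _
    have h3 : ‖y - x‖ * ‖T x‖ ≤ ‖y - x‖ * R := mul_le_mul_of_nonneg_left (hR x hx) (norm_nonneg _)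
    have h4 : dist x y = ‖y - x‖ := by rw [dist_comm, dist_eq_norm]
    rw [h4]
    have := (abs_le.mp h2).1
    nlinarith
  obtain ⟨φ, hφ, hφe⟩ := hlip.extend_real
  refine ⟨φ, hφ, fun x hx x' hx' => ?_⟩
  rw [← hφe hx, ← hφe hx']
  exact hsub x hx x' hx'

/-- Conjugate potential. -/
lemma exists_conj (T : E → E) (G : Set E) (hG : G.Nonempty) (RK : ℝ≥0) (hK : ∀ x ∈ G, ‖x‖ ≤ RK)
    (φ : E → ℝ) (R : ℝ≥0) (hφ : LipschitzWith R φ)
    (hsub : ∀ x ∈ G, ∀ x' ∈ G, ⟪x' - x, T x⟫ ≤ φ x' - φ x) :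
    ∃ ψ : E → ℝ, LipschitzWith RK ψ ∧ (∀ x ∈ G, ∀ y, ⟪x, y⟫ - φ x ≤ ψ y) ∧
      ∀ x ∈ G, ψ (T x) = ⟪x, T x⟫ - φ x := by
  obtain ⟨x0, hx0⟩ := hG
  haveI : Nonempty G := ⟨⟨x0, hx0⟩⟩
  set ψ : E → ℝ := fun y => ⨆ x : G, (⟪(x : E), y⟫ - φ x) with hψ
  have hb : ∀ y, BddAbove (Set.range fun x : G => (⟪(x : E), y⟫ - φ x)) := by
    intro y
    refine ⟨RK * ‖y‖ + (|φ x0| + R * (RK + RK)), ?_⟩
    rintro _ ⟨x, rfl⟩
    have h1 : ⟪(x : E), y⟫ ≤ ‖(x : E)‖ * ‖y‖ := real_inner_le_norm _ _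
    have h2 : ‖(x : E)‖ * ‖y‖ ≤ RK * ‖y‖ := mul_le_mul_of_nonneg_right (hK x x.2) (norm_nonneg _)
    have h3 : dist (φ x) (φ x0) ≤ R * dist (x : E) x0 := hφ.dist_le_mul _ _
    rw [Real.dist_eq] at h3
    have h4 : dist (x : E) x0 ≤ RK + RK := by
      rw [dist_eq_norm]
      exact (norm_sub_le _ _).trans (add_le_add (hK x x.2) (hK x0 hx0))
    have h5 : (R : ℝ) * dist (x : E) x0 ≤ R * (RK + RK) := mul_le_mul_of_nonneg_left h4 R.2
    have h6 := (abs_le.mp (h3.trans h5)).1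
    have h7 := neg_abs_le (φ x0)
    simp only
    linarith
  have hge : ∀ x ∈ G, ∀ y, ⟪x, y⟫ - φ x ≤ ψ y := fun x hx y => le_ciSup (hb y) ⟨x, hx⟩
  refine ⟨ψ, ?_, hge, ?_⟩
  · refine LipschitzWith.of_le_add_mul _ fun y y' => ?_
    refine ciSup_le fun x => ?_
    have h1 := hge x x.2 y'
    have h2 : ⟪(x : E), y⟫ = ⟪(x : E), y'⟫ + ⟪(x : E), y - y'⟫ := by
      rw [← inner_add_right]; congr 1; abel
    have h3 : ⟪(x : E), y - y'⟫ ≤ ‖(x : E)‖ * ‖y - y'‖ := real_inner_le_norm _ _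
    have h4 : ‖(x : E)‖ * ‖y - y'‖ ≤ RK * ‖y - y'‖ :=
      mul_le_mul_of_nonneg_right (hK x x.2) (norm_nonneg _)
    rw [dist_eq_norm]
    linarith
  · intro x hx
    refine le_antisymm ?_ (hge x hx _)
    refine ciSup_le fun x' => ?_
    have := hsub x hx x' x'.2
    rw [inner_sub_left] at this
    linarith

end Vale.Agent.P074
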