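import Mathlib

open MeasureTheory Metric Filter Topology Module
open scoped RealInnerProductSpace NNReal ENNReal

namespace Vale.Agent.P074

variable {E : Type*} [NormedAddCommGroup E] [InnerProductSpace ℝ E] [FiniteDimensional ℝ E]
  [MeasurableSpace E] [BorelSpace E] (m : Measure E) [m.IsAddHaarMeasure]

/-- shrunken copy of a convex body -/
lemma exists_shrink (K : Set E) (hKc : IsCompact K) (hKconv : Convex ℝ K) (p : E) (r : ℝ)
    (hr : 0 < r) (hp : closedBall p r ⊆ K) (h : ℝ) (hh : 0 < h) (hhr : h ≤ r) :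
    ∃ A : Set E, IsCompact A ∧ (∀ x ∈ A, ∀ v : E, ‖v‖ ≤ h → x + v ∈ K) ∧ A ⊆ K ∧
      m.real K - m.real A ≤ (finrank ℝ E) * (h / r) * m.real K := by
  set t : ℝ := h / r with ht
  have ht0 : 0 < t := by positivity
  have ht1 : t ≤ 1 := by rw [ht, div_le_one hr]; exact hhr
  have hmain : ∀ x ∈ AffineMap.homothety p (1 - t) '' K, ∀ v : E, ‖v‖ ≤ h → x + v ∈ K := by
    rintro _ ⟨k, hk, rfl⟩ v hv
    have hq : p + (1 / t) • v ∈ K := by
      apply hp
      rw [mem_closedBall, dist_eq_norm, add_sub_cancel_left, norm_smul, Real.norm_eq_abs,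
        abs_of_pos (by positivity)]
      rw [ht, one_div_div]
      calc r / h * ‖v‖ ≤ r / h * h := mul_le_mul_of_nonneg_left hv (by positivity)
        _ = r := by field_simp
    have hc := hKconv hk hq (by linarith : 0 ≤ 1 - t) ht0.le (by ring)
    have he : (1 - t) • k + t • (p + (1 / t) • v) = (AffineMap.homothety p (1 - t)) k + v := by
      rw [AffineMap.homothety_apply, vsub_eq_sub, vadd_eq_add, smul_add, smul_smul,
        mul_one_div_cancel ht0.ne', one_smul, smul_sub, sub_smul, sub_smul, one_smul, one_smul]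
      abel
    rw [← he]
    exact hc
  refine ⟨AffineMap.homothety p (1 - t) '' K, ?_, hmain, ?_, ?_⟩
  · exact hKc.image (AffineMap.homothety_continuous p (1 - t))
  · intro x hx
    have := hmain x hx 0 (by simpa using hh.le)
    simpa using this
  · have h1 : m.real (AffineMap.homothety p (1 - t) '' K) = (1 - t) ^ finrank ℝ E * m.real K := by
      have h01 : 0 ≤ 1 - t := by linarith
      rw [Measure.real, Measure.addHaar_image_homothety, ENNReal.toReal_mul,
        ENNReal.toReal_ofReal (abs_nonneg _), abs_of_nonneg (pow_nonneg h01 _)]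
      rfl
    rw [h1]
    have h2 : 1 + (finrank ℝ E : ℝ) * (-t) ≤ (1 + (-t)) ^ finrank ℝ E :=
      one_add_mul_le_pow (by linarith) _
    have h3 : 0 ≤ m.real K := measureReal_nonneg
    rw [← sub_eq_add_neg] at h2
    nlinarith

/-- Integrated second difference of a Lipschitz function. -/
lemma second_diff (φ : E → ℝ) (R : ℝ≥0) (hφ : LipschitzWith R φ) (K A : Set E)
    (hKc : IsCompact K) (hAc : IsCompact A) (hAK : A ⊆ K) (v : E)
    (hv : ∀ x ∈ A, x - v ∈ K) :
    ∫ x in A, (φ (x + v) + φ (x - v) - 2 * φ x) ∂m ≤ 2 * (R * ‖v‖) * (m.real K - m.real A) := by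
  set a : E → ℝ := fun x => φ (x + v) - φ x with ha
  have hac : Continuous a := by
    rw [ha]
    have := hφ.continuous
    fun_prop
  have hab : ∀ x, ‖a x‖ ≤ R * ‖v‖ := by
    intro x
    have := hφ.dist_le_mul (x + v) x
    rwa [Real.dist_eq, dist_eq_norm, add_sub_cancel_left] at this
  set A' : Set E := (fun x => x + v) ⁻¹' A with hA'
  have hA'c : IsCompact A' := by
    have : A' = (Homeomorph.addRight v) ⁻¹' A := rfl
    rw [this]
    exact (Homeomorph.addRight v).isCompact_preimage.mpr hAc
  have hA'K : A' ⊆ K := by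
    intro x hx
    have := hv _ hx
    simpa using this
  have hmeas : m.real A' = m.real A := by
    rw [Measure.real, Measure.real, hA', measure_preimage_add_right]
  have hint : ∀ S : Set E, IsCompact S → IntegrableOn a S m := fun S hS =>
    hac.continuousOn.integrableOn_compact hS
  have h1 : ∫ x in A, (φ (x + v) + φ (x - v) - 2 * φ x) ∂m =
      ∫ x in A, a x ∂m - ∫ x in A', a x ∂m := by
    have h2 : ∫ x in A', a x ∂m = ∫ x in A, a (x - v) ∂m := by
      have := (measurePreserving_add_right m v).setIntegral_preimage_emb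
          (measurableEmbedding_addRight _) (fun x => a (x - v)) A
      rw [← this]
      simp [hA']
    have hint2 : IntegrableOn (fun x => a (x - v)) A m := by
      refine Continuous.continuousOn ?_ |>.integrableOn_compact hAc
      fun_prop
    rw [h2, ← integral_sub (hint A hAc) hint2]
    refine integral_congr_ae (Filter.Eventually.of_forall fun x => ?_)
    simp only [ha, sub_add_cancel]
    ring
  rw [h1]
  have hAm := hAc.measurableSet
  have hA'm := hA'c.measurableSet
  rw [← integral_inter_add_sdiff hA'm (hint A hAc), ← integral_inter_add_sdiff hAm (hint A' hA'c),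
    Set.inter_comm A' A]
  have b1 : ‖∫ x in A \ A', a x ∂m‖ ≤ (R * ‖v‖) * m.real (A \ A') :=
    norm_setIntegral_le_of_norm_le_const
      ((measure_mono Set.sdiff_subset).trans_lt hAc.measure_lt_top) (fun x _ => hab x)
  have b2 : ‖∫ x in A' \ A, a x ∂m‖ ≤ (R * ‖v‖) * m.real (A' \ A) :=
    norm_setIntegral_le_of_norm_le_const
      ((measure_mono Set.sdiff_subset).trans_lt hA'c.measure_lt_top) (fun x _ => hab x)
  have c1 : m.real (A ∩ A') + m.real (A \ A') = m.real A :=
    measureReal_inter_add_sdiff hA'm hAc.measure_lt_top.ne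
  have c2 : m.real (A' ∩ A) + m.real (A' \ A) = m.real A' :=
    measureReal_inter_add_sdiff hAm hA'c.measure_lt_top.ne
  have c3 : m.real (K ∩ A) + m.real (K \ A) = m.real K :=
    measureReal_inter_add_sdiff hAm hKc.measure_lt_top.ne
  rw [Set.inter_eq_self_of_subset_right hAK] at c3
  rw [Set.inter_comm A' A] at c2
  have c4 : m.real (A' \ A) ≤ m.real (K \ A) :=
    measureReal_mono (Set.sdiff_subset_sdiff_left hA'K)
      ((measure_mono Set.sdiff_subset).trans_lt hKc.measure_lt_top).ne
  rw [Real.norm_eq_abs] at b1 b2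
  have d1 := (abs_le.mp b1).2
  have d2 := (abs_le.mp b2).1
  have hRv : 0 ≤ (R : ℝ) * ‖v‖ := by positivity
  have e1 : (R * ‖v‖) * m.real (A \ A') ≤ (R * ‖v‖) * (m.real K - m.real A) :=
    mul_le_mul_of_nonneg_left (by linarith) hRv
  have e2 : (R * ‖v‖) * m.real (A' \ A) ≤ (R * ‖v‖) * (m.real K - m.real A) :=
    mul_le_mul_of_nonneg_left (by linarith) hRv
  linarith

end Vale.Agent.P074
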