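import Mathlib
import Vale.Agent.P074.Shift

open MeasureTheory Metric Filter Topology Module
open scoped RealInnerProductSpace NNReal ENNReal

namespace Vale.Agent.P074

variable {E : Type*} [NormedAddCommGroup E] [InnerProductSpace ℝ E] [FiniteDimensional ℝ E]
  [MeasurableSpace E] [BorelSpace E] (m : Measure E) [m.IsAddHaarMeasure]

/-- the duality gap -/
def gap (ψ0 ψ1 : E → ℝ) (y z : E) : ℝ := ψ1 y - ψ1 z - ψ0 y + ψ0 z

omit [InnerProductSpace ℝ E] [FiniteDimensional ℝ E] [MeasurableSpace E] [BorelSpace E] in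
lemma gap_le (ψ0 ψ1 : E → ℝ) (RK : ℝ≥0) (h0 : LipschitzWith RK ψ0) (h1 : LipschitzWith RK ψ1)
    (y z : E) : |gap ψ0 ψ1 y z| ≤ 2 * RK * ‖y - z‖ := by
  have a0 := h0.dist_le_mul y z
  have a1 := h1.dist_le_mul y z
  rw [Real.dist_eq, dist_eq_norm] at a0 a1
  unfold gap
  have b0 := abs_le.mp a0
  have b1 := abs_le.mp a1
  rw [abs_le]
  constructor <;> linarith [b0.1, b0.2, b1.1, b1.2]

lemma dir_bound (K : Set E) (hKc : IsCompact K) (hKconv : Convex ℝ K) (p : E) (r : ℝ)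
    (hr : 0 < r) (hp : closedBall p r ⊆ K) (h : ℝ) (hh : 0 < h) (hhr : h ≤ r)
    (T0 T1 : E → E) (hT0 : Measurable T0) (hT1 : Measurable T1) (R : ℝ≥0)
    (hR0 : ∀ x, ‖T0 x‖ ≤ R) (hR1 : ∀ x, ‖T1 x‖ ≤ R)
    (G0 G1 : Set E) (hG0 : ∀ᵐ x ∂m, x ∈ K → x ∈ G0) (hG1 : ∀ᵐ x ∂m, x ∈ K → x ∈ G1)
    (φ0 φ1 ψ0 ψ1 : E → ℝ) (hφ1 : LipschitzWith R φ1) (RK : ℝ≥0)
    (hψ0 : LipschitzWith RK ψ0) (hψ1 : LipschitzWith RK ψ1)
    (s1 : ∀ x ∈ G1, ∀ x' ∈ G1, ⟪x' - x, T1 x⟫ ≤ φ1 x' - φ1 x)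
    (c0 : ∀ x ∈ G0, ∀ y, ⟪x, y⟫ - φ0 x ≤ ψ0 y) (c0' : ∀ x ∈ G0, ψ0 (T0 x) = ⟪x, T0 x⟫ - φ0 x)
    (c1 : ∀ x ∈ G1, ∀ y, ⟪x, y⟫ - φ1 x ≤ ψ1 y) (c1' : ∀ x ∈ G1, ψ1 (T1 x) = ⟪x, T1 x⟫ - φ1 x)
    (I : ℝ) (hI : ∫ x in K, gap ψ0 ψ1 (T0 x) (T1 x) ∂m ≤ I) (e : E) (he : ‖e‖ = 1) :
    h * ∫ x in K, |⟪e, T0 x - T1 x⟫| ∂m ≤
      I + 4 * R * h * ((finrank ℝ E) * (h / r) * m.real K) := by
  obtain ⟨A, hAc, hAv, hAK, hAm⟩ := exists_shrink m K hKc hKconv p r hr hp h hh hhr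
  set v : E := h • e with hv
  have hvn : ‖v‖ = h := by rw [hv, norm_smul, he, mul_one, Real.norm_eq_abs, abs_of_pos hh]
  set L : E → ℝ := fun x => gap ψ0 ψ1 (T0 x) (T1 x) with hL
  set Δ : E → ℝ := fun x => φ1 (x + v) + φ1 (x - v) - 2 * φ1 x with hΔ
  have hKfin : m K < ⊤ := hKc.measure_lt_top
  have hKm : MeasurableSet K := hKc.measurableSet
  have hAmeas : MeasurableSet A := hAc.measurableSet
  have hLmeas : Measurable L := by
    have e0 := hψ0.continuous.measurable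
    have e1 := hψ1.continuous.measurable
    have : L = fun x => ψ1 (T0 x) - ψ1 (T1 x) - ψ0 (T0 x) + ψ0 (T1 x) := rfl
    rw [this]
    exact (((e1.comp hT0).sub (e1.comp hT1)).sub (e0.comp hT0)).add (e0.comp hT1)
  have hTT : ∀ x, ‖T0 x - T1 x‖ ≤ 2 * R := fun x =>
    (norm_sub_le _ _).trans (by linarith [hR0 x, hR1 x])
  have hLint : IntegrableOn L K m := by
    refine Measure.integrableOn_of_bounded (M := 2 * RK * (2 * R)) hKfin.ne
      hLmeas.aestronglyMeasurable (Filter.Eventually.of_forall fun x => ?_)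
    rw [Real.norm_eq_abs]
    refine (gap_le ψ0 ψ1 RK hψ0 hψ1 _ _).trans ?_
    exact mul_le_mul_of_nonneg_left (hTT x) (by positivity)
  have hdmeas : Measurable fun x => |⟪e, T0 x - T1 x⟫| := by
    have : Measurable fun x => ⟪e, T0 x - T1 x⟫ := measurable_const.inner (hT0.sub hT1)
    exact this.abs
  have hdb : ∀ x, |⟪e, T0 x - T1 x⟫| ≤ 2 * R := fun x =>
    (abs_real_inner_le_norm _ _).trans (by rw [he, one_mul]; exact hTT x)
  have hdint : IntegrableOn (fun x => |⟪e, T0 x - T1 x⟫|) K m := by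
    refine Measure.integrableOn_of_bounded (M := 2 * R) hKfin.ne
      hdmeas.aestronglyMeasurable (Filter.Eventually.of_forall fun x => ?_)
    rw [Real.norm_eq_abs, abs_abs]
    exact hdb x
  have hΔcont : Continuous Δ := by
    rw [hΔ]
    have := hφ1.continuous
    fun_prop
  have hΔint : IntegrableOn Δ A m := hΔcont.continuousOn.integrableOn_compact hAc
  have hLnn : ∀ᵐ x ∂m, x ∈ K → 0 ≤ L x := by
    filter_upwards [hG0, hG1] with x h0 h1 hx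
    have a1 := c1 x (h1 hx) (T0 x)
    have a2 := c1' x (h1 hx)
    have a3 := c0 x (h0 hx) (T1 x)
    have a4 := c0' x (h0 hx)
    simp only [hL, gap]
    linarith
  have hlow : ∀ᵐ x ∂m, x ∈ A → h * |⟪e, T0 x - T1 x⟫| ≤ L x + Δ x := by
    have q1 : ∀ᵐ x ∂m, x + v ∈ K → x + v ∈ G1 :=
      (measurePreserving_add_right m v).quasiMeasurePreserving.ae hG1
    have q2 : ∀ᵐ x ∂m, x + -v ∈ K → x + -v ∈ G1 :=
      (measurePreserving_add_right m (-v)).quasiMeasurePreserving.ae hG1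
    filter_upwards [hG0, hG1, q1, q2] with x h0 h1 h2 h3 hx
    have hxK := hAK hx
    have m1 : x + v ∈ G1 := h2 (hAv x hx v hvn.le)
    have m2 : x + -v ∈ G1 := h3 (hAv x hx (-v) (by rw [norm_neg]; exact hvn.le))
    have x0 := h0 hxK
    have x1 := h1 hxK
    have a2 := c1' x x1
    have a3 := c0 x x0 (T1 x)
    have a4 := c0' x x0
    have b1 := c1 _ m1 (T0 x)
    have b2 := c1 _ m2 (T0 x)
    have d1 := s1 x x1 _ m1
    have d2 := s1 x x1 _ m2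
    rw [add_sub_cancel_left] at d1 d2
    rw [inner_neg_left] at d2
    rw [inner_add_left] at b1 b2
    rw [inner_neg_left] at b2
    have e1 : ⟪v, T0 x⟫ = h * ⟪e, T0 x⟫ := by rw [hv, real_inner_smul_left]
    have e2 : ⟪v, T1 x⟫ = h * ⟪e, T1 x⟫ := by rw [hv, real_inner_smul_left]
    have e3 : ⟪e, T0 x - T1 x⟫ = ⟪e, T0 x⟫ - ⟪e, T1 x⟫ := inner_sub_right _ _ _
    have e4 : x - v = x + -v := sub_eq_add_neg _ _
    rw [e1] at b1 b2
    rw [e2] at d1 d2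
    simp only [hL, hΔ, gap]
    rw [e3, e4]
    rcases abs_cases (⟪e, T0 x⟫ - ⟪e, T1 x⟫) with ⟨h5, _⟩ | ⟨h5, _⟩
    · rw [h5]; nlinarith
    · rw [h5]; nlinarith
  have i1 : h * ∫ x in A, |⟪e, T0 x - T1 x⟫| ∂m ≤ ∫ x in A, L x ∂m + ∫ x in A, Δ x ∂m := by
    rw [← integral_const_mul, ← integral_add (hLint.mono_set hAK) hΔint]
    refine integral_mono_ae ((hdint.mono_set hAK).const_mul h) ((hLint.mono_set hAK).add hΔint) ?_
    rw [EventuallyLE, ae_restrict_iff' hAmeas]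
    exact hlow
  have i2 : ∫ x in A, L x ∂m ≤ ∫ x in K, L x ∂m := by
    refine setIntegral_mono_set hLint ?_ (Filter.Eventually.of_forall hAK)
    rw [EventuallyLE, ae_restrict_iff' hKm]
    exact hLnn
  have i3 : ∫ x in A, Δ x ∂m ≤ 2 * (R * h) * (m.real K - m.real A) := by
    have := second_diff m φ1 R hφ1 K A hKc hAc hAK v (fun x hx => by
      rw [sub_eq_add_neg]; exact hAv x hx (-v) (by rw [norm_neg]; exact hvn.le))
    rwa [hvn] at this
  have i4 : ∫ x in K, |⟪e, T0 x - T1 x⟫| ∂m =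
      ∫ x in A, |⟪e, T0 x - T1 x⟫| ∂m + ∫ x in K \ A, |⟪e, T0 x - T1 x⟫| ∂m := by
    rw [← integral_inter_add_sdiff hAmeas hdint, Set.inter_eq_self_of_subset_right hAK]
  have i5 : ∫ x in K \ A, |⟪e, T0 x - T1 x⟫| ∂m ≤ 2 * R * (m.real K - m.real A) := by
    have := norm_setIntegral_le_of_norm_le_const (μ := m) (s := K \ A)
      (f := fun x => |⟪e, T0 x - T1 x⟫|) (C := 2 * R)
      ((measure_mono Set.sdiff_subset).trans_lt hKfin) (fun x _ => by
        rw [Real.norm_eq_abs, abs_abs]; exact hdb x)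
    rw [measureReal_sdiff hAK hAmeas hKfin.ne] at this
    exact (le_abs_self _).trans this
  rw [i4, mul_add]
  have i6 : h * ∫ x in K \ A, |⟪e, T0 x - T1 x⟫| ∂m ≤ h * (2 * R * (m.real K - m.real A)) :=
    mul_le_mul_of_nonneg_left i5 hh.le
  have i7 : 4 * R * h * (m.real K - m.real A) ≤ 4 * R * h * ((finrank ℝ E) * (h / r) * m.real K) :=
    mul_le_mul_of_nonneg_left hAm (by positivity)
  linarith

/-- `L¹` estimate. -/
lemma l1_bound (K : Set E) (hKc : IsCompact K) (hKconv : Convex ℝ K) (p : E) (r : ℝ)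
    (hr : 0 < r) (hp : closedBall p r ⊆ K) (w : ℝ) (hw : 0 < w)
    (T0 T1 : E → E) (hT0 : Measurable T0) (hT1 : Measurable T1) (R : ℝ≥0)
    (hR0 : ∀ x, ‖T0 x‖ ≤ R) (hR1 : ∀ x, ‖T1 x‖ ≤ R)
    (G0 G1 : Set E) (hG0 : ∀ᵐ x ∂m, x ∈ K → x ∈ G0) (hG1 : ∀ᵐ x ∂m, x ∈ K → x ∈ G1)
    (φ0 φ1 ψ0 ψ1 : E → ℝ) (hφ1 : LipschitzWith R φ1) (RK : ℝ≥0)
    (hψ0 : LipschitzWith RK ψ0) (hψ1 : LipschitzWith RK ψ1)
    (s1 : ∀ x ∈ G1, ∀ x' ∈ G1, ⟪x' - x, T1 x⟫ ≤ φ1 x' - φ1 x)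
    (c0 : ∀ x ∈ G0, ∀ y, ⟪x, y⟫ - φ0 x ≤ ψ0 y) (c0' : ∀ x ∈ G0, ψ0 (T0 x) = ⟪x, T0 x⟫ - φ0 x)
    (c1 : ∀ x ∈ G1, ∀ y, ⟪x, y⟫ - φ1 x ≤ ψ1 y) (c1' : ∀ x ∈ G1, ψ1 (T1 x) = ⟪x, T1 x⟫ - φ1 x)
    (hI : ∫ x in K, gap ψ0 ψ1 (T0 x) (T1 x) ∂m ≤ m.real K * (2 * RK * w)) :
    ∫ x in K, ‖T0 x - T1 x‖ ∂m ≤
      m.real K * (((finrank ℝ E) * (2 * RK + 4 * R * (finrank ℝ E) / r) + 2 * R / r) * √w) := by
  have hKfin : m K < ⊤ := hKc.measure_lt_top
  have hV : 0 ≤ m.real K := measureReal_nonneg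
  have hsw : 0 < √w := Real.sqrt_pos.mpr hw
  have hTT : ∀ x, ‖T0 x - T1 x‖ ≤ 2 * R := fun x =>
    (norm_sub_le _ _).trans (by linarith [hR0 x, hR1 x])
  have hnint : IntegrableOn (fun x => ‖T0 x - T1 x‖) K m := by
    refine Measure.integrableOn_of_bounded (M := 2 * R) hKfin.ne
      (hT0.sub hT1).norm.aestronglyMeasurable (Filter.Eventually.of_forall fun x => ?_)
    rw [norm_norm]; exact hTT x
  have hRr : (0 : ℝ) ≤ 2 * R / r := by positivity
  have hdd : (0 : ℝ) ≤ (finrank ℝ E) * (2 * RK + 4 * R * (finrank ℝ E) / r) := by positivity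
  rcases le_or_gt (√w) r with hwr | hwr
  · -- main case
    set b := stdOrthonormalBasis ℝ E with hb
    have hdir : ∀ i, ∫ x in K, |⟪b i, T0 x - T1 x⟫| ∂m ≤
        m.real K * ((2 * RK + 4 * R * (finrank ℝ E) / r) * √w) := by
      intro i
      have h1 := dir_bound m K hKc hKconv p r hr hp (√w) hsw hwr T0 T1 hT0 hT1 R hR0 hR1 G0 G1
        hG0 hG1 φ0 φ1 ψ0 ψ1 hφ1 RK hψ0 hψ1 s1 c0 c0' c1 c1' _ hI (b i) (b.norm_eq_one i)
      have h2 : m.real K * (2 * RK * w) +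
          4 * R * √w * ((finrank ℝ E) * (√w / r) * m.real K) =
          √w * (m.real K * ((2 * RK + 4 * R * (finrank ℝ E) / r) * √w)) := by
        have : w = √w * √w := (Real.mul_self_sqrt hw.le).symm
        nth_rewrite 1 [this]
        field_simp
      rw [h2] at h1
      exact le_of_mul_le_mul_left h1 hsw
    have hdint : ∀ i, IntegrableOn (fun x => |⟪b i, T0 x - T1 x⟫|) K m := by
      intro i
      have hme : Measurable fun x => ⟪b i, T0 x - T1 x⟫ := measurable_const.inner (hT0.sub hT1)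
      refine Measure.integrableOn_of_bounded (M := 2 * R) hKfin.ne
        hme.abs.aestronglyMeasurable (Filter.Eventually.of_forall fun x => ?_)
      rw [Real.norm_eq_abs, abs_abs]
      exact (abs_real_inner_le_norm _ _).trans (by rw [b.norm_eq_one i, one_mul]; exact hTT x)
    have h3 : ∫ x in K, ‖T0 x - T1 x‖ ∂m ≤ ∑ i, ∫ x in K, |⟪b i, T0 x - T1 x⟫| ∂m := by
      rw [← integral_finsetSum _ (fun i _ => hdint i)]
      refine integral_mono hnint (integrable_finsetSum _ fun i _ => hdint i) ?_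
      intro x
      simp only
      nth_rewrite 1 [← b.sum_repr' (T0 x - T1 x)]
      refine (norm_sum_le _ _).trans (le_of_eq ?_)
      refine Finset.sum_congr rfl fun i _ => ?_
      rw [norm_smul, b.norm_eq_one i, mul_one, Real.norm_eq_abs]
    refine h3.trans ((Finset.sum_le_sum fun i _ => hdir i).trans ?_)
    rw [Finset.sum_const, Finset.card_univ, Fintype.card_fin, nsmul_eq_mul]
    have : 0 ≤ m.real K * (2 * R / r * √w) := by positivity
    nlinarith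
  · have h1 : ∫ x in K, ‖T0 x - T1 x‖ ∂m ≤ 2 * R * m.real K := by
      have := norm_setIntegral_le_of_norm_le_const (μ := m) (s := K)
        (f := fun x => ‖T0 x - T1 x‖) (C := 2 * R) hKfin (fun x _ => by
          rw [norm_norm]; exact hTT x)
      exact (le_abs_self _).trans this
    refine h1.trans ?_
    have h2 : 2 * R ≤ 2 * R / r * √w := by
      rw [div_mul_eq_mul_div, le_div_iff₀ hr]
      exact mul_le_mul_of_nonneg_left hwr.le (by positivity)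
    have h3 : 0 ≤ (finrank ℝ E) * (2 * RK + 4 * R * (finrank ℝ E) / r) * √w := by positivity
    calc 2 * R * m.real K = m.real K * (2 * R) := by ring
      _ ≤ m.real K * ((finrank ℝ E) * (2 * RK + 4 * R * (finrank ℝ E) / r) * √w +
          2 * R / r * √w) := mul_le_mul_of_nonneg_left (by linarith) hV
      _ = _ := by ring

end Vale.Agent.P074
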