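import Mathlib
import Vale.Agent.P074.Dual
import Vale.Agent.P074.Pot
import Vale.Agent.P074.Leb
import Vale.Agent.P074.Stab

open MeasureTheory Metric Filter Topology Module
open scoped RealInnerProductSpace NNReal ENNReal

namespace Vale.Agent.P074

variable {E : Type*} [NormedAddCommGroup E] [InnerProductSpace ℝ E] [FiniteDimensional ℝ E]
  [MeasurableSpace E] [BorelSpace E] (m : Measure E) [m.IsAddHaarMeasure]

/-- normalised restriction -/
noncomputable def nrm (K : Set E) : Measure E := (m K)⁻¹ • m.restrict K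

omit [FiniteDimensional ℝ E] [InnerProductSpace ℝ E] [BorelSpace E] [m.IsAddHaarMeasure] in
lemma nrm_prob (K : Set E) (h0 : m K ≠ 0) (h1 : m K ≠ ⊤) : IsProbabilityMeasure (nrm m K) := by
  constructor
  rw [nrm, Measure.smul_apply, Measure.restrict_apply_univ, smul_eq_mul, ENNReal.inv_mul_cancel h0 h1]

omit [FiniteDimensional ℝ E] [InnerProductSpace ℝ E] [BorelSpace E] [m.IsAddHaarMeasure] in
lemma integral_nrm (K : Set E) (f : E → ℝ) :
    ∫ x, f x ∂(nrm m K) = (m.real K)⁻¹ * ∫ x in K, f x ∂m := by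
  rw [nrm, integral_smul_measure, ENNReal.toReal_inv, smul_eq_mul]
  rfl

omit [FiniteDimensional ℝ E] [InnerProductSpace ℝ E] [BorelSpace E] [m.IsAddHaarMeasure] in
lemma nrm_ae (K : Set E) (hK : MeasurableSet K) : ∀ᵐ x ∂(nrm m K), x ∈ K := by
  rw [nrm]
  exact Measure.ae_smul_measure (ae_restrict_mem hK) _

lemma opt_real (K : Set E) (hKc : IsCompact K) (h0 : m K ≠ 0)
    (T : E → E) (hT : Measurable T) (R : ℝ) (hR : ∀ x, ‖T x‖ ≤ R)
    (hopt : ∀ S : E → E, Measurable S → (nrm m K).map S = (nrm m K).map T →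
      ∫⁻ x, ‖x - T x‖ₑ ^ 2 ∂(nrm m K) ≤ ∫⁻ x, ‖x - S x‖ₑ ^ 2 ∂(nrm m K))
    (g : E → E) (hg : Measurable g) (hgp : ∀ F : E → ℝ≥0∞, Measurable F →
      ∫⁻ x in K, F (g x) ∂m = ∫⁻ x in K, F x ∂m) :
    ∫ x in K, ⟪x, T (g x)⟫ ∂m ≤ ∫ x in K, ⟪x, T x⟫ ∂m := by
  have hKfin : m K ≠ ⊤ := hKc.measure_lt_top.ne
  have hprob := nrm_prob m K h0 hKfin
  obtain ⟨RK, hRK⟩ := hKc.isBounded.exists_norm_le
  have hKm := hKc.measurableSet
  set Q : ℝ := max RK R with hQ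
  have hxQ : ∀ᵐ x ∂(nrm m K), ‖x‖ ≤ Q := by
    filter_upwards [nrm_ae m K hKm] with x hx
    exact (hRK x hx).trans (le_max_left _ _)
  have hTgm : Measurable (fun x => T (g x)) := hT.comp hg
  have hmap : (nrm m K).map (fun x => T (g x)) = (nrm m K).map T := by
    ext B hB
    rw [Measure.map_apply hTgm hB, Measure.map_apply hT hB, nrm, Measure.smul_apply,
      Measure.smul_apply]
    congr 1
    have h2 := hgp ((T ⁻¹' B).indicator 1) ((measurable_one).indicator (hT hB))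
    rw [lintegral_indicator_one (hT hB)] at h2
    rw [← h2, ← lintegral_indicator_one (hTgm hB)]
    rfl
  have h1 := hopt (fun x => T (g x)) (hT.comp hg) hmap
  obtain ⟨i1, e1⟩ := cost_eq (nrm m K) T hT Q hxQ
    (Filter.Eventually.of_forall fun x => (hR x).trans (le_max_right _ _))
  obtain ⟨i2, e2⟩ := cost_eq (nrm m K) (fun x => T (g x)) (hT.comp hg) Q hxQ
    (Filter.Eventually.of_forall fun x => (hR _).trans (le_max_right _ _))
  rw [e1, e2, ENNReal.ofReal_le_ofReal_iff (integral_nonneg fun x => by positivity)] at h1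
  have hsq : ∫ x, ‖T (g x)‖ ^ 2 ∂(nrm m K) = ∫ x, ‖T x‖ ^ 2 ∂(nrm m K) := by
    have hm2 : AEStronglyMeasurable (fun y : E => ‖y‖ ^ 2) ((nrm m K).map T) :=
      (measurable_norm.pow_const 2).aestronglyMeasurable
    rw [← integral_map hT.aemeasurable hm2, ← hmap]
    rw [integral_map hTgm.aemeasurable
      (measurable_norm.pow_const 2).aestronglyMeasurable]
  have hin : ∀ S : E → E, Measurable S → (∀ x, ‖S x‖ ≤ R) →
      Integrable (fun x => ⟪x, S x⟫) (nrm m K) := by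
    intro S hS hSR
    refine Integrable.of_bound (measurable_id.inner hS).aestronglyMeasurable (Q * R) ?_
    filter_upwards [hxQ] with x hx
    refine (norm_inner_le_norm _ _).trans ?_
    exact mul_le_mul hx (hSR x) (norm_nonneg _) ((norm_nonneg x).trans hx)
  have hin2 : ∀ S : E → E, Measurable S → (∀ x, ‖S x‖ ≤ R) →
      Integrable (fun x => ‖S x‖ ^ 2) (nrm m K) := by
    intro S hS hSR
    refine Integrable.of_bound (hS.norm.pow_const 2).aestronglyMeasurable (R ^ 2) ?_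
    refine Filter.Eventually.of_forall fun x => ?_
    rw [Real.norm_of_nonneg (by positivity)]
    exact pow_le_pow_left₀ (norm_nonneg _) (hSR x) 2
  have hin3 : Integrable (fun x => ‖x‖ ^ 2) (nrm m K) := by
    refine Integrable.of_bound (measurable_norm.pow_const 2).aestronglyMeasurable (Q ^ 2) ?_
    filter_upwards [hxQ] with x hx
    rw [Real.norm_of_nonneg (by positivity)]
    exact pow_le_pow_left₀ (norm_nonneg _) hx 2
  have hexp : ∀ S : E → E, Measurable S → (∀ x, ‖S x‖ ≤ R) →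
      ∫ x, ‖x - S x‖ ^ 2 ∂(nrm m K) =
        ∫ x, ‖x‖ ^ 2 ∂(nrm m K) - 2 * ∫ x, ⟪x, S x⟫ ∂(nrm m K) + ∫ x, ‖S x‖ ^ 2 ∂(nrm m K) := by
    intro S hS hSR
    have hin4 : Integrable (fun x => ‖x‖ ^ 2 - 2 * ⟪x, S x⟫) (nrm m K) :=
      hin3.sub ((hin S hS hSR).const_mul 2)
    rw [← integral_const_mul, ← integral_sub hin3 ((hin S hS hSR).const_mul 2),
      ← integral_add hin4 (hin2 S hS hSR)]
    refine integral_congr_ae (Filter.Eventually.of_forall fun x => ?_)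
    simp only
    exact norm_sub_sq_real x (S x)
  have hTg : ∀ x, ‖T (g x)‖ ≤ R := fun x => hR _
  rw [hexp T hT hR, hexp (fun x => T (g x)) (hT.comp hg) hTg, hsq] at h1
  have h3 : ∫ x, ⟪x, T (g x)⟫ ∂(nrm m K) ≤ ∫ x, ⟪x, T x⟫ ∂(nrm m K) := by linarith
  rw [integral_nrm, integral_nrm] at h3
  have hpos : 0 < (m.real K)⁻¹ := inv_pos.mpr (ENNReal.toReal_pos h0 hKfin)
  exact le_of_mul_le_mul_left h3 hpos

/-- Potentials of an optimal map. -/
lemma exists_pots (K : Set E) (hKc : IsCompact K) (hKconv : Convex ℝ K) (h0 : m K ≠ 0)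
    (T : E → E) (hT : Measurable T) (R : ℝ≥0) (hR : ∀ x, ‖T x‖ ≤ R) (RK : ℝ≥0)
    (hRK : ∀ x ∈ K, ‖x‖ ≤ RK)
    (hopt : ∀ S : E → E, Measurable S → (nrm m K).map S = (nrm m K).map T →
      ∫⁻ x, ‖x - T x‖ₑ ^ 2 ∂(nrm m K) ≤ ∫⁻ x, ‖x - S x‖ₑ ^ 2 ∂(nrm m K))
    (u : E) (hu : ‖u‖ = 1) :
    ∃ (G : Set E) (φ ψ : E → ℝ), (∀ᵐ x ∂m, x ∈ K → x ∈ G) ∧ LipschitzWith R φ ∧
      LipschitzWith RK ψ ∧ (∀ x ∈ G, ∀ x' ∈ G, ⟪x' - x, T x⟫ ≤ φ x' - φ x) ∧
      (∀ x ∈ G, ∀ y, ⟪x, y⟫ - φ x ≤ ψ y) ∧ (∀ x ∈ G, ψ (T x) = ⟪x, T x⟫ - φ x) := by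
  obtain ⟨G, hG, hGK, hCM⟩ := cm_points m K hKc hKconv T hT R hR
    (opt_real m K hKc h0 T hT R hR hopt) u hu
  obtain ⟨φ, hφ, hsub⟩ := exists_potential T G R (fun x _ => hR x) hCM
  have hGne : G.Nonempty := by
    by_contra hne
    rw [Set.not_nonempty_iff_eq_empty] at hne
    apply h0
    rw [hne] at hG
    have : K = {x | ¬ (x ∈ K → x ∈ (∅ : Set E))} := by ext x; simp
    rw [this]
    exact hG
  obtain ⟨ψ, hψ, h1, h2⟩ := exists_conj T G hGne RK (fun x hx => hRK x (hGK hx)) φ R hφ hsub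
  exact ⟨G, φ, ψ, hG, hφ, hψ, hsub, h1, h2⟩

lemma gap_coupling (K : Set E) (hKc : IsCompact K) (h0 : m K ≠ 0)
    (T0 T1 : E → E) (hT0 : Measurable T0) (hT1 : Measurable T1) (R : ℝ≥0)
    (hR0 : ∀ x, ‖T0 x‖ ≤ R) (hR1 : ∀ x, ‖T1 x‖ ≤ R) (ψ0 ψ1 : E → ℝ) (RK : ℝ≥0)
    (hψ0 : LipschitzWith RK ψ0) (hψ1 : LipschitzWith RK ψ1) (π : Measure (E × E))
    (hπ0 : π.map Prod.fst = (nrm m K).map T0) (hπ1 : π.map Prod.snd = (nrm m K).map T1)
    (w : ℝ) (hw : 0 < w) (hc : ∫⁻ q, ‖q.1 - q.2‖ₑ ^ 2 ∂π ≤ ENNReal.ofReal (w ^ 2)) :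
    ∫ x in K, gap ψ0 ψ1 (T0 x) (T1 x) ∂m ≤ m.real K * (2 * RK * w) := by
  have hKfin : m K ≠ ⊤ := hKc.measure_lt_top.ne
  have hprob := nrm_prob m K h0 hKfin
  have hpos : 0 < m.real K := ENNReal.toReal_pos h0 hKfin
  set χ : E → ℝ := fun y => ψ1 y - ψ0 y with hχ
  have hχc : Continuous χ := hψ1.continuous.sub hψ0.continuous
  have hgap : ∀ y z, gap ψ0 ψ1 y z = χ y - χ z := by
    intro y z; simp only [gap, hχ]; ring
  have hπprob : IsProbabilityMeasure π := by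
    have h1 : π.map Prod.fst Set.univ = 1 := by
      rw [hπ0, Measure.map_apply hT0 MeasurableSet.univ, Set.preimage_univ, measure_univ]
    rw [Measure.map_apply measurable_fst MeasurableSet.univ, Set.preimage_univ] at h1
    exact ⟨h1⟩
  obtain ⟨Cχ, hCχ⟩ := (isCompact_closedBall (0 : E) R).exists_bound_of_continuousOn hχc.continuousOn
  have hint : ∀ S : E → E, Measurable S → (∀ x, ‖S x‖ ≤ R) →
      Integrable (fun x => χ (S x)) (nrm m K) := by
    intro S hS hSR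
    refine Integrable.of_bound (hχc.measurable.comp hS).aestronglyMeasurable Cχ
      (Filter.Eventually.of_forall fun x => hCχ _ (by simpa using hSR x))
  have haeq : ∀ (T : E → E) (P : E × E → E), Measurable T → Measurable P → (∀ x, ‖T x‖ ≤ R) →
      π.map P = (nrm m K).map T → ∀ᵐ q ∂π, ‖P q‖ ≤ R := by
    intro T P hT hP hTR hPT
    refine ae_of_ae_map hP.aemeasurable (p := fun y => ‖y‖ ≤ R) ?_
    rw [hPT, ae_map_iff hT.aemeasurable (measurableSet_le measurable_norm measurable_const)]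
    exact Filter.Eventually.of_forall hTR
  have hae0 := haeq T0 Prod.fst hT0 measurable_fst hR0 hπ0
  have hae1 := haeq T1 Prod.snd hT1 measurable_snd hR1 hπ1
  have hintπ0 : Integrable (fun q : E × E => χ q.1) π := by
    refine Integrable.of_bound (hχc.measurable.comp measurable_fst).aestronglyMeasurable Cχ ?_
    filter_upwards [hae0] with q hq
    exact hCχ _ (by simpa using hq)
  have hintπ1 : Integrable (fun q : E × E => χ q.2) π := by
    refine Integrable.of_bound (hχc.measurable.comp measurable_snd).aestronglyMeasurable Cχ ?_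
    filter_upwards [hae1] with q hq
    exact hCχ _ (by simpa using hq)
  have e0 : ∫ x, χ (T0 x) ∂(nrm m K) = ∫ q, χ q.1 ∂π := by
    rw [← integral_map hT0.aemeasurable hχc.measurable.aestronglyMeasurable, ← hπ0,
      integral_map measurable_fst.aemeasurable hχc.measurable.aestronglyMeasurable]
  have e1 : ∫ x, χ (T1 x) ∂(nrm m K) = ∫ q, χ q.2 ∂π := by
    rw [← integral_map hT1.aemeasurable hχc.measurable.aestronglyMeasurable, ← hπ1,
      integral_map measurable_snd.aemeasurable hχc.measurable.aestronglyMeasurable]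
  have hsqint : Integrable (fun q : E × E => ‖q.1 - q.2‖ ^ 2) π := by
    refine Integrable.of_bound
      ((measurable_fst.sub measurable_snd).norm.pow_const 2).aestronglyMeasurable
      ((R + R) ^ 2) ?_
    filter_upwards [hae0, hae1] with q h1 h2
    rw [Real.norm_of_nonneg (by positivity)]
    exact pow_le_pow_left₀ (norm_nonneg _) ((norm_sub_le _ _).trans (add_le_add h1 h2)) 2
  have hsq : ∫ q, ‖q.1 - q.2‖ ^ 2 ∂π ≤ w ^ 2 := by
    have h1 : ∫⁻ q, ‖q.1 - q.2‖ₑ ^ 2 ∂π = ENNReal.ofReal (∫ q, ‖q.1 - q.2‖ ^ 2 ∂π) := by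
      rw [ofReal_integral_eq_lintegral_ofReal hsqint (Filter.Eventually.of_forall fun x => by positivity)]
      refine lintegral_congr fun x => ?_
      rw [ENNReal.ofReal_pow (norm_nonneg _), ofReal_norm]
    rw [h1] at hc
    exact (ENNReal.ofReal_le_ofReal_iff (by positivity)).mp hc
  obtain ⟨c, hc0, hcw⟩ : ∃ c : ℝ, 0 ≤ c ∧ (RK : ℝ) = c * w :=
    ⟨RK / w, by positivity, by field_simp⟩
  have hmain : ∫ x, gap ψ0 ψ1 (T0 x) (T1 x) ∂(nrm m K) ≤ 2 * RK * w := by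
    calc ∫ x, gap ψ0 ψ1 (T0 x) (T1 x) ∂(nrm m K)
        = ∫ x, (χ (T0 x) - χ (T1 x)) ∂(nrm m K) := by simp_rw [hgap]
      _ = ∫ q, χ q.1 ∂π - ∫ q, χ q.2 ∂π := by
          rw [integral_sub (hint T0 hT0 hR0) (hint T1 hT1 hR1), e0, e1]
      _ = ∫ q, (χ q.1 - χ q.2) ∂π := (integral_sub hintπ0 hintπ1).symm
      _ ≤ ∫ q, (RK * w + c * ‖q.1 - q.2‖ ^ 2) ∂π := by
          refine integral_mono (hintπ0.sub hintπ1)
            ((integrable_const _).add (hsqint.const_mul _)) ?_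
          intro q
          simp only
          rw [← hgap]
          refine (le_abs_self _).trans ((gap_le ψ0 ψ1 RK hψ0 hψ1 _ _).trans ?_)
          have h1 : 0 ≤ (‖q.1 - q.2‖ - w) ^ 2 := sq_nonneg _
          have h2 : c * ‖q.1 - q.2‖ ^ 2 + RK * w - 2 * RK * ‖q.1 - q.2‖ =
              c * (‖q.1 - q.2‖ - w) ^ 2 := by rw [hcw]; ring
          have h3 : 0 ≤ c * (‖q.1 - q.2‖ - w) ^ 2 := mul_nonneg hc0 (sq_nonneg _)
          linarith
      _ = RK * w + c * ∫ q, ‖q.1 - q.2‖ ^ 2 ∂π := by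
          rw [integral_add (integrable_const _) (hsqint.const_mul _), integral_const,
            integral_const_mul]
          simp
      _ ≤ RK * w + c * w ^ 2 := by
          have := mul_le_mul_of_nonneg_left hsq hc0
          linarith
      _ = 2 * RK * w := by rw [hcw]; ring
  rw [integral_nrm] at hmain
  calc ∫ x in K, gap ψ0 ψ1 (T0 x) (T1 x) ∂m
      = m.real K * ((m.real K)⁻¹ * ∫ x in K, gap ψ0 ψ1 (T0 x) (T1 x) ∂m) := by
        field_simp
    _ ≤ _ := mul_le_mul_of_nonneg_left hmain hpos.le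

/-- The main estimate for maps with values in a ball. -/
lemma main_bound (K : Set E) (hKc : IsCompact K) (hKconv : Convex ℝ K) (p : E) (r : ℝ)
    (hr : 0 < r) (hp : closedBall p r ⊆ K) (RK : ℝ≥0) (hRK : ∀ x ∈ K, ‖x‖ ≤ RK)
    (R : ℝ≥0) (u : E) (hu : ‖u‖ = 1)
    (T0 T1 : E → E) (hT0 : Measurable T0) (hT1 : Measurable T1)
    (hR0 : ∀ x, ‖T0 x‖ ≤ R) (hR1 : ∀ x, ‖T1 x‖ ≤ R)
    (hopt0 : ∀ S : E → E, Measurable S → (nrm m K).map S = (nrm m K).map T0 →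
      ∫⁻ x, ‖x - T0 x‖ₑ ^ 2 ∂(nrm m K) ≤ ∫⁻ x, ‖x - S x‖ₑ ^ 2 ∂(nrm m K))
    (hopt1 : ∀ S : E → E, Measurable S → (nrm m K).map S = (nrm m K).map T1 →
      ∫⁻ x, ‖x - T1 x‖ₑ ^ 2 ∂(nrm m K) ≤ ∫⁻ x, ‖x - S x‖ₑ ^ 2 ∂(nrm m K))
    (π : Measure (E × E))
    (hπ0 : π.map Prod.fst = (nrm m K).map T0) (hπ1 : π.map Prod.snd = (nrm m K).map T1)
    (w : ℝ) (hw : 0 < w) (hc : ∫⁻ q, ‖q.1 - q.2‖ₑ ^ 2 ∂π ≤ ENNReal.ofReal (w ^ 2)) :
    ∫⁻ x, ‖T0 x - T1 x‖ₑ ^ 2 ∂(nrm m K) ≤ ENNReal.ofReal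
      (2 * R * (((finrank ℝ E) * (2 * RK + 4 * R * (finrank ℝ E) / r) + 2 * R / r) * √w)) := by
  have hKfin : m K ≠ ⊤ := hKc.measure_lt_top.ne
  have h0 : m K ≠ 0 := by
    intro h
    have h1 : m (closedBall p r) ≤ 0 := (measure_mono hp).trans h.le
    exact absurd (Measure.measure_pos_of_nonempty_interior m
      (⟨p, interior_mono (ball_subset_closedBall) (by
        rw [isOpen_ball.interior_eq]; exact mem_ball_self hr)⟩ :
        (interior (closedBall p r)).Nonempty)) (not_lt.mpr h1)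
  have hprob := nrm_prob m K h0 hKfin
  have hpos : 0 < m.real K := ENNReal.toReal_pos h0 hKfin
  obtain ⟨G0, φ0, ψ0, hG0, hφ0, hψ0, s0, c0, c0'⟩ :=
    exists_pots m K hKc hKconv h0 T0 hT0 R hR0 RK hRK hopt0 u hu
  obtain ⟨G1, φ1, ψ1, hG1, hφ1, hψ1, s1, c1, c1'⟩ :=
    exists_pots m K hKc hKconv h0 T1 hT1 R hR1 RK hRK hopt1 u hu
  have hI := gap_coupling m K hKc h0 T0 T1 hT0 hT1 R hR0 hR1 ψ0 ψ1 RK hψ0 hψ1 π hπ0 hπ1 w hw hc
  have hL1 := l1_bound m K hKc hKconv p r hr hp w hw T0 T1 hT0 hT1 R hR0 hR1 G0 G1 hG0 hG1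
    φ0 φ1 ψ0 ψ1 hφ1 RK hψ0 hψ1 s1 c0 c0' c1 c1' hI
  set Q : ℝ := ((finrank ℝ E) * (2 * RK + 4 * R * (finrank ℝ E) / r) + 2 * R / r) * √w with hQ
  have hTT : ∀ x, ‖T0 x - T1 x‖ ≤ 2 * R := fun x =>
    (norm_sub_le _ _).trans (by linarith [hR0 x, hR1 x])
  have hsqint : Integrable (fun x => ‖T0 x - T1 x‖ ^ 2) (nrm m K) := by
    refine Integrable.of_bound ((hT0.sub hT1).norm.pow_const 2).aestronglyMeasurable
      ((2 * R) ^ 2) (Filter.Eventually.of_forall fun x => ?_)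
    rw [Real.norm_of_nonneg (by positivity)]
    exact pow_le_pow_left₀ (norm_nonneg _) (hTT x) 2
  have hint : Integrable (fun x => ‖T0 x - T1 x‖) (nrm m K) := by
    refine Integrable.of_bound (hT0.sub hT1).norm.aestronglyMeasurable
      (2 * R) (Filter.Eventually.of_forall fun x => ?_)
    rw [norm_norm]
    exact hTT x
  have h1 : ∫⁻ x, ‖T0 x - T1 x‖ₑ ^ 2 ∂(nrm m K) =
      ENNReal.ofReal (∫ x, ‖T0 x - T1 x‖ ^ 2 ∂(nrm m K)) := by
    rw [ofReal_integral_eq_lintegral_ofReal hsqint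
      (Filter.Eventually.of_forall fun x => by positivity)]
    refine lintegral_congr fun x => ?_
    rw [ENNReal.ofReal_pow (norm_nonneg _), ofReal_norm]
  rw [h1]
  refine ENNReal.ofReal_le_ofReal ?_
  calc ∫ x, ‖T0 x - T1 x‖ ^ 2 ∂(nrm m K) ≤ ∫ x, 2 * R * ‖T0 x - T1 x‖ ∂(nrm m K) := by
        refine integral_mono hsqint (hint.const_mul _) fun x => ?_
        simp only
        rw [sq]
        exact mul_le_mul_of_nonneg_right (hTT x) (norm_nonneg _)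
    _ = 2 * R * ((m.real K)⁻¹ * ∫ x in K, ‖T0 x - T1 x‖ ∂m) := by
        rw [integral_const_mul, integral_nrm]
    _ ≤ 2 * R * ((m.real K)⁻¹ * (m.real K * Q)) := by
        have := mul_le_mul_of_nonneg_left hL1 (inv_nonneg.mpr hpos.le)
        exact mul_le_mul_of_nonneg_left this (by positivity)
    _ = 2 * R * Q := by field_simp

/-- Hölder estimate with exponent `1/4`, coupling form. -/
theorem holder_bound [Nontrivial E] (K : Set E) (hKc : IsCompact K) (hKconv : Convex ℝ K)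
    (hKi : (interior K).Nonempty) (Y : Set E) (hY : IsCompact Y) (hYne : Y.Nonempty) :
    ∃ C : ℝ≥0, 0 < C ∧ ∀ T0 T1 : E → E, Measurable T0 → Measurable T1 →
      (nrm m K).map T0 Yᶜ = 0 → (nrm m K).map T1 Yᶜ = 0 →
      (∀ S : E → E, Measurable S → (nrm m K).map S = (nrm m K).map T0 →
        ∫⁻ x, ‖x - T0 x‖ₑ ^ 2 ∂(nrm m K) ≤ ∫⁻ x, ‖x - S x‖ₑ ^ 2 ∂(nrm m K)) →
      (∀ S : E → E, Measurable S → (nrm m K).map S = (nrm m K).map T1 →
        ∫⁻ x, ‖x - T1 x‖ₑ ^ 2 ∂(nrm m K) ≤ ∫⁻ x, ‖x - S x‖ₑ ^ 2 ∂(nrm m K)) →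
      ∀ π : Measure (E × E), π.map Prod.fst = (nrm m K).map T0 →
        π.map Prod.snd = (nrm m K).map T1 →
      ∀ w : ℝ, 0 < w → ∫⁻ q, ‖q.1 - q.2‖ₑ ^ 2 ∂π ≤ ENNReal.ofReal (w ^ 2) →
        ∫⁻ x, ‖T0 x - T1 x‖ₑ ^ 2 ∂(nrm m K) ≤ C * ENNReal.ofReal (√w) := by
  obtain ⟨p, hpi⟩ := hKi
  obtain ⟨r, hr, hp⟩ := Metric.nhds_basis_closedBall.mem_iff.mp (mem_interior_iff_mem_nhds.mp hpi)
  obtain ⟨RK0, hRK0⟩ := hKc.isBounded.exists_norm_le
  obtain ⟨R0, hR0⟩ := hY.isBounded.exists_norm_le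
  obtain ⟨u, hu⟩ := exists_norm_eq E (zero_le_one' ℝ)
  obtain ⟨y0, hy0⟩ := hYne
  have hpK : p ∈ K := hp (mem_closedBall_self hr.le)
  have hRK0' : 0 ≤ RK0 := (norm_nonneg p).trans (hRK0 p hpK)
  have hR0' : 0 ≤ R0 := (norm_nonneg y0).trans (hR0 y0 hy0)
  set RK : ℝ≥0 := ⟨RK0, hRK0'⟩ with hRK
  set R : ℝ≥0 := ⟨R0, hR0'⟩ with hR
  set Q : ℝ := 2 * R * ((finrank ℝ E) * (2 * RK + 4 * R * (finrank ℝ E) / r) + 2 * R / r) with hQ
  have hQ0 : 0 ≤ Q := by positivity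
  refine ⟨Real.toNNReal Q + 1, by positivity, ?_⟩
  intro T0 T1 hT0 hT1 hY0 hY1 hopt0 hopt1 π hπ0 hπ1 w hw hc
  classical
  -- modify the maps off `Y`
  have hmod : ∀ T : E → E, Measurable T → (nrm m K).map T Yᶜ = 0 →
      (∀ S : E → E, Measurable S → (nrm m K).map S = (nrm m K).map T →
        ∫⁻ x, ‖x - T x‖ₑ ^ 2 ∂(nrm m K) ≤ ∫⁻ x, ‖x - S x‖ₑ ^ 2 ∂(nrm m K)) →
      ∃ T' : E → E, Measurable T' ∧ (∀ x, ‖T' x‖ ≤ R) ∧ T =ᵐ[nrm m K] T' ∧
        (∀ S : E → E, Measurable S → (nrm m K).map S = (nrm m K).map T' →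
          ∫⁻ x, ‖x - T' x‖ₑ ^ 2 ∂(nrm m K) ≤ ∫⁻ x, ‖x - S x‖ₑ ^ 2 ∂(nrm m K)) := by
    intro T hT hTY hTo
    have hae : T =ᵐ[nrm m K] fun x => if T x ∈ Y then T x else y0 := by
      rw [Measure.map_apply hT hY.measurableSet.compl] at hTY
      have : ∀ᵐ x ∂(nrm m K), T x ∈ Y := hTY
      filter_upwards [this] with x hx
      simp [hx]
    refine ⟨fun x => if T x ∈ Y then T x else y0, ?_, ?_, hae, ?_⟩
    · exact Measurable.ite (hT hY.measurableSet) hT measurable_const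
    · intro x
      simp only
      split_ifs with h
      · exact hR0 _ h
      · exact hR0 _ hy0
    · intro S hS hSm
      rw [← Measure.map_congr hae] at hSm
      refine le_of_eq_of_le ?_ (hTo S hS hSm)
      refine lintegral_congr_ae ?_
      filter_upwards [hae] with x hx
      rw [← hx]
  obtain ⟨T0', m0, b0, a0, o0⟩ := hmod T0 hT0 hY0 hopt0
  obtain ⟨T1', m1, b1, a1, o1⟩ := hmod T1 hT1 hY1 hopt1
  rw [Measure.map_congr a0] at hπ0
  rw [Measure.map_congr a1] at hπ1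
  have hmain := main_bound m K hKc hKconv p r hr hp RK (fun x hx => hRK0 x hx) R u hu T0' T1'
    m0 m1 b0 b1 o0 o1 π hπ0 hπ1 w hw hc
  have heq : ∫⁻ x, ‖T0 x - T1 x‖ₑ ^ 2 ∂(nrm m K) = ∫⁻ x, ‖T0' x - T1' x‖ₑ ^ 2 ∂(nrm m K) := by
    refine lintegral_congr_ae ?_
    filter_upwards [a0, a1] with x h0 h1
    rw [h0, h1]
  rw [heq]
  refine hmain.trans ?_
  rw [← mul_assoc, ENNReal.ofReal_mul (by positivity)]
  refine mul_le_mul_left ?_ _
  rw [ENNReal.ofReal]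
  exact_mod_cast le_add_of_nonneg_right (zero_le_one)

end Vale.Agent.P074
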