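import Mathlib
import Vale.Agent.P074.Lower

open MeasureTheory Metric Filter Topology Module
open scoped RealInnerProductSpace NNReal ENNReal

namespace Vale.Agent.P074

variable {E : Type*} [NormedAddCommGroup E] [InnerProductSpace ℝ E] [FiniteDimensional ℝ E]
  [MeasurableSpace E] [BorelSpace E] (m : Measure E) [m.IsAddHaarMeasure]

omit [InnerProductSpace ℝ E] [FiniteDimensional ℝ E] in
/-- nearest point map to a finite set -/
lemma exists_nearest (S : Set E) (hS : S.Finite) (hne : S.Nonempty) :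
    ∃ N : E → E, Measurable N ∧ (∀ y, N y ∈ S) ∧ ∀ y, ∀ z ∈ S, ‖N y - y‖ ≤ ‖z - y‖ := by
  classical
  obtain ⟨s0, hs0⟩ := hne
  set l := hS.toFinset.toList with hl
  have hlm : ∀ z, z ∈ l ↔ z ∈ S := by
    intro z
    rw [hl, Finset.mem_toList, Set.Finite.mem_toFinset]
  set e : ℕ → E := fun i => l.getD i s0 with he
  have hmem : ∀ i, e i ∈ S := by
    intro i
    by_cases hi : i < l.length
    · have h1 : e i = l[i] := by simp [he, hi]
      have h2 : l[i] ∈ l := List.getElem_mem hi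
      rw [h1]
      exact (hlm _).1 h2
    · have h1 : e i = s0 := by
        simp only [he]
        rw [List.getD_eq_default _ _ (not_lt.mp hi)]
      rw [h1]; exact hs0
  refine ⟨fun y => SimpleFunc.nearestPt e l.length y, (SimpleFunc.nearestPt e l.length).measurable,
    ?_, ?_⟩
  · intro y
    have : SimpleFunc.nearestPt e l.length y = e (SimpleFunc.nearestPtInd e l.length y) := rfl
    simp only [this]
    exact hmem _
  · intro y z hz
    have hzl : z ∈ l := (hlm z).2 hz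
    obtain ⟨k, hk, hkz⟩ := List.getElem_of_mem hzl
    have h1 : e k = z := by simp [he, hk, hkz]
    have h2 := SimpleFunc.edist_nearestPt_le e y (k := k) (N := l.length) hk.le
    rw [h1, edist_dist, edist_dist, ENNReal.ofReal_le_ofReal_iff dist_nonneg, dist_eq_norm,
      dist_eq_norm] at h2
    exact h2

lemma dir_bound_gen (K : Set E) (hKc : IsCompact K) (hKconv : Convex ℝ K) (p : E) (r : ℝ)
    (hr : 0 < r) (hp : closedBall p r ⊆ K) (h : ℝ) (hh : 0 < h) (hhr : h ≤ r)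
    (S T1 : E → E) (hS : Measurable S) (hT1 : Measurable T1) (R : ℝ≥0)
    (hRS : ∀ x, ‖S x‖ ≤ R) (hR1 : ∀ x, ‖T1 x‖ ≤ R)
    (G1 : Set E) (hG1 : ∀ᵐ x ∂m, x ∈ K → x ∈ G1)
    (φ1 ψ1 : E → ℝ) (hφ1 : LipschitzWith R φ1) (RK : ℝ≥0) (hψ1 : LipschitzWith RK ψ1)
    (s1 : ∀ x ∈ G1, ∀ x' ∈ G1, ⟪x' - x, T1 x⟫ ≤ φ1 x' - φ1 x)
    (c1 : ∀ x ∈ G1, ∀ y, ⟪x, y⟫ - φ1 x ≤ ψ1 y)
    (L : E → ℝ) (hLdef : ∀ x, L x = φ1 x + ψ1 (S x) - ⟪x, S x⟫) (hLint : IntegrableOn L K m)
    (I : ℝ) (hI : ∫ x in K, L x ∂m ≤ I) (e : E) (he : ‖e‖ = 1) :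
    h * ∫ x in K, |⟪e, S x - T1 x⟫| ∂m ≤
      I + 4 * R * h * ((finrank ℝ E) * (h / r) * m.real K) := by
  obtain ⟨A, hAc, hAv, hAK, hAm⟩ := exists_shrink m K hKc hKconv p r hr hp h hh hhr
  set v : E := h • e with hv
  have hvn : ‖v‖ = h := by rw [hv, norm_smul, he, mul_one, Real.norm_eq_abs, abs_of_pos hh]
  set Δ : E → ℝ := fun x => φ1 (x + v) + φ1 (x - v) - 2 * φ1 x with hΔ
  have hKfin : m K < ⊤ := hKc.measure_lt_top
  have hKm : MeasurableSet K := hKc.measurableSet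
  have hAmeas : MeasurableSet A := hAc.measurableSet
  have hTT : ∀ x, ‖S x - T1 x‖ ≤ 2 * R := fun x =>
    (norm_sub_le _ _).trans (by linarith [hRS x, hR1 x])
  have hdmeas : Measurable fun x => |⟪e, S x - T1 x⟫| := by
    have : Measurable fun x => ⟪e, S x - T1 x⟫ := measurable_const.inner (hS.sub hT1)
    exact this.abs
  have hdb : ∀ x, |⟪e, S x - T1 x⟫| ≤ 2 * R := fun x =>
    (abs_real_inner_le_norm _ _).trans (by rw [he, one_mul]; exact hTT x)
  have hdint : IntegrableOn (fun x => |⟪e, S x - T1 x⟫|) K m := by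
    refine Measure.integrableOn_of_bounded (M := 2 * R) hKfin.ne
      hdmeas.aestronglyMeasurable (Filter.Eventually.of_forall fun x => ?_)
    rw [Real.norm_eq_abs, abs_abs]
    exact hdb x
  have hΔcont : Continuous Δ := by
    rw [hΔ]
    have := hφ1.continuous
    fun_prop
  have hΔint : IntegrableOn Δ A m := hΔcont.continuousOn.integrableOn_compact hAc
  have hLnn : ∀ᵐ x ∂m, x ∈ K → 0 ≤ L x := by
    filter_upwards [hG1] with x h1 hx
    have a1 := c1 x (h1 hx) (S x)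
    rw [hLdef]
    linarith
  have hlow : ∀ᵐ x ∂m, x ∈ A → h * |⟪e, S x - T1 x⟫| ≤ L x + Δ x := by
    have q1 : ∀ᵐ x ∂m, x + v ∈ K → x + v ∈ G1 :=
      (measurePreserving_add_right m v).quasiMeasurePreserving.ae hG1
    have q2 : ∀ᵐ x ∂m, x + -v ∈ K → x + -v ∈ G1 :=
      (measurePreserving_add_right m (-v)).quasiMeasurePreserving.ae hG1
    filter_upwards [hG1, q1, q2] with x h1 h2 h3 hx
    have hxK := hAK hx
    have m1 : x + v ∈ G1 := h2 (hAv x hx v hvn.le)
    have m2 : x + -v ∈ G1 := h3 (hAv x hx (-v) (by rw [norm_neg]; exact hvn.le))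
    have x1 := h1 hxK
    have b1 := c1 _ m1 (S x)
    have b2 := c1 _ m2 (S x)
    have d1 := s1 x x1 _ m1
    have d2 := s1 x x1 _ m2
    rw [add_sub_cancel_left] at d1 d2
    rw [inner_neg_left] at d2
    rw [inner_add_left] at b1 b2
    rw [inner_neg_left] at b2
    have e1 : ⟪v, S x⟫ = h * ⟪e, S x⟫ := by rw [hv, real_inner_smul_left]
    have e2 : ⟪v, T1 x⟫ = h * ⟪e, T1 x⟫ := by rw [hv, real_inner_smul_left]
    have e3 : ⟪e, S x - T1 x⟫ = ⟪e, S x⟫ - ⟪e, T1 x⟫ := inner_sub_right _ _ _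
    have e4 : x - v = x + -v := sub_eq_add_neg _ _
    rw [e1] at b1 b2
    rw [e2] at d1 d2
    rw [hLdef]
    simp only [hΔ]
    rw [e3, e4]
    rcases abs_cases (⟪e, S x⟫ - ⟪e, T1 x⟫) with ⟨h5, _⟩ | ⟨h5, _⟩
    · rw [h5]; nlinarith
    · rw [h5]; nlinarith
  have i1 : h * ∫ x in A, |⟪e, S x - T1 x⟫| ∂m ≤ ∫ x in A, L x ∂m + ∫ x in A, Δ x ∂m := by
    rw [← integral_const_mul, ← integral_add (hLint.mono_set hAK) hΔint]
    refine integral_mono_ae ((hdint.mono_set hAK).const_mul h) ((hLint.mono_set hAK).add hΔint) ?_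
    rw [EventuallyLE, ae_restrict_iff' hAmeas]
    exact hlow
  have i2 : ∫ x in A, L x ∂m ≤ ∫ x in K, L x ∂m := by
    refine setIntegral_mono_set hLint ?_ (Filter.Eventually.of_forall hAK)
    rw [EventuallyLE, ae_restrict_iff' hKm]
    exact hLnn
  have i3 : ∫ x in A, Δ x ∂m ≤ 2 * (R * h) * (m.real K - m.real A) := by
    have := second_diff m φ1 R hφ1 K A hKc hAc hAK v (fun x hx => by
      rw [sub_eq_add_neg]; exact hAv x hx (-v) (by rw [norm_neg]; exact hvn.le))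
    rwa [hvn] at this
  have i4 : ∫ x in K, |⟪e, S x - T1 x⟫| ∂m =
      ∫ x in A, |⟪e, S x - T1 x⟫| ∂m + ∫ x in K \ A, |⟪e, S x - T1 x⟫| ∂m := by
    rw [← integral_inter_add_sdiff hAmeas hdint, Set.inter_eq_self_of_subset_right hAK]
  have i5 : ∫ x in K \ A, |⟪e, S x - T1 x⟫| ∂m ≤ 2 * R * (m.real K - m.real A) := by
    have := norm_setIntegral_le_of_norm_le_const (μ := m) (s := K \ A)
      (f := fun x => |⟪e, S x - T1 x⟫|) (C := 2 * R)
      ((measure_mono Set.sdiff_subset).trans_lt hKfin) (fun x _ => by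
        rw [Real.norm_eq_abs, abs_abs]; exact hdb x)
    rw [measureReal_sdiff hAK hAmeas hKfin.ne] at this
    exact (le_abs_self _).trans this
  rw [i4, mul_add]
  have i6 : h * ∫ x in K \ A, |⟪e, S x - T1 x⟫| ∂m ≤ h * (2 * R * (m.real K - m.real A)) :=
    mul_le_mul_of_nonneg_left i5 hh.le
  have i7 : 4 * R * h * (m.real K - m.real A) ≤ 4 * R * h * ((finrank ℝ E) * (h / r) * m.real K) :=
    mul_le_mul_of_nonneg_left hAm (by positivity)
  linarith

/-- `L¹` estimate, general competitor. -/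
lemma l1_bound_gen (K : Set E) (hKc : IsCompact K) (hKconv : Convex ℝ K) (p : E) (r : ℝ)
    (hr : 0 < r) (hp : closedBall p r ⊆ K) (δ : ℝ) (hδ : 0 < δ)
    (S T1 : E → E) (hS : Measurable S) (hT1 : Measurable T1) (R : ℝ≥0)
    (hRS : ∀ x, ‖S x‖ ≤ R) (hR1 : ∀ x, ‖T1 x‖ ≤ R)
    (G1 : Set E) (hG1 : ∀ᵐ x ∂m, x ∈ K → x ∈ G1)
    (φ1 ψ1 : E → ℝ) (hφ1 : LipschitzWith R φ1) (RK : ℝ≥0) (hψ1 : LipschitzWith RK ψ1)
    (s1 : ∀ x ∈ G1, ∀ x' ∈ G1, ⟪x' - x, T1 x⟫ ≤ φ1 x' - φ1 x)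
    (c1 : ∀ x ∈ G1, ∀ y, ⟪x, y⟫ - φ1 x ≤ ψ1 y)
    (L : E → ℝ) (hLdef : ∀ x, L x = φ1 x + ψ1 (S x) - ⟪x, S x⟫) (hLint : IntegrableOn L K m)
    (hI : ∫ x in K, L x ∂m ≤ m.real K * δ ^ 2) :
    ∫ x in K, ‖S x - T1 x‖ ∂m ≤
      m.real K * (((finrank ℝ E) * (1 + 4 * R * (finrank ℝ E) / r) + 2 * R / r) * δ) := by
  have hKfin : m K < ⊤ := hKc.measure_lt_top
  have hV : 0 ≤ m.real K := measureReal_nonneg
  have hTT : ∀ x, ‖S x - T1 x‖ ≤ 2 * R := fun x =>
    (norm_sub_le _ _).trans (by linarith [hRS x, hR1 x])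
  have hnint : IntegrableOn (fun x => ‖S x - T1 x‖) K m := by
    refine Measure.integrableOn_of_bounded (M := 2 * R) hKfin.ne
      (hS.sub hT1).norm.aestronglyMeasurable (Filter.Eventually.of_forall fun x => ?_)
    rw [norm_norm]; exact hTT x
  have hRr : (0 : ℝ) ≤ 2 * R / r := by positivity
  have hdd : (0 : ℝ) ≤ (finrank ℝ E) * (1 + 4 * R * (finrank ℝ E) / r) := by positivity
  rcases le_or_gt δ r with hwr | hwr
  · -- main case
    set b := stdOrthonormalBasis ℝ E with hb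
    have hdir : ∀ i, ∫ x in K, |⟪b i, S x - T1 x⟫| ∂m ≤
        m.real K * ((1 + 4 * R * (finrank ℝ E) / r) * δ) := by
      intro i
      have h1 := dir_bound_gen m K hKc hKconv p r hr hp δ hδ hwr S T1 hS hT1 R hRS hR1 G1
        hG1 φ1 ψ1 hφ1 RK hψ1 s1 c1 L hLdef hLint _ hI (b i) (b.norm_eq_one i)
      have h2 : m.real K * δ ^ 2 +
          4 * R * δ * ((finrank ℝ E) * (δ / r) * m.real K) =
          δ * (m.real K * ((1 + 4 * R * (finrank ℝ E) / r) * δ)) := by
        field_simp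
      rw [h2] at h1
      exact le_of_mul_le_mul_left h1 hδ
    have hdint : ∀ i, IntegrableOn (fun x => |⟪b i, S x - T1 x⟫|) K m := by
      intro i
      have hme : Measurable fun x => ⟪b i, S x - T1 x⟫ := measurable_const.inner (hS.sub hT1)
      refine Measure.integrableOn_of_bounded (M := 2 * R) hKfin.ne
        hme.abs.aestronglyMeasurable (Filter.Eventually.of_forall fun x => ?_)
      rw [Real.norm_eq_abs, abs_abs]
      exact (abs_real_inner_le_norm _ _).trans (by rw [b.norm_eq_one i, one_mul]; exact hTT x)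
    have h3 : ∫ x in K, ‖S x - T1 x‖ ∂m ≤ ∑ i, ∫ x in K, |⟪b i, S x - T1 x⟫| ∂m := by
      rw [← integral_finsetSum _ (fun i _ => hdint i)]
      refine integral_mono hnint (integrable_finsetSum _ fun i _ => hdint i) ?_
      intro x
      simp only
      nth_rewrite 1 [← b.sum_repr' (S x - T1 x)]
      refine (norm_sum_le _ _).trans (le_of_eq ?_)
      refine Finset.sum_congr rfl fun i _ => ?_
      rw [norm_smul, b.norm_eq_one i, mul_one, Real.norm_eq_abs]
    refine h3.trans ((Finset.sum_le_sum fun i _ => hdir i).trans ?_)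
    rw [Finset.sum_const, Finset.card_univ, Fintype.card_fin, nsmul_eq_mul]
    have : 0 ≤ m.real K * (2 * R / r * δ) := by positivity
    nlinarith
  · have h1 : ∫ x in K, ‖S x - T1 x‖ ∂m ≤ 2 * R * m.real K := by
      have := norm_setIntegral_le_of_norm_le_const (μ := m) (s := K)
        (f := fun x => ‖S x - T1 x‖) (C := 2 * R) hKfin (fun x _ => by
          rw [norm_norm]; exact hTT x)
      exact (le_abs_self _).trans this
    refine h1.trans ?_
    have h2 : 2 * R ≤ 2 * R / r * δ := by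
      rw [div_mul_eq_mul_div, le_div_iff₀ hr]
      exact mul_le_mul_of_nonneg_left hwr.le (by positivity)
    have h3 : 0 ≤ (finrank ℝ E) * (1 + 4 * R * (finrank ℝ E) / r) * δ := by positivity
    calc 2 * R * m.real K = m.real K * (2 * R) := by ring
      _ ≤ m.real K * ((finrank ℝ E) * (1 + 4 * R * (finrank ℝ E) / r) * δ +
          2 * R / r * δ) := mul_le_mul_of_nonneg_left (by linarith) hV
      _ = _ := by ring

end Vale.Agent.P074
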