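import Mathlib
import Vale.Agent.P074.Sep

open MeasureTheory Metric Filter Topology Module
open scoped RealInnerProductSpace NNReal ENNReal

namespace Vale.Agent.P074

variable {E : Type*} [NormedAddCommGroup E] [InnerProductSpace ℝ E] [FiniteDimensional ℝ E]
  [MeasurableSpace E] [BorelSpace E] (m : Measure E) [m.IsAddHaarMeasure]

lemma quad {P A τ : ℝ} (hA : 0 ≤ A) (hτ : 0 < τ)
    (h : P ^ 2 ≤ A * (τ ^ 2 * P + τ ^ 4)) : P ≤ (A + 1) * τ ^ 2 := by
  by_contra hlt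
  push Not at hlt
  have h1 : 0 < τ ^ 2 := by positivity
  have h2 : 0 < P := lt_of_le_of_lt (by positivity) hlt
  have h3 : (A + 1) * τ ^ 2 * P < P * P := mul_lt_mul_of_pos_right hlt h2
  have h4 : (A + 1) * τ ^ 2 * τ ^ 2 < P * τ ^ 2 := mul_lt_mul_of_pos_right hlt h1
  have h5 : 0 < τ ^ 2 * τ ^ 2 := by positivity
  nlinarith

omit [FiniteDimensional ℝ E] [InnerProductSpace ℝ E] in
lemma ae_mem_of_map {π : Measure (E × E)} {ρ : Measure E} (T : E → E) (P : E × E → E)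
    (hT : Measurable T) (hP : Measurable P) (S : Set E) (hS : MeasurableSet S)
    (hTS : ∀ x, T x ∈ S) (h : π.map P = ρ.map T) : ∀ᵐ q ∂π, P q ∈ S := by
  refine ae_of_ae_map hP.aemeasurable (p := fun y => y ∈ S) ?_
  rw [h]
  exact (ae_map_iff (p := fun y => y ∈ S) hT.aemeasurable hS).2 (Filter.Eventually.of_forall hTS)

/-- The projection onto the support of the second marginal is cheap. -/
lemma proj_cost (ρ : Measure E) (T0 T1 : E → E) (hT0 : Measurable T0) (hT1 : Measurable T1)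
    (S1 : Set E) (hS1 : MeasurableSet S1) (hTS : ∀ x, T1 x ∈ S1)
    (N : E → E) (hN : Measurable N) (hNn : ∀ y, ∀ z ∈ S1, ‖N y - y‖ ≤ ‖z - y‖)
    (π : Measure (E × E)) (P0 P1 : E × E → E) (hP0 : Measurable P0) (hP1 : Measurable P1)
    (hπ0 : π.map P0 = ρ.map T0) (hπ1 : π.map P1 = ρ.map T1) (W : ℝ) (hW : 0 ≤ W)
    (hc : ∫⁻ q, ‖P0 q - P1 q‖ₑ ^ 2 ∂π ≤ ENNReal.ofReal W) :
    ∫ x, ‖N (T0 x) - T0 x‖ ^ 2 ∂ρ ≤ W := by
  have hF : Measurable fun y : E => ENNReal.ofReal (‖N y - y‖ ^ 2) := by fun_prop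
  have hae := ae_mem_of_map T1 P1 hT1 hP1 S1 hS1 hTS hπ1
  rw [integral_eq_lintegral_of_nonneg_ae (Filter.Eventually.of_forall fun x => by positivity)
    (by fun_prop)]
  refine ENNReal.toReal_le_of_le_ofReal hW ?_
  calc ∫⁻ x, ENNReal.ofReal (‖N (T0 x) - T0 x‖ ^ 2) ∂ρ
      = ∫⁻ y, ENNReal.ofReal (‖N y - y‖ ^ 2) ∂(ρ.map T0) := (lintegral_map hF hT0).symm
    _ = ∫⁻ q, ENNReal.ofReal (‖N (P0 q) - P0 q‖ ^ 2) ∂π := by
        rw [← hπ0, lintegral_map hF hP0]
    _ ≤ ∫⁻ q, ‖P0 q - P1 q‖ₑ ^ 2 ∂π := by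
        refine lintegral_mono_ae ?_
        filter_upwards [hae] with q hq
        rw [← ofReal_norm, ← ENNReal.ofReal_pow (norm_nonneg _)]
        refine ENNReal.ofReal_le_ofReal ?_
        refine pow_le_pow_left₀ (norm_nonneg _) ?_ 2
        rw [norm_sub_rev (P0 q)]
        exact hNn _ _ hq
    _ ≤ _ := hc

/-- Potentials see only the cost squared on separated sets. -/
lemma pot_diff (ρ : Measure E) [IsProbabilityMeasure ρ]
    (T0 T1 : E → E) (hT0 : Measurable T0) (hT1 : Measurable T1)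
    (S1 : Set E) (hS1 : MeasurableSet S1) (hTS : ∀ x, T1 x ∈ S1) (R : ℝ)
    (hR0 : ∀ x, ‖T0 x‖ ≤ R) (hS1R : ∀ y ∈ S1, ‖y‖ ≤ R) (ℓ : ℝ) (hℓ : 0 < ℓ)
    (sep1 : ∀ y ∈ S1, ∀ z ∈ S1, y ≠ z → ℓ ≤ ‖y - z‖)
    (N : E → E) (hN : Measurable N) (hNS : ∀ y, N y ∈ S1)
    (hNn : ∀ y, ∀ z ∈ S1, ‖N y - y‖ ≤ ‖z - y‖)
    (ψ : E → ℝ) (RK : ℝ≥0) (hψ : LipschitzWith RK ψ)
    (π : Measure (E × E)) (P0 P1 : E × E → E) (hP0 : Measurable P0) (hP1 : Measurable P1)
    (hπ0 : π.map P0 = ρ.map T0) (hπ1 : π.map P1 = ρ.map T1) (W : ℝ) (hW : 0 ≤ W)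
    (hc : ∫⁻ q, ‖P0 q - P1 q‖ₑ ^ 2 ∂π ≤ ENNReal.ofReal W) :
    ∫ x, ψ (N (T0 x)) - ψ (T1 x) ∂ρ ≤ 4 * RK / ℓ * W := by
  have hae1 := ae_mem_of_map T1 P1 hT1 hP1 S1 hS1 hTS hπ1
  have hae0 := ae_mem_of_map T0 P0 hT0 hP0 (closedBall 0 R) isClosed_closedBall.measurableSet
    (fun x => by simpa using hR0 x) hπ0
  have hπprob : IsProbabilityMeasure π := by
    have h1 : π.map P0 Set.univ = 1 := by
      rw [hπ0, Measure.map_apply hT0 MeasurableSet.univ, Set.preimage_univ, measure_univ]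
    rw [Measure.map_apply hP0 MeasurableSet.univ, Set.preimage_univ] at h1
    exact ⟨h1⟩
  obtain ⟨C, hC⟩ := (isCompact_closedBall (0 : E) R).exists_bound_of_continuousOn
    hψ.continuous.continuousOn
  have hψm : Measurable ψ := hψ.continuous.measurable
  have hψN : Measurable fun y => ψ (N y) := hψm.comp hN
  have i1 : Integrable (fun x => ψ (N (T0 x))) ρ :=
    Integrable.of_bound (hψN.comp hT0).aestronglyMeasurable C
      (Filter.Eventually.of_forall fun x => hC _ (by simpa using hS1R _ (hNS _)))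
  have i2 : Integrable (fun x => ψ (T1 x)) ρ :=
    Integrable.of_bound (hψm.comp hT1).aestronglyMeasurable C
      (Filter.Eventually.of_forall fun x => hC _ (by simpa using hS1R _ (hTS _)))
  have j1 : Integrable (fun q => ψ (N (P0 q))) π :=
    Integrable.of_bound (hψN.comp hP0).aestronglyMeasurable C
      (Filter.Eventually.of_forall fun x => hC _ (by simpa using hS1R _ (hNS _)))
  have j2 : Integrable (fun q => ψ (P1 q)) π := by
    refine Integrable.of_bound (hψm.comp hP1).aestronglyMeasurable C ?_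
    filter_upwards [hae1] with q hq
    exact hC _ (by simpa using hS1R _ hq)
  have hsqint : Integrable (fun q : E × E => ‖P0 q - P1 q‖ ^ 2) π := by
    refine Integrable.of_bound
      ((hP0.sub hP1).norm.pow_const 2).aestronglyMeasurable
      ((R + R) ^ 2) ?_
    filter_upwards [hae0, hae1] with q h1 h2
    rw [Real.norm_of_nonneg (by positivity)]
    refine pow_le_pow_left₀ (norm_nonneg _) ((norm_sub_le _ _).trans (add_le_add ?_ (hS1R _ h2))) 2
    simpa using h1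
  have hsq : ∫ q, ‖P0 q - P1 q‖ ^ 2 ∂π ≤ W := by
    have h1 : ∫⁻ q, ‖P0 q - P1 q‖ₑ ^ 2 ∂π = ENNReal.ofReal (∫ q, ‖P0 q - P1 q‖ ^ 2 ∂π) := by
      rw [ofReal_integral_eq_lintegral_ofReal hsqint (Filter.Eventually.of_forall fun x => by positivity)]
      refine lintegral_congr fun x => ?_
      rw [ENNReal.ofReal_pow (norm_nonneg _), ofReal_norm]
    rw [h1] at hc
    exact (ENNReal.ofReal_le_ofReal_iff hW).mp hc
  have e1 : ∫ x, ψ (N (T0 x)) ∂ρ = ∫ q, ψ (N (P0 q)) ∂π := by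
    rw [← integral_map (f := fun y => ψ (N y)) hT0.aemeasurable hψN.aestronglyMeasurable, ← hπ0,
      integral_map hP0.aemeasurable hψN.aestronglyMeasurable]
  have e2 : ∫ x, ψ (T1 x) ∂ρ = ∫ q, ψ (P1 q) ∂π := by
    rw [← integral_map hT1.aemeasurable hψm.aestronglyMeasurable, ← hπ1,
      integral_map hP1.aemeasurable hψm.aestronglyMeasurable]
  calc ∫ x, ψ (N (T0 x)) - ψ (T1 x) ∂ρ
      = ∫ q, ψ (N (P0 q)) - ψ (P1 q) ∂π := by
        rw [integral_sub i1 i2, integral_sub j1 j2, e1, e2]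
    _ ≤ ∫ q, 4 * RK / ℓ * ‖P0 q - P1 q‖ ^ 2 ∂π := by
        refine integral_mono_ae (j1.sub j2) (hsqint.const_mul _) ?_
        filter_upwards [hae1] with q hq
        by_cases hne : N (P0 q) = P1 q
        · rw [hne, sub_self]; positivity
        · have h1 := sep1 _ (hNS (P0 q)) _ hq hne
          have h2 : ‖N (P0 q) - P1 q‖ ≤ 2 * ‖P0 q - P1 q‖ := by
            have h3 : N (P0 q) - P1 q = (N (P0 q) - P0 q) + (P0 q - P1 q) := by abel
            have h4 := hNn (P0 q) _ hq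
            rw [norm_sub_rev (P1 q)] at h4
            rw [h3]
            refine (norm_add_le _ _).trans (by linarith)
          have h5 : |ψ (N (P0 q)) - ψ (P1 q)| ≤ RK * ‖N (P0 q) - P1 q‖ := by
            have := hψ.dist_le_mul (N (P0 q)) (P1 q)
            rwa [Real.dist_eq, dist_eq_norm] at this
          have h6 : ‖N (P0 q) - P1 q‖ ≤ 4 / ℓ * ‖P0 q - P1 q‖ ^ 2 := by
            rw [div_mul_eq_mul_div, le_div_iff₀ hℓ]
            have h7 : 0 ≤ ‖P0 q - P1 q‖ := norm_nonneg _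
            nlinarith [norm_nonneg (N (P0 q) - P1 q)]
          calc ψ (N (P0 q)) - ψ (P1 q) ≤ |ψ (N (P0 q)) - ψ (P1 q)| := le_abs_self _
            _ ≤ RK * ‖N (P0 q) - P1 q‖ := h5
            _ ≤ RK * (4 / ℓ * ‖P0 q - P1 q‖ ^ 2) := mul_le_mul_of_nonneg_left h6 RK.2
            _ = _ := by ring
    _ = 4 * RK / ℓ * ∫ q, ‖P0 q - P1 q‖ ^ 2 ∂π := integral_const_mul _ _
    _ ≤ _ := mul_le_mul_of_nonneg_left hsq (by positivity)

/-- Data of one side: `S` is another map, `D` its duality gap. -/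
lemma gap_side (K : Set E) (hKc : IsCompact K) (hKconv : Convex ℝ K) (p : E) (r : ℝ)
    (hr : 0 < r) (hp : closedBall p r ⊆ K) (h0 : m K ≠ 0) (RK : ℝ≥0) (hRK : ∀ x ∈ K, ‖x‖ ≤ RK)
    (R : ℝ≥0) (S T : E → E) (hS : Measurable S) (hT : Measurable T)
    (hRS : ∀ x, ‖S x‖ ≤ R) (hRT : ∀ x, ‖T x‖ ≤ R)
    (G : Set E) (hG : ∀ᵐ x ∂m, x ∈ K → x ∈ G)
    (φ ψ : E → ℝ) (hφ : LipschitzWith R φ) (hψ : LipschitzWith RK ψ)
    (s1 : ∀ x ∈ G, ∀ x' ∈ G, ⟪x' - x, T x⟫ ≤ φ x' - φ x)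
    (c1 : ∀ x ∈ G, ∀ y, ⟪x, y⟫ - φ x ≤ ψ y) (c1' : ∀ x ∈ G, ψ (T x) = ⟪x, T x⟫ - φ x) :
    Integrable (fun x => ⟪x, T x - S x⟫) (nrm m K) ∧
    Integrable (fun x => ψ (S x) - ψ (T x)) (nrm m K) ∧
    0 ≤ ∫ x, (⟪x, T x - S x⟫ + (ψ (S x) - ψ (T x))) ∂(nrm m K) ∧
    ∀ δ : ℝ, 0 < δ → ∫ x, (⟪x, T x - S x⟫ + (ψ (S x) - ψ (T x))) ∂(nrm m K) ≤ δ ^ 2 →
      ∫ x, ‖S x - T x‖ ∂(nrm m K) ≤
        ((finrank ℝ E) * (1 + 4 * R * (finrank ℝ E) / r) + 2 * R / r) * δ := by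
  have hKfin : m K ≠ ⊤ := hKc.measure_lt_top.ne
  have hprob := nrm_prob m K h0 hKfin
  have hpos : 0 < m.real K := ENNReal.toReal_pos h0 hKfin
  have hKm : MeasurableSet K := hKc.measurableSet
  have hxK : ∀ᵐ x ∂(nrm m K), ‖x‖ ≤ RK := by
    filter_upwards [nrm_ae m K hKm] with x hx
    exact hRK x hx
  have hTS : ∀ x, ‖T x - S x‖ ≤ 2 * R := fun x =>
    (norm_sub_le _ _).trans (by linarith [hRS x, hRT x])
  obtain ⟨C, hC⟩ := (isCompact_closedBall (0 : E) R).exists_bound_of_continuousOn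
    hψ.continuous.continuousOn
  have hψm : Measurable ψ := hψ.continuous.measurable
  have i1 : Integrable (fun x => ⟪x, T x - S x⟫) (nrm m K) := by
    refine Integrable.of_bound (measurable_id.inner (hT.sub hS)).aestronglyMeasurable
      (RK * (2 * R)) ?_
    filter_upwards [hxK] with x hx
    refine (norm_inner_le_norm _ _).trans ?_
    exact mul_le_mul hx (hTS x) (norm_nonneg _) RK.2
  have i2 : Integrable (fun x => ψ (S x) - ψ (T x)) (nrm m K) := by
    refine Integrable.sub ?_ ?_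
    · exact Integrable.of_bound (hψm.comp hS).aestronglyMeasurable C
        (Filter.Eventually.of_forall fun x => hC _ (by simpa using hRS x))
    · exact Integrable.of_bound (hψm.comp hT).aestronglyMeasurable C
        (Filter.Eventually.of_forall fun x => hC _ (by simpa using hRT x))
  set L : E → ℝ := fun x => φ x + ψ (S x) - ⟪x, S x⟫ with hL
  have hGn : ∀ᵐ x ∂(m.restrict K), x ∈ G := by
    rw [ae_restrict_iff' hKm]; exact hG
  have hGn' : ∀ᵐ x ∂(nrm m K), x ∈ G := by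
    rw [nrm]; exact Measure.ae_smul_measure hGn _
  have hLeq : ∀ x ∈ G, L x = ⟪x, T x - S x⟫ + (ψ (S x) - ψ (T x)) := by
    intro x hx
    simp only [hL]
    rw [c1' x hx, inner_sub_right]
    ring
  have hLn : ∫ x, (⟪x, T x - S x⟫ + (ψ (S x) - ψ (T x))) ∂(nrm m K) = ∫ x, L x ∂(nrm m K) := by
    refine integral_congr_ae ?_
    filter_upwards [hGn'] with x hx
    exact (hLeq x hx).symm
  have hLm : Measurable L := by
    rw [hL]
    exact (hφ.continuous.measurable.add (hψm.comp hS)).sub (measurable_id.inner hS)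
  have hLint : IntegrableOn L K m := by
    obtain ⟨C2, hC2⟩ := hKc.exists_bound_of_continuousOn hφ.continuous.continuousOn
    refine Measure.integrableOn_of_bounded (M := C2 + C + RK * R) hKfin
      hLm.aestronglyMeasurable ?_
    rw [ae_restrict_iff' hKm]
    refine Filter.Eventually.of_forall fun x hx => ?_
    have q1 := hC2 x hx
    have q2 := hC (S x) (by simpa using hRS x)
    have q3 : ‖⟪x, S x⟫‖ ≤ RK * R :=
      (norm_inner_le_norm _ _).trans (mul_le_mul (hRK x hx) (hRS x) (norm_nonneg _) RK.2)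
    simp only [hL]
    exact (norm_sub_le _ _).trans (add_le_add ((norm_add_le _ _).trans (add_le_add q1 q2)) q3)
  refine ⟨i1, i2, ?_, ?_⟩
  · rw [hLn]
    refine integral_nonneg_of_ae ?_
    filter_upwards [hGn'] with x hx
    have := c1 x hx (S x)
    simp only [hL, Pi.zero_apply]
    linarith
  · intro δ hδ hle
    rw [hLn, integral_nrm] at hle
    have h1 : ∫ x in K, L x ∂m ≤ m.real K * δ ^ 2 := by
      have h2 := mul_le_mul_of_nonneg_left hle hpos.le
      rwa [← mul_assoc, mul_inv_cancel₀ hpos.ne', one_mul] at h2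
    have h3 := l1_bound_gen m K hKc hKconv p r hr hp δ hδ S T hS hT R hRS hRT G hG φ ψ hφ RK hψ
      s1 c1 L (fun x => rfl) hLint h1
    rw [integral_nrm]
    have h4 := mul_le_mul_of_nonneg_left h3 (inv_nonneg.mpr hpos.le)
    rwa [← mul_assoc, inv_mul_cancel₀ hpos.ne', one_mul] at h4

end Vale.Agent.P074
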