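import Mathlib
import Vale.Agent.P074.Sep2

open MeasureTheory Metric Filter Topology Module
open scoped RealInnerProductSpace NNReal ENNReal

namespace Vale.Agent.P074

variable {E : Type*} [NormedAddCommGroup E] [InnerProductSpace ℝ E] [FiniteDimensional ℝ E]
  [MeasurableSpace E] [BorelSpace E] (m : Measure E) [m.IsAddHaarMeasure]

/-- The constant `A` in the estimate for separated targets. -/
noncomputable def sepA (d r RK R ℓ : ℝ) : ℝ :=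
  4 * (d * (1 + 4 * R * d / r) + 2 * R / r) ^ 2 / ℓ ^ 2 * (2 * RK + 8 * RK / ℓ + 1)

lemma sep_bound (K : Set E) (hKc : IsCompact K) (hKconv : Convex ℝ K) (p : E) (r : ℝ)
    (hr : 0 < r) (hp : closedBall p r ⊆ K) (RK : ℝ≥0) (hRK : ∀ x ∈ K, ‖x‖ ≤ RK)
    (R : ℝ≥0) (u : E) (hu : ‖u‖ = 1) (ℓ : ℝ) (hℓ : 0 < ℓ)
    (S0 S1 : Set E) (hS0 : S0.Finite) (hS1 : S1.Finite)
    (hS0R : ∀ y ∈ S0, ‖y‖ ≤ R) (hS1R : ∀ y ∈ S1, ‖y‖ ≤ R)
    (sep0 : ∀ y ∈ S0, ∀ z ∈ S0, y ≠ z → ℓ ≤ ‖y - z‖)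
    (sep1 : ∀ y ∈ S1, ∀ z ∈ S1, y ≠ z → ℓ ≤ ‖y - z‖)
    (T0 T1 : E → E) (hT0 : Measurable T0) (hT1 : Measurable T1)
    (hR0 : ∀ x, T0 x ∈ S0) (hR1 : ∀ x, T1 x ∈ S1)
    (hopt0 : ∀ S : E → E, Measurable S → (nrm m K).map S = (nrm m K).map T0 →
      ∫⁻ x, ‖x - T0 x‖ₑ ^ 2 ∂(nrm m K) ≤ ∫⁻ x, ‖x - S x‖ₑ ^ 2 ∂(nrm m K))
    (hopt1 : ∀ S : E → E, Measurable S → (nrm m K).map S = (nrm m K).map T1 →
      ∫⁻ x, ‖x - T1 x‖ₑ ^ 2 ∂(nrm m K) ≤ ∫⁻ x, ‖x - S x‖ₑ ^ 2 ∂(nrm m K))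
    (π : Measure (E × E))
    (hπ0 : π.map Prod.fst = (nrm m K).map T0) (hπ1 : π.map Prod.snd = (nrm m K).map T1)
    (τ : ℝ) (hτ : 0 < τ) (hτ1 : τ ≤ 1)
    (hc : ∫⁻ q, ‖q.1 - q.2‖ₑ ^ 2 ∂π ≤ ENNReal.ofReal (τ ^ 6)) :
    ∫⁻ x, ‖T0 x - T1 x‖ₑ ^ 2 ∂(nrm m K) ≤ ENNReal.ofReal
      ((1 + 4 * R ^ 2 * (sepA (finrank ℝ E) r RK R ℓ + 1)) * τ ^ 2) := by
  classical
  have hKfin : m K ≠ ⊤ := hKc.measure_lt_top.ne
  have h0 : m K ≠ 0 := by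
    intro h
    have h1 : m (closedBall p r) ≤ 0 := (measure_mono hp).trans h.le
    exact absurd (Measure.measure_pos_of_nonempty_interior m
      (⟨p, interior_mono (ball_subset_closedBall) (by
        rw [isOpen_ball.interior_eq]; exact mem_ball_self hr)⟩ :
        (interior (closedBall p r)).Nonempty)) (not_lt.mpr h1)
  have hprob := nrm_prob m K h0 hKfin
  have hpos : 0 < m.real K := ENNReal.toReal_pos h0 hKfin
  have hKm : MeasurableSet K := hKc.measurableSet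
  have hT0R : ∀ x, ‖T0 x‖ ≤ R := fun x => hS0R _ (hR0 x)
  have hT1R : ∀ x, ‖T1 x‖ ≤ R := fun x => hS1R _ (hR1 x)
  obtain ⟨N0, hN0, hN0S, hN0n⟩ := exists_nearest S0 hS0 ⟨T0 p, hR0 p⟩
  obtain ⟨N1, hN1, hN1S, hN1n⟩ := exists_nearest S1 hS1 ⟨T1 p, hR1 p⟩
  obtain ⟨G0, φ0, ψ0, hG0, hφ0, hψ0, s0, c0, c0'⟩ :=
    exists_pots m K hKc hKconv h0 T0 hT0 R hT0R RK hRK hopt0 u hu
  obtain ⟨G1, φ1, ψ1, hG1, hφ1, hψ1, s1, c1, c1'⟩ :=
    exists_pots m K hKc hKconv h0 T1 hT1 R hT1R RK hRK hopt1 u hu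
  set U1 : E → E := fun x => N1 (T0 x) with hU1
  set U0 : E → E := fun x => N0 (T1 x) with hU0
  have mU1 : Measurable U1 := hN1.comp hT0
  have mU0 : Measurable U0 := hN0.comp hT1
  have U1S : ∀ x, U1 x ∈ S1 := fun x => hN1S _
  have U0S : ∀ x, U0 x ∈ S0 := fun x => hN0S _
  have U1R : ∀ x, ‖U1 x‖ ≤ R := fun x => hS1R _ (U1S x)
  have U0R : ∀ x, ‖U0 x‖ ≤ R := fun x => hS0R _ (U0S x)
  obtain ⟨i1, j1, nn1, b1⟩ := gap_side m K hKc hKconv p r hr hp h0 RK hRK R U1 T1 mU1 hT1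
    U1R hT1R G1 hG1 φ1 ψ1 hφ1 hψ1 s1 c1 c1'
  obtain ⟨i0, j0, nn0, b0⟩ := gap_side m K hKc hKconv p r hr hp h0 RK hRK R U0 T0 mU0 hT0
    U0R hT0R G0 hG0 φ0 ψ0 hφ0 hψ0 s0 c0 c0'
  have hW : (0 : ℝ) ≤ τ ^ 6 := by positivity
  have hc' : ∫⁻ q : E × E, ‖q.2 - q.1‖ₑ ^ 2 ∂π ≤ ENNReal.ofReal (τ ^ 6) := by
    refine le_of_eq_of_le ?_ hc
    refine lintegral_congr fun q => ?_
    rw [← ofReal_norm, ← ofReal_norm, norm_sub_rev]
  have a1 := proj_cost (nrm m K) T0 T1 hT0 hT1 S1 hS1.measurableSet hR1 N1 hN1 hN1n π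
    Prod.fst Prod.snd measurable_fst measurable_snd hπ0 hπ1 _ hW hc
  have a0 := proj_cost (nrm m K) T1 T0 hT1 hT0 S0 hS0.measurableSet hR0 N0 hN0 hN0n π
    Prod.snd Prod.fst measurable_snd measurable_fst hπ1 hπ0 _ hW hc'
  have d1 := pot_diff (nrm m K) T0 T1 hT0 hT1 S1 hS1.measurableSet hR1 R hT0R hS1R ℓ hℓ sep1
    N1 hN1 hN1S hN1n ψ1 RK hψ1 π Prod.fst Prod.snd measurable_fst measurable_snd hπ0 hπ1 _ hW hc
  have d0 := pot_diff (nrm m K) T1 T0 hT1 hT0 S0 hS0.measurableSet hR0 R hT1R hS0R ℓ hℓ sep0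
    N0 hN0 hN0S hN0n ψ0 RK hψ0 π Prod.snd Prod.fst measurable_snd measurable_fst hπ1 hπ0 _ hW hc'
  change ∫ x, ‖U1 x - T0 x‖ ^ 2 ∂(nrm m K) ≤ _ at a1
  change ∫ x, ‖U0 x - T1 x‖ ^ 2 ∂(nrm m K) ≤ _ at a0
  change ∫ x, ψ1 (U1 x) - ψ1 (T1 x) ∂(nrm m K) ≤ _ at d1
  change ∫ x, ψ0 (U0 x) - ψ0 (T0 x) ∂(nrm m K) ≤ _ at d0
  -- the bad set
  set B : Set E := {x | ¬ (U1 x = T1 x ∧ U0 x = T0 x)} with hB
  have hBm : MeasurableSet B :=
    ((measurableSet_eq_fun mU1 hT1).inter (measurableSet_eq_fun mU0 hT0)).compl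
  set g : E → ℝ := B.indicator (fun _ => (1 : ℝ)) with hg
  have g0 : ∀ x, 0 ≤ g x := fun x => Set.indicator_nonneg (fun _ _ => zero_le_one) x
  have gm : Measurable g := measurable_const.indicator hBm
  have gb : ∀ x, ‖g x‖ ≤ 1 := by
    intro x
    rw [Real.norm_of_nonneg (g0 x)]
    exact Set.indicator_le_self' (fun _ _ => zero_le_one) x
  have gi : Integrable g (nrm m K) :=
    Integrable.of_bound gm.aestronglyMeasurable 1 (Filter.Eventually.of_forall gb)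
  set P : ℝ := ∫ x, g x ∂(nrm m K) with hP
  have P0 : 0 ≤ P := integral_nonneg g0
  have ni : ∀ F H : E → E, Measurable F → Measurable H → (∀ x, ‖F x‖ ≤ R) → (∀ x, ‖H x‖ ≤ R) →
      Integrable (fun x => ‖F x - H x‖) (nrm m K) ∧
      Integrable (fun x => ‖F x - H x‖ ^ 2) (nrm m K) := by
    intro F H hF hH hFR hHR
    have hb : ∀ x, ‖F x - H x‖ ≤ 2 * R := fun x =>
      (norm_sub_le _ _).trans (by linarith [hFR x, hHR x])
    constructor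
    · refine Integrable.of_bound (hF.sub hH).norm.aestronglyMeasurable
        (2 * R) (Filter.Eventually.of_forall fun x => ?_)
      rw [norm_norm]
      exact hb x
    · refine Integrable.of_bound ((hF.sub hH).norm.pow_const 2).aestronglyMeasurable
        ((2 * R) ^ 2) (Filter.Eventually.of_forall fun x => ?_)
      rw [Real.norm_of_nonneg (by positivity)]
      exact pow_le_pow_left₀ (norm_nonneg _) (hb x) 2
  obtain ⟨_, ia1⟩ := ni U1 T0 mU1 hT0 U1R hT0R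
  obtain ⟨_, ia0⟩ := ni U0 T1 mU0 hT1 U0R hT1R
  obtain ⟨ib1, _⟩ := ni U1 T1 mU1 hT1 U1R hT1R
  obtain ⟨ib0, _⟩ := ni U0 T0 mU0 hT0 U0R hT0R
  obtain ⟨_, iT⟩ := ni T0 T1 hT0 hT1 hT0R hT1R
  -- the total gap
  have hinner : ∫ x, (⟪x, T1 x - U1 x⟫ + ⟪x, T0 x - U0 x⟫) ∂(nrm m K) ≤
      RK * (τ ^ 2 / 2 * P + 2 * τ ^ 4) := by
    have key : ∀ᵐ x ∂(nrm m K), ⟪x, T1 x - U1 x⟫ + ⟪x, T0 x - U0 x⟫ ≤
        RK * (τ ^ 2 / 2 * g x + (‖U1 x - T0 x‖ ^ 2 + ‖U0 x - T1 x‖ ^ 2) / τ ^ 2) := by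
      filter_upwards [nrm_ae m K hKm] with x hx
      by_cases hxB : x ∈ B
      · have gx : g x = 1 := by rw [hg, Set.indicator_of_mem hxB]
        rw [gx, mul_one, ← inner_add_right]
        have e1 : T1 x - U1 x + (T0 x - U0 x) = -((U1 x - T0 x) + (U0 x - T1 x)) := by abel
        have e2 : ‖T1 x - U1 x + (T0 x - U0 x)‖ ≤ ‖U1 x - T0 x‖ + ‖U0 x - T1 x‖ := by
          rw [e1, norm_neg]; exact norm_add_le _ _
        have e3 : ⟪x, T1 x - U1 x + (T0 x - U0 x)⟫ ≤ RK * (‖U1 x - T0 x‖ + ‖U0 x - T1 x‖) :=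
          (real_inner_le_norm _ _).trans (mul_le_mul (hRK x hx) e2 (norm_nonneg _) RK.2)
        refine e3.trans (mul_le_mul_of_nonneg_left ?_ RK.2)
        set α := ‖U1 x - T0 x‖
        set β := ‖U0 x - T1 x‖
        have hτ2 : 0 < τ ^ 2 := by positivity
        have e4 : τ ^ 2 / 2 + (α ^ 2 + β ^ 2) / τ ^ 2 - (α + β) =
            ((τ ^ 2 / 2 - α) ^ 2 + (τ ^ 2 / 2 - β) ^ 2) / τ ^ 2 := by
          field_simp
          ring
        have e5 : 0 ≤ ((τ ^ 2 / 2 - α) ^ 2 + (τ ^ 2 / 2 - β) ^ 2) / τ ^ 2 := by positivity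
        linarith
      · have hx' : U1 x = T1 x ∧ U0 x = T0 x := by
          by_contra h
          exact hxB h
        rw [hx'.1, hx'.2, sub_self, sub_self, inner_zero_right, add_zero]
        have := g0 x
        positivity
    have hint2 : Integrable (fun x => ‖U1 x - T0 x‖ ^ 2 + ‖U0 x - T1 x‖ ^ 2) (nrm m K) :=
      ia1.add ia0
    calc ∫ x, (⟪x, T1 x - U1 x⟫ + ⟪x, T0 x - U0 x⟫) ∂(nrm m K)
        ≤ ∫ x, RK * (τ ^ 2 / 2 * g x + (‖U1 x - T0 x‖ ^ 2 + ‖U0 x - T1 x‖ ^ 2) / τ ^ 2)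
          ∂(nrm m K) :=
          integral_mono_ae (i1.add i0)
            (((gi.const_mul _).add (hint2.div_const _)).const_mul _) key
      _ = RK * (τ ^ 2 / 2 * P + (∫ x, ‖U1 x - T0 x‖ ^ 2 ∂(nrm m K) +
            ∫ x, ‖U0 x - T1 x‖ ^ 2 ∂(nrm m K)) / τ ^ 2) := by
          rw [integral_const_mul, integral_add (gi.const_mul _) (hint2.div_const _),
            integral_const_mul, integral_div, integral_add ia1 ia0]
      _ ≤ _ := by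
          refine mul_le_mul_of_nonneg_left ?_ RK.2
          have h1 : (∫ x, ‖U1 x - T0 x‖ ^ 2 ∂(nrm m K) +
            ∫ x, ‖U0 x - T1 x‖ ^ 2 ∂(nrm m K)) / τ ^ 2 ≤ 2 * τ ^ 4 := by
            rw [div_le_iff₀ (by positivity)]
            nlinarith
          linarith
  set D1 : ℝ := ∫ x, (⟪x, T1 x - U1 x⟫ + (ψ1 (U1 x) - ψ1 (T1 x))) ∂(nrm m K) with hD1
  set D0 : ℝ := ∫ x, (⟪x, T0 x - U0 x⟫ + (ψ0 (U0 x) - ψ0 (T0 x))) ∂(nrm m K) with hD0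
  have hDD : D1 + D0 ≤ RK * (τ ^ 2 / 2 * P + 2 * τ ^ 4) + 8 * RK / ℓ * τ ^ 6 := by
    rw [hD1, hD0, integral_add i1 j1, integral_add i0 j0]
    rw [integral_add i1 i0] at hinner
    have : 8 * RK / ℓ * τ ^ 6 = 4 * RK / ℓ * τ ^ 6 + 4 * RK / ℓ * τ ^ 6 := by ring
    rw [this]
    linarith
  have hτ46 : τ ^ 6 ≤ τ ^ 4 := pow_le_pow_of_le_one hτ.le hτ1 (by norm_num)
  have hτ26 : τ ^ 6 ≤ τ ^ 2 := pow_le_pow_of_le_one hτ.le hτ1 (by norm_num)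
  set A' : ℝ := 2 * RK + 8 * RK / ℓ + 1 with hA'
  have hA'0 : 0 < A' := by positivity
  have hRKA : (RK : ℝ) / 2 ≤ A' := by
    have : 0 ≤ 8 * RK / ℓ := by positivity
    have h2 : (0 : ℝ) ≤ RK := RK.2
    rw [hA']; linarith
  have hQ : D1 + D0 ≤ A' * (τ ^ 2 * P + τ ^ 4) := by
    refine hDD.trans ?_
    have h1 : 8 * RK / ℓ * τ ^ 6 ≤ 8 * RK / ℓ * τ ^ 4 :=
      mul_le_mul_of_nonneg_left hτ46 (by positivity)
    have h2 : (RK : ℝ) / 2 * (τ ^ 2 * P) ≤ A' * (τ ^ 2 * P) :=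
      mul_le_mul_of_nonneg_right hRKA (by positivity)
    have h3 : 0 ≤ τ ^ 4 := by positivity
    have h4 : RK * (τ ^ 2 / 2 * P + 2 * τ ^ 4) = RK / 2 * (τ ^ 2 * P) + 2 * RK * τ ^ 4 := by ring
    have h5 : A' * (τ ^ 2 * P + τ ^ 4) = A' * (τ ^ 2 * P) + (2 * RK * τ ^ 4 +
      8 * RK / ℓ * τ ^ 4 + τ ^ 4) := by rw [hA']; ring
    rw [h4, h5]
    linarith
  have hQpos : 0 < A' * (τ ^ 2 * P + τ ^ 4) := by positivity
  set δ : ℝ := √(A' * (τ ^ 2 * P + τ ^ 4)) with hδ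
  have hδ0 : 0 < δ := Real.sqrt_pos.mpr hQpos
  have hδ2 : δ ^ 2 = A' * (τ ^ 2 * P + τ ^ 4) := Real.sq_sqrt hQpos.le
  have f1 := b1 δ hδ0 (by rw [hδ2]; linarith)
  have f0 := b0 δ hδ0 (by rw [hδ2]; linarith)
  set c : ℝ := (finrank ℝ E) * (1 + 4 * R * (finrank ℝ E) / r) + 2 * R / r with hcdef
  have hc0 : 0 ≤ c := by positivity
  have hPle : P ≤ 2 * c * δ / ℓ := by
    have key : ∀ x, g x ≤ (‖U1 x - T1 x‖ + ‖U0 x - T0 x‖) / ℓ := by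
      intro x
      by_cases hxB : x ∈ B
      · have gx : g x = 1 := by rw [hg, Set.indicator_of_mem hxB]
        rw [gx, le_div_iff₀ hℓ, one_mul]
        by_cases h1 : U1 x = T1 x
        · have h2 : U0 x ≠ T0 x := fun h => hxB ⟨h1, h⟩
          have := sep0 _ (U0S x) _ (hR0 x) h2
          linarith [norm_nonneg (U1 x - T1 x)]
        · have := sep1 _ (U1S x) _ (hR1 x) h1
          linarith [norm_nonneg (U0 x - T0 x)]
      · have gx : g x = 0 := by rw [hg, Set.indicator_of_notMem hxB]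
        rw [gx]
        positivity
    calc P ≤ ∫ x, (‖U1 x - T1 x‖ + ‖U0 x - T0 x‖) / ℓ ∂(nrm m K) :=
          integral_mono gi ((ib1.add ib0).div_const _) key
      _ = (∫ x, ‖U1 x - T1 x‖ ∂(nrm m K) + ∫ x, ‖U0 x - T0 x‖ ∂(nrm m K)) / ℓ := by
          rw [integral_div, integral_add ib1 ib0]
      _ ≤ 2 * c * δ / ℓ := by
          refine div_le_div_of_nonneg_right ?_ hℓ.le
          linarith
  have hPsq : P ^ 2 ≤ sepA (finrank ℝ E) r RK R ℓ * (τ ^ 2 * P + τ ^ 4) := by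
    calc P ^ 2 ≤ (2 * c * δ / ℓ) ^ 2 := pow_le_pow_left₀ P0 hPle 2
      _ = 4 * c ^ 2 / ℓ ^ 2 * δ ^ 2 := by ring
      _ = _ := by rw [hδ2, sepA, ← hcdef, ← hA']; ring
  have hA0 : 0 ≤ sepA (finrank ℝ E) r RK R ℓ := by
    rw [sepA]; positivity
  have hPfin := quad hA0 hτ hPsq
  have hfin : ∫ x, ‖T0 x - T1 x‖ ^ 2 ∂(nrm m K) ≤
      (1 + 4 * R ^ 2 * (sepA (finrank ℝ E) r RK R ℓ + 1)) * τ ^ 2 := by
    have key : ∀ x, ‖T0 x - T1 x‖ ^ 2 ≤ ‖U1 x - T0 x‖ ^ 2 + 4 * R ^ 2 * g x := by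
      intro x
      by_cases hxB : x ∈ B
      · have gx : g x = 1 := by rw [hg, Set.indicator_of_mem hxB]
        rw [gx, mul_one]
        have hb : ‖T0 x - T1 x‖ ≤ 2 * R :=
          (norm_sub_le _ _).trans (by linarith [hT0R x, hT1R x])
        have h2 := pow_le_pow_left₀ (norm_nonneg _) hb 2
        have h3 : 0 ≤ ‖U1 x - T0 x‖ ^ 2 := by positivity
        calc ‖T0 x - T1 x‖ ^ 2 ≤ (2 * R) ^ 2 := h2
          _ = 4 * R ^ 2 := by ring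
          _ ≤ _ := by linarith
      · have gx : g x = 0 := by rw [hg, Set.indicator_of_notMem hxB]
        have hx' : U1 x = T1 x ∧ U0 x = T0 x := by
          by_contra h
          exact hxB h
        rw [gx, mul_zero, add_zero, hx'.1, norm_sub_rev]
    calc ∫ x, ‖T0 x - T1 x‖ ^ 2 ∂(nrm m K)
        ≤ ∫ x, (‖U1 x - T0 x‖ ^ 2 + 4 * R ^ 2 * g x) ∂(nrm m K) :=
          integral_mono iT (ia1.add (gi.const_mul _)) key
      _ = ∫ x, ‖U1 x - T0 x‖ ^ 2 ∂(nrm m K) + 4 * R ^ 2 * P := by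
          rw [integral_add ia1 (gi.const_mul _), integral_const_mul]
      _ ≤ τ ^ 2 + 4 * R ^ 2 * ((sepA (finrank ℝ E) r RK R ℓ + 1) * τ ^ 2) := by
          refine add_le_add (a1.trans hτ26) (mul_le_mul_of_nonneg_left hPfin (by positivity))
      _ = _ := by ring
  have h1 : ∫⁻ x, ‖T0 x - T1 x‖ₑ ^ 2 ∂(nrm m K) =
      ENNReal.ofReal (∫ x, ‖T0 x - T1 x‖ ^ 2 ∂(nrm m K)) := by
    rw [ofReal_integral_eq_lintegral_ofReal iT
      (Filter.Eventually.of_forall fun x => by positivity)]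
    refine lintegral_congr fun x => ?_
    rw [ENNReal.ofReal_pow (norm_nonneg _), ofReal_norm]
  rw [h1]
  exact ENNReal.ofReal_le_ofReal hfin

end Vale.Agent.P074
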