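import Mathlib
import Vale.Agent.P074.Example

open MeasureTheory
open scoped ENNReal RealInnerProductSpace

namespace Vale.Agent.P074

variable {d : ℕ} (i0 i1 : Fin d) (s : ℝ)

open Classical in
/-- reflection of the coordinate `i1` -/
noncomputable def Rf {d : ℕ} (i1 : Fin d) : Sp d ≃ₗᵢ[ℝ] Sp d :=
  LinearIsometryEquiv.piLpCongrRight 2
    (fun i : Fin d => if i = i1 then LinearIsometryEquiv.neg ℝ else LinearIsometryEquiv.refl ℝ ℝ)

lemma Rf_apply_ne (i : Fin d) (h : i ≠ i1) (x : Sp d) : Rf i1 x i = x i := by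
  classical
  simp [Rf, LinearIsometryEquiv.piLpCongrRight_apply, h]

lemma Rf_apply_eq (x : Sp d) : Rf i1 x i1 = - x i1 := by
  classical
  simp [Rf, LinearIsometryEquiv.piLpCongrRight_apply]

lemma Rf_cube (x : Sp d) : Rf i1 x ∈ cube d ↔ x ∈ cube d := by
  constructor
  · intro h i
    by_cases hi : i = i1
    · subst hi
      have := h i
      rw [Rf_apply_eq] at this
      constructor <;> linarith [this.1, this.2]
    · have := h i
      rwa [Rf_apply_ne i1 i hi] at this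
  · intro h i
    by_cases hi : i = i1
    · subst hi
      have := h i
      rw [Rf_apply_eq]
      constructor <;> linarith [this.1, this.2]
    · have := h i
      rwa [Rf_apply_ne i1 i hi]

lemma Rf_rho : (rho d).map (Rf i1) = rho d := by
  have hmp : MeasurePreserving (Rf i1 : Sp d → Sp d) volume volume := (Rf i1).measurePreserving
  have h2 : (Rf i1 : Sp d → Sp d) ⁻¹' (cube d) = cube d := by
    ext x; exact Rf_cube i1 x
  have h3 := hmp.restrict_preimage (isCompact_cube d).measurableSet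
  rw [h2] at h3
  unfold rho unif
  rw [Measure.map_smul, h3.map_eq]

lemma Rf_smul_ev : Rf i1 (s • ev i1 : Sp d) = (-s) • ev i1 := by
  ext i
  by_cases hi : i = i1
  · subst hi
    rw [Rf_apply_eq]; simp [ev]
  · rw [Rf_apply_ne i1 i hi]; simp [ev, hi]

lemma Rf_ev_ne (hne : i0 ≠ i1) : Rf i1 (ev i0 : Sp d) = ev i0 := by
  ext i
  by_cases hi : i = i1
  · subst hi
    rw [Rf_apply_eq]; simp [ev, hne.symm]
  · rw [Rf_apply_ne i1 i hi]

lemma Rf_Tm (hne : i0 ≠ i1) (x : Sp d) : Rf i1 (Tm i0 i1 s x) = Tm i0 i1 (-s) (Rf i1 x) := by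
  classical
  have hc : Rf i1 x ∈ cell i0 i1 (-s) ↔ x ∈ cell i0 i1 s := by
    show |Rf i1 x i0| < -s * Rf i1 x i1 - |-s| / 2 ↔ |x i0| < s * x i1 - |s| / 2
    rw [Rf_apply_ne i1 i0 hne, Rf_apply_eq, abs_neg]
    ring_nf
  unfold Tm
  rw [Rf_apply_ne i1 i0 hne]
  by_cases h1 : x ∈ cell i0 i1 s
  · rw [if_pos h1, if_pos (hc.mpr h1), Rf_smul_ev]
  · rw [if_neg h1, if_neg (fun h => h1 (hc.mp h))]
    split_ifs
    · rw [Rf_ev_ne i0 i1 hne]
    · rw [map_neg, Rf_ev_ne i0 i1 hne]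

/-- the coupling -/
noncomputable def cpl {d : ℕ} (i0 i1 : Fin d) (s : ℝ) : Measure (Sp d × Sp d) :=
  (rho d).map (fun x => (Tm i0 i1 s x, Rf i1 (Tm i0 i1 s x)))

lemma cpl_meas : Measurable (fun x : Sp d => (Tm i0 i1 s x, Rf i1 (Tm i0 i1 s x))) :=
  (measurable_Tm i0 i1 s).prodMk ((Rf i1).continuous.measurable.comp (measurable_Tm i0 i1 s))

lemma cpl_fst : (cpl i0 i1 s).map Prod.fst = (rho d).map (Tm i0 i1 s) := by
  unfold cpl
  rw [Measure.map_map measurable_fst (cpl_meas i0 i1 s)]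
  rfl

lemma cpl_snd (hne : i0 ≠ i1) : (cpl i0 i1 s).map Prod.snd = (rho d).map (Tm i0 i1 (-s)) := by
  unfold cpl
  rw [Measure.map_map measurable_snd (cpl_meas i0 i1 s)]
  have h : (Prod.snd ∘ fun x : Sp d => (Tm i0 i1 s x, Rf i1 (Tm i0 i1 s x))) = Tm i0 i1 (-s) ∘ Rf i1 := by
    funext x
    exact Rf_Tm i0 i1 s hne x
  rw [h, ← Measure.map_map (measurable_Tm i0 i1 (-s)) (Rf i1).continuous.measurable, Rf_rho]

lemma cpl_cost (hne : i0 ≠ i1) : ∫⁻ q, ‖q.1 - q.2‖ₑ ^ 2 ∂(cpl i0 i1 s) =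
    ENNReal.ofReal (4 * s ^ 2) * rho d (cell i0 i1 s) := by
  classical
  unfold cpl
  have hm : Measurable (fun q : Sp d × Sp d => ‖q.1 - q.2‖ₑ ^ 2) := by fun_prop
  rw [lintegral_map hm (cpl_meas i0 i1 s)]
  rw [← lintegral_indicator_const (measurableSet_cell i0 i1 s)]
  refine lintegral_congr fun x => ?_
  by_cases h : x ∈ cell i0 i1 s
  · rw [Set.indicator_of_mem h]
    have h1 : Tm i0 i1 s x = s • ev i1 := by unfold Tm; rw [if_pos h]
    show ‖Tm i0 i1 s x - Rf i1 (Tm i0 i1 s x)‖ₑ ^ 2 = _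
    rw [h1, Rf_smul_ev, ← sub_smul, enorm_smul]
    have h2 : ‖(ev i1 : Sp d)‖ₑ = 1 := by
      rw [← ofReal_norm, norm_ev]; simp
    rw [h2, mul_one, Real.enorm_eq_ofReal_abs, ← ENNReal.ofReal_pow (abs_nonneg _), sq_abs]
    congr 1; ring
  · rw [Set.indicator_of_notMem h]
    show ‖Tm i0 i1 s x - Rf i1 (Tm i0 i1 s x)‖ₑ ^ 2 = _
    have h1 : Rf i1 (Tm i0 i1 s x) = Tm i0 i1 s x := by
      unfold Tm; rw [if_neg h]
      split_ifs
      · rw [Rf_ev_ne i0 i1 hne]
      · rw [map_neg, Rf_ev_ne i0 i1 hne]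
    rw [h1, sub_self]; simp

lemma diff_cost (hne : i0 ≠ i1) (hs : 0 ≤ s) :
    rho d (cell i0 i1 s) ≤ ∫⁻ x, ‖Tm i0 i1 s x - Tm i0 i1 (-s) x‖ₑ ^ 2 ∂(rho d) := by
  classical
  rw [← one_mul (rho d (cell i0 i1 s)), ← lintegral_indicator_const (measurableSet_cell i0 i1 s)]
  refine lintegral_mono fun x => ?_
  by_cases h : x ∈ cell i0 i1 s
  · rw [Set.indicator_of_mem h]
    have hx : |x i0| < s * x i1 - |s| / 2 := h
    have h1 : Tm i0 i1 s x = s • ev i1 := by unfold Tm; rw [if_pos h]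
    have h2 : x ∉ cell i0 i1 (-s) := by
      intro h2
      have hx2 : |x i0| < -s * x i1 - |-s| / 2 := h2
      rw [abs_neg] at hx2
      have := abs_nonneg (x i0)
      have h4 := abs_nonneg s
      linarith
    have h3 : Tm i0 i1 (-s) x = ev i0 ∨ Tm i0 i1 (-s) x = - ev i0 := by
      unfold Tm; rw [if_neg h2]
      split_ifs <;> simp
    have h4 : (1 : ℝ) ≤ ‖Tm i0 i1 s x - Tm i0 i1 (-s) x‖ := by
      have h5 : 1 ≤ |(Tm i0 i1 s x - Tm i0 i1 (-s) x) i0| := by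
        rw [h1]
        rcases h3 with h3 | h3 <;> rw [h3] <;> simp [ev, hne]
      refine h5.trans ?_
      have := PiLp.norm_apply_le (Tm i0 i1 s x - Tm i0 i1 (-s) x) i0
      rwa [Real.norm_eq_abs] at this
    have h5 : (1 : ℝ≥0∞) ≤ ‖Tm i0 i1 s x - Tm i0 i1 (-s) x‖ₑ := by
      rw [← ofReal_norm]
      exact ENNReal.one_le_ofReal.mpr h4
    calc (1 : ℝ≥0∞) = 1 ^ 2 := by norm_num
      _ ≤ _ := pow_le_pow_left' h5 2
  · rw [Set.indicator_of_notMem h]
    simp

lemma rho_cell (hne : i0 ≠ i1) (hs0 : 0 < s) (hs1 : s ≤ 1) :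
    ENNReal.ofReal (s / 64) ≤ rho d (cell i0 i1 s) := by
  classical
  have hsub : {x : Sp d | ∀ i, x i ∈ (if i = i0 then Set.Icc (-(s/8)) (s/8) else
        if i = i1 then Set.Icc (3/4) 1 else Set.Icc (-1 : ℝ) 1)} ⊆ cell i0 i1 s ∩ cube d := by
    intro x hx
    have e0 := hx i0
    rw [if_pos rfl] at e0
    have e1 := hx i1
    rw [if_neg hne.symm, if_pos rfl] at e1
    refine ⟨?_, ?_⟩
    · show |x i0| < s * x i1 - |s| / 2
      have h1 := abs_le.mpr e0
      rw [abs_of_pos hs0]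
      nlinarith [e1.1]
    · intro i
      have e := hx i
      by_cases hi0 : i = i0
      · rw [if_pos hi0] at e
        exact ⟨by linarith [e.1], by linarith [e.2]⟩
      · rw [if_neg hi0] at e
        by_cases hi1 : i = i1
        · rw [if_pos hi1] at e
          exact ⟨by linarith [e.1], by linarith [e.2]⟩
        · rwa [if_neg hi1] at e
  have h1 := (vol_box2 d i0 i1 hne s hs0.le).trans (measure_mono hsub)
  unfold rho unif
  rw [Measure.smul_apply, Measure.restrict_apply (measurableSet_cell i0 i1 s), vol_cube, smul_eq_mul]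
  calc ENNReal.ofReal (s / 64) = (2 ^ d)⁻¹ * (ENNReal.ofReal (s / 64) * 2 ^ d) := by
        rw [mul_comm, mul_assoc, ENNReal.mul_inv_cancel (by positivity) (by finiteness), mul_one]
    _ ≤ _ := by gcongr

end Vale.Agent.P074
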