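import Mathlib
import Vale.Agent.P074.Pair

open MeasureTheory
open scoped ENNReal RealInnerProductSpace NNReal

namespace Vale.Agent.P074

/-- The asymptotic contradiction. -/
lemma asym (α C : ℝ) (hα : 1 / 3 < α) (hα1 : α ≤ 1)
    (h : ∀ s : ℝ, 0 < s → s ≤ 1 → ∃ m : ℝ, s / 64 ≤ m ∧ m ≤ 1 ∧
      m ^ (1 / 2 : ℝ) ≤ C * ((4 * s ^ 2 * m) ^ (1 / 2 : ℝ)) ^ α) : False := by
  have key : ∀ s : ℝ, 0 < s → s ≤ 1 → (1 / 64 : ℝ) ^ ((1 - α) / 2) ≤ C * 2 ^ α * s ^ ((3 * α - 1) / 2) := by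
    intro s hs hs1
    obtain ⟨m, h1, h2, h3⟩ := h s hs hs1
    have hm : 0 < m := lt_of_lt_of_le (by positivity) h1
    have e1 : ((4 * s ^ 2 * m) ^ (1 / 2 : ℝ)) ^ α = (2 * s) ^ α * m ^ (α / 2) := by
      rw [show 4 * s ^ 2 * m = (2 * s) ^ 2 * m by ring, Real.mul_rpow (by positivity) hm.le,
        ← Real.sqrt_eq_rpow ((2 * s) ^ 2), Real.sqrt_sq (by positivity),
        Real.mul_rpow (by positivity) (by positivity), ← Real.rpow_mul hm.le]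
      congr 2; ring
    rw [e1] at h3
    have e2 : m ^ (1 / 2 : ℝ) = m ^ ((1 - α) / 2) * m ^ (α / 2) := by
      rw [← Real.rpow_add hm]; congr 1; ring
    rw [e2, ← mul_assoc] at h3
    have h4 : m ^ ((1 - α) / 2) ≤ C * (2 * s) ^ α := le_of_mul_le_mul_right h3 (by positivity)
    have h5 : (s / 64) ^ ((1 - α) / 2) ≤ m ^ ((1 - α) / 2) :=
      Real.rpow_le_rpow (by positivity) h1 (by linarith)
    have h6 := h5.trans h4
    rw [show s / 64 = s * (1 / 64) by ring, Real.mul_rpow hs.le (by norm_num),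
      Real.mul_rpow (by norm_num) hs.le] at h6
    have e3 : s ^ α = s ^ ((1 - α) / 2) * s ^ ((3 * α - 1) / 2) := by
      rw [← Real.rpow_add hs]; congr 1; ring
    rw [e3] at h6
    have hpos : 0 < s ^ ((1 - α) / 2) := by positivity
    refine le_of_mul_le_mul_left ?_ hpos
    calc s ^ ((1 - α) / 2) * (1 / 64) ^ ((1 - α) / 2)
        ≤ C * (2 ^ α * (s ^ ((1 - α) / 2) * s ^ ((3 * α - 1) / 2))) := h6
      _ = _ := by ring
  have hγ : 0 < (3 * α - 1) / 2 := by linarith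
  have ht : Filter.Tendsto (fun s : ℝ => C * 2 ^ α * s ^ ((3 * α - 1) / 2))
      (nhdsWithin 0 (Set.Ioi 0)) (nhds 0) := by
    have h1 : Filter.Tendsto (fun s : ℝ => s ^ ((3 * α - 1) / 2)) (nhds 0) (nhds 0) := by
      have := (Real.continuousAt_rpow_const 0 ((3 * α - 1) / 2) (Or.inr hγ.le)).tendsto
      rwa [Real.zero_rpow hγ.ne'] at this
    have h2 : Filter.Tendsto (fun s : ℝ => s ^ ((3 * α - 1) / 2)) (nhdsWithin 0 (Set.Ioi 0)) (nhds 0) :=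
      h1.mono_left nhdsWithin_le_nhds
    have h3 := h2.const_mul (C * 2 ^ α)
    rwa [mul_zero] at h3
  have hle : (1 / 64 : ℝ) ^ ((1 - α) / 2) ≤ 0 := by
    refine ge_of_tendsto ht ?_
    have hmem : Set.Ioc (0 : ℝ) 1 ∈ nhdsWithin (0 : ℝ) (Set.Ioi 0) := Ioc_mem_nhdsGT one_pos
    filter_upwards [hmem] with s hs
    exact key s hs.1 hs.2
  have : (0 : ℝ) < (1 / 64 : ℝ) ^ ((1 - α) / 2) := by positivity
  linarith

/-- The family of examples, in abstract form. -/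
lemma upper (d : ℕ) (hd : 2 ≤ d) (α : ℝ) (hα : 1 / 3 < α) (hα1 : α ≤ 1) (C : ℝ≥0)
    (h : ∀ S T : Sp d → Sp d, Measurable S → Measurable T → (∀ x, ‖S x‖ ≤ 1) → (∀ x, ‖T x‖ ≤ 1) →
      (∀ S' : Sp d → Sp d, Measurable S' → (rho d).map S' = (rho d).map S →
        ∫⁻ x, ‖x - S x‖ₑ ^ 2 ∂(rho d) ≤ ∫⁻ x, ‖x - S' x‖ₑ ^ 2 ∂(rho d)) →
      (∀ S' : Sp d → Sp d, Measurable S' → (rho d).map S' = (rho d).map T →
        ∫⁻ x, ‖x - T x‖ₑ ^ 2 ∂(rho d) ≤ ∫⁻ x, ‖x - S' x‖ₑ ^ 2 ∂(rho d)) →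
      ∀ π : Measure (Sp d × Sp d), π.map Prod.fst = (rho d).map S →
        π.map Prod.snd = (rho d).map T →
      (∫⁻ x, ‖S x - T x‖ₑ ^ 2 ∂(rho d)) ^ (1 / 2 : ℝ) ≤
        C * ((∫⁻ q, ‖q.1 - q.2‖ₑ ^ 2 ∂π) ^ (1 / 2 : ℝ)) ^ α) : False := by
  let i0 : Fin d := ⟨0, by omega⟩
  let i1 : Fin d := ⟨1, by omega⟩
  have hne : i0 ≠ i1 := by
    intro h; have := congrArg Fin.val h; simp [i0, i1] at this
  refine asym α C hα hα1 ?_
  intro s hs0 hs1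
  have habs : |s| ≤ 1 := by rwa [abs_of_pos hs0]
  have habs' : |(-s)| ≤ 1 := by rwa [abs_neg]
  have h1 := h (Tm i0 i1 s) (Tm i0 i1 (-s)) (measurable_Tm i0 i1 s) (measurable_Tm i0 i1 (-s))
    (fun x => atoms_norm i0 i1 s habs _ (Tm_mem i0 i1 s x))
    (fun x => atoms_norm i0 i1 (-s) habs' _ (Tm_mem i0 i1 (-s) x))
    (fun S' hS' hh => Tm_opt i0 i1 s hne habs S' hS' hh)
    (fun S' hS' hh => Tm_opt i0 i1 (-s) hne habs' S' hS' hh)
    (cpl i0 i1 s) (cpl_fst i0 i1 s) (cpl_snd i0 i1 s hne)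
  rw [cpl_cost i0 i1 s hne] at h1
  set M : ℝ≥0∞ := rho d (cell i0 i1 s) with hM
  have hM1 : M ≤ 1 := prob_le_one
  have hMtop : M ≠ ⊤ := ne_top_of_le_ne_top ENNReal.one_ne_top hM1
  refine ⟨M.toReal, ?_, ?_, ?_⟩
  · have := rho_cell i0 i1 s hne hs0 hs1
    have h2 := ENNReal.toReal_mono hMtop this
    rwa [ENNReal.toReal_ofReal (by positivity)] at h2
  · have := ENNReal.toReal_mono ENNReal.one_ne_top hM1
    simpa using this
  · have h2 : M ^ (1 / 2 : ℝ) ≤ C * ((ENNReal.ofReal (4 * s ^ 2) * M) ^ (1 / 2 : ℝ)) ^ α := by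
      refine le_trans ?_ h1
      exact ENNReal.rpow_le_rpow (diff_cost i0 i1 s hne hs0.le) (by norm_num)
    have htop : (C : ℝ≥0∞) * ((ENNReal.ofReal (4 * s ^ 2) * M) ^ (1 / 2 : ℝ)) ^ α ≠ ⊤ := by
      refine ENNReal.mul_ne_top ENNReal.coe_ne_top ?_
      refine ENNReal.rpow_ne_top_of_nonneg (by linarith) ?_
      refine ENNReal.rpow_ne_top_of_nonneg (by norm_num) ?_
      exact ENNReal.mul_ne_top ENNReal.ofReal_ne_top hMtop
    have h3 := ENNReal.toReal_mono htop h2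
    rw [ENNReal.toReal_mul, ← ENNReal.toReal_rpow, ← ENNReal.toReal_rpow, ← ENNReal.toReal_rpow,
      ENNReal.toReal_mul, ENNReal.toReal_ofReal (by positivity), ENNReal.coe_toReal] at h3
    exact h3

end Vale.Agent.P074
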