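import Mathlib
import Vale.Agent.P074.Sep3
import Vale.Agent.P074.Upper

open MeasureTheory Metric Filter Topology Module
open scoped RealInnerProductSpace NNReal ENNReal

namespace Vale.Agent.P074

section
variable {E : Type*} [NormedAddCommGroup E] [InnerProductSpace ℝ E] [FiniteDimensional ℝ E]
  [MeasurableSpace E] [BorelSpace E] (m : Measure E) [m.IsAddHaarMeasure]

omit [FiniteDimensional ℝ E] [InnerProductSpace ℝ E] [MeasurableSpace E] [BorelSpace E] in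
lemma finite_of_sep (Y : Set E) (hY : IsCompact Y) (ℓ : ℝ) (hℓ : 0 < ℓ) (A : Set E) (hA : A ⊆ Y)
    (hs : ∀ y ∈ A, ∀ z ∈ A, y ≠ z → ℓ ≤ ‖y - z‖) : A.Finite := by
  obtain ⟨t, -, htf, ht⟩ := hY.finite_cover_balls (half_pos hℓ)
  have hch : ∀ y ∈ A, ∃ x ∈ t, y ∈ ball x (ℓ / 2) := by
    intro y hy
    simpa using ht (hA hy)
  choose! f hf1 hf2 using hch
  refine Set.Finite.of_injOn (f := f) (t := t) (fun y hy => hf1 y hy) ?_ htf
  intro y hy z hz hyz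
  by_contra hne
  have h1 := hs y hy z hz hne
  have h2 := hf2 y hy
  have h3 := hf2 z hz
  rw [mem_ball, dist_eq_norm] at h2 h3
  have h4 : y - z = (y - f y) - (z - f z) := by rw [hyz]; abel
  have h5 := norm_sub_le (y - f y) (z - f z)
  rw [← h4] at h5
  linarith

/-- Hölder estimate with exponent `1/3` for separated targets, coupling form. -/
theorem sep_holder [Nontrivial E] (K : Set E) (hKc : IsCompact K) (hKconv : Convex ℝ K)
    (hKi : (interior K).Nonempty) (Y : Set E) (hY : IsCompact Y) (hYne : Y.Nonempty)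
    (ℓ : ℝ) (hℓ : 0 < ℓ) :
    ∃ C : ℝ≥0, 0 < C ∧ ∀ T0 T1 : E → E, Measurable T0 → Measurable T1 →
      ∀ S0 S1 : Set E, S0 ⊆ Y → S1 ⊆ Y → (∀ y ∈ S0, ∀ z ∈ S0, y ≠ z → ℓ ≤ ‖y - z‖) →
      (∀ y ∈ S1, ∀ z ∈ S1, y ≠ z → ℓ ≤ ‖y - z‖) →
      (nrm m K).map T0 S0ᶜ = 0 → (nrm m K).map T1 S1ᶜ = 0 →
      (∀ S : E → E, Measurable S → (nrm m K).map S = (nrm m K).map T0 →
        ∫⁻ x, ‖x - T0 x‖ₑ ^ 2 ∂(nrm m K) ≤ ∫⁻ x, ‖x - S x‖ₑ ^ 2 ∂(nrm m K)) →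
      (∀ S : E → E, Measurable S → (nrm m K).map S = (nrm m K).map T1 →
        ∫⁻ x, ‖x - T1 x‖ₑ ^ 2 ∂(nrm m K) ≤ ∫⁻ x, ‖x - S x‖ₑ ^ 2 ∂(nrm m K)) →
      ∀ π : Measure (E × E), π.map Prod.fst = (nrm m K).map T0 →
        π.map Prod.snd = (nrm m K).map T1 →
      ∀ τ : ℝ, 0 < τ → ∫⁻ q, ‖q.1 - q.2‖ₑ ^ 2 ∂π ≤ ENNReal.ofReal (τ ^ 6) →
        ∫⁻ x, ‖T0 x - T1 x‖ₑ ^ 2 ∂(nrm m K) ≤ C * ENNReal.ofReal (τ ^ 2) := by
  obtain ⟨p, hpi⟩ := hKi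
  obtain ⟨r, hr, hp⟩ := Metric.nhds_basis_closedBall.mem_iff.mp (mem_interior_iff_mem_nhds.mp hpi)
  obtain ⟨RK0, hRK0⟩ := hKc.isBounded.exists_norm_le
  obtain ⟨R0, hR0⟩ := hY.isBounded.exists_norm_le
  obtain ⟨u, hu⟩ := exists_norm_eq E (zero_le_one' ℝ)
  obtain ⟨y0, hy0⟩ := hYne
  have hpK : p ∈ K := hp (mem_closedBall_self hr.le)
  have hRK0' : 0 ≤ RK0 := (norm_nonneg p).trans (hRK0 p hpK)
  have hR0' : 0 ≤ R0 := (norm_nonneg y0).trans (hR0 y0 hy0)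
  set RK : ℝ≥0 := ⟨RK0, hRK0'⟩ with hRK
  set R : ℝ≥0 := ⟨R0, hR0'⟩ with hR
  have h0 : m K ≠ 0 := by
    intro h
    have h1 : m (closedBall p r) ≤ 0 := (measure_mono hp).trans h.le
    exact absurd (Measure.measure_pos_of_nonempty_interior m
      (⟨p, interior_mono (ball_subset_closedBall) (by
        rw [isOpen_ball.interior_eq]; exact mem_ball_self hr)⟩ :
        (interior (closedBall p r)).Nonempty)) (not_lt.mpr h1)
  have hprob := nrm_prob m K h0 hKc.measure_lt_top.ne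
  have hA0 : 0 ≤ sepA (finrank ℝ E) r RK R ℓ := by
    rw [sepA]; positivity
  set Q : ℝ := 1 + 4 * R ^ 2 * (sepA (finrank ℝ E) r RK R ℓ + 1) with hQ
  have hQ0 : 0 ≤ Q := by positivity
  have hQR : (2 * (R : ℝ)) ^ 2 ≤ Q := by
    rw [hQ]
    have : 0 ≤ 4 * (R : ℝ) ^ 2 * sepA (finrank ℝ E) r RK R ℓ := by positivity
    nlinarith
  refine ⟨Real.toNNReal Q + 1, by positivity, ?_⟩
  intro T0 T1 hT0 hT1 S0 S1 hS0Y hS1Y sep0 sep1 hY0 hY1 hopt0 hopt1 π hπ0 hπ1 τ hτ hc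
  classical
  have hS0 := finite_of_sep Y hY ℓ hℓ S0 hS0Y sep0
  have hS1 := finite_of_sep Y hY ℓ hℓ S1 hS1Y sep1
  -- modify the maps
  have hmod : ∀ T : E → E, Measurable T → ∀ A : Set E, A.Finite → (nrm m K).map T Aᶜ = 0 →
      (∀ S : E → E, Measurable S → (nrm m K).map S = (nrm m K).map T →
        ∫⁻ x, ‖x - T x‖ₑ ^ 2 ∂(nrm m K) ≤ ∫⁻ x, ‖x - S x‖ₑ ^ 2 ∂(nrm m K)) →
      ∃ T' : E → E, Measurable T' ∧ (∀ x, T' x ∈ A) ∧ T =ᵐ[nrm m K] T' ∧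
        (∀ S : E → E, Measurable S → (nrm m K).map S = (nrm m K).map T' →
          ∫⁻ x, ‖x - T' x‖ₑ ^ 2 ∂(nrm m K) ≤ ∫⁻ x, ‖x - S x‖ₑ ^ 2 ∂(nrm m K)) := by
    intro T hT A hA hTY hTo
    rw [Measure.map_apply hT hA.measurableSet.compl] at hTY
    have hmem : ∀ᵐ x ∂(nrm m K), T x ∈ A := hTY
    obtain ⟨x0, hx0⟩ := hmem.exists
    have hae : T =ᵐ[nrm m K] fun x => if T x ∈ A then T x else T x0 := by
      filter_upwards [hmem] with x hx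
      simp [hx]
    refine ⟨fun x => if T x ∈ A then T x else T x0, ?_, ?_, hae, ?_⟩
    · exact Measurable.ite (hT hA.measurableSet) hT measurable_const
    · intro x
      simp only
      split_ifs with h
      · exact h
      · exact hx0
    · intro S hS hSm
      rw [← Measure.map_congr hae] at hSm
      refine le_of_eq_of_le ?_ (hTo S hS hSm)
      refine lintegral_congr_ae ?_
      filter_upwards [hae] with x hx
      rw [← hx]
  obtain ⟨T0', m0, b0, a0, o0⟩ := hmod T0 hT0 S0 hS0 hY0 hopt0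
  obtain ⟨T1', m1, b1, a1, o1⟩ := hmod T1 hT1 S1 hS1 hY1 hopt1
  rw [Measure.map_congr a0] at hπ0
  rw [Measure.map_congr a1] at hπ1
  have heq : ∫⁻ x, ‖T0 x - T1 x‖ₑ ^ 2 ∂(nrm m K) = ∫⁻ x, ‖T0' x - T1' x‖ₑ ^ 2 ∂(nrm m K) := by
    refine lintegral_congr_ae ?_
    filter_upwards [a0, a1] with x h0 h1
    rw [h0, h1]
  rw [heq]
  have hS0R : ∀ y ∈ S0, ‖y‖ ≤ R := fun y hy => hR0 y (hS0Y hy)
  have hS1R : ∀ y ∈ S1, ‖y‖ ≤ R := fun y hy => hR0 y (hS1Y hy)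
  have hmain : ∫⁻ x, ‖T0' x - T1' x‖ₑ ^ 2 ∂(nrm m K) ≤ ENNReal.ofReal (Q * τ ^ 2) := by
    rcases le_or_gt τ 1 with hτ1 | hτ1
    · exact sep_bound m K hKc hKconv p r hr hp RK (fun x hx => hRK0 x hx) R u hu ℓ hℓ S0 S1
        hS0 hS1 hS0R hS1R sep0 sep1 T0' T1' m0 m1 b0 b1 o0 o1 π hπ0 hπ1 τ hτ hτ1 hc
    · calc ∫⁻ x, ‖T0' x - T1' x‖ₑ ^ 2 ∂(nrm m K)
          ≤ ∫⁻ _, ENNReal.ofReal ((2 * R) ^ 2) ∂(nrm m K) := by
            refine lintegral_mono fun x => ?_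
            simp only
            rw [← ofReal_norm, ← ENNReal.ofReal_pow (norm_nonneg _)]
            refine ENNReal.ofReal_le_ofReal (pow_le_pow_left₀ (norm_nonneg _) ?_ 2)
            exact (norm_sub_le _ _).trans (by linarith [hS0R _ (b0 x), hS1R _ (b1 x)])
        _ = ENNReal.ofReal ((2 * R) ^ 2) := by simp
        _ ≤ ENNReal.ofReal (Q * τ ^ 2) := by
            refine ENNReal.ofReal_le_ofReal (hQR.trans ?_)
            have : 1 ≤ τ ^ 2 := one_le_pow₀ hτ1.le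
            nlinarith
  refine hmain.trans ?_
  rw [ENNReal.ofReal_mul hQ0]
  refine mul_le_mul_left ?_ _
  rw [ENNReal.ofReal]
  exact_mod_cast le_add_of_nonneg_right (zero_le_one)

end

lemma cost_bound3 {X c C : ℝ≥0∞} (hC0 : C ≠ 0) (hC1 : C ≠ ⊤)
    (h : ∀ τ : ℝ, 0 < τ → c ≤ ENNReal.ofReal (τ ^ 6) → X ≤ C * ENNReal.ofReal (τ ^ 2)) :
    (X / C) ^ (3 : ℝ) ≤ c := by
  have key : X ≤ C * c ^ (1 / 3 : ℝ) := by
    rcases eq_or_ne c ⊤ with rfl | hct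
    · rw [ENNReal.top_rpow_of_pos (by norm_num), ENNReal.mul_top hC0]
      exact le_top
    rcases eq_or_ne c 0 with rfl | hc0
    · refine ENNReal.le_of_forall_pos_le_add fun ε hε _ => ?_
      have hCr : 0 < C.toReal := ENNReal.toReal_pos hC0 hC1
      have hw : 0 < (ε : ℝ) / C.toReal := div_pos hε hCr
      have h1 := h (√((ε : ℝ) / C.toReal)) (Real.sqrt_pos.mpr hw) (by simp)
      rw [Real.sq_sqrt hw.le] at h1
      refine h1.trans ?_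
      rw [ENNReal.zero_rpow_of_pos (by norm_num), mul_zero, zero_add]
      rw [← ENNReal.ofReal_toReal hC1, ← ENNReal.ofReal_mul hCr.le,
        ENNReal.ofReal_toReal hC1, mul_div_cancel₀ _ hCr.ne', ENNReal.ofReal_coe_nnreal]
    · have hcr : 0 < c.toReal := ENNReal.toReal_pos hc0 hct
      have e6 : (c.toReal ^ (1 / 6 : ℝ)) ^ 6 = c.toReal := by
        rw [← Real.rpow_natCast, ← Real.rpow_mul hcr.le]
        norm_num
      have e2 : (c.toReal ^ (1 / 6 : ℝ)) ^ 2 = c.toReal ^ (1 / 3 : ℝ) := by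
        rw [← Real.rpow_natCast, ← Real.rpow_mul hcr.le]
        norm_num
      have h1 := h (c.toReal ^ (1 / 6 : ℝ)) (Real.rpow_pos_of_pos hcr _) (by
        rw [e6, ENNReal.ofReal_toReal hct])
      refine h1.trans (le_of_eq ?_)
      rw [e2, ← ENNReal.ofReal_rpow_of_pos hcr, ENNReal.ofReal_toReal hct]
  have h2 : X / C ≤ c ^ (1 / 3 : ℝ) := ENNReal.div_le_of_le_mul' key
  calc (X / C) ^ (3 : ℝ) ≤ (c ^ (1 / 3 : ℝ)) ^ (3 : ℝ) := ENNReal.rpow_le_rpow h2 (by norm_num)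
    _ = c := by rw [← ENNReal.rpow_mul]; norm_num

lemma abs_coord_le {d : ℕ} (y : Sp d) (i : Fin d) : |y i| ≤ ‖y‖ := by
  have h := abs_real_inner_le_norm y (ev i)
  rwa [inner_ev, norm_ev, mul_one] at h

lemma atoms_sep {d : ℕ} (i0 i1 : Fin d) (s : ℝ) (hne : i0 ≠ i1) :
    ∀ y ∈ atoms i0 i1 s, ∀ z ∈ atoms i0 i1 s, y ≠ z → 1 ≤ ‖y - z‖ := by
  have key : ∀ y z : Sp d, 1 ≤ |(y - z) i0| → 1 ≤ ‖y - z‖ := fun y z h =>
    h.trans (abs_coord_le _ _)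
  intro y hy z hz hyz
  refine key y z ?_
  simp only [atoms, Set.mem_insert_iff, Set.mem_singleton_iff] at hy hz
  rcases hy with rfl | rfl | rfl <;> rcases hz with rfl | rfl | rfl <;>
    first
    | exact absurd rfl hyz
    | (simp [ev, hne]; try norm_num)

/-- The family of examples, with separated targets. -/
lemma upper_sep (d : ℕ) (hd : 2 ≤ d) (α : ℝ) (hα : 1 / 3 < α) (hα1 : α ≤ 1) (C : ℝ≥0)
    (h : ∀ S T : Sp d → Sp d, Measurable S → Measurable T →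
      ∀ A B : Set (Sp d), MeasurableSet A → MeasurableSet B →
      (∀ y ∈ A, ‖y‖ ≤ 1) → (∀ y ∈ B, ‖y‖ ≤ 1) →
      (∀ y ∈ A, ∀ z ∈ A, y ≠ z → 1 ≤ ‖y - z‖) → (∀ y ∈ B, ∀ z ∈ B, y ≠ z → 1 ≤ ‖y - z‖) →
      (∀ x, S x ∈ A) → (∀ x, T x ∈ B) →
      (∀ S' : Sp d → Sp d, Measurable S' → (rho d).map S' = (rho d).map S →
        ∫⁻ x, ‖x - S x‖ₑ ^ 2 ∂(rho d) ≤ ∫⁻ x, ‖x - S' x‖ₑ ^ 2 ∂(rho d)) →
      (∀ S' : Sp d → Sp d, Measurable S' → (rho d).map S' = (rho d).map T →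
        ∫⁻ x, ‖x - T x‖ₑ ^ 2 ∂(rho d) ≤ ∫⁻ x, ‖x - S' x‖ₑ ^ 2 ∂(rho d)) →
      ∀ π : Measure (Sp d × Sp d), π.map Prod.fst = (rho d).map S →
        π.map Prod.snd = (rho d).map T →
      (∫⁻ x, ‖S x - T x‖ₑ ^ 2 ∂(rho d)) ^ (1 / 2 : ℝ) ≤
        C * ((∫⁻ q, ‖q.1 - q.2‖ₑ ^ 2 ∂π) ^ (1 / 2 : ℝ)) ^ α) : False := by
  let i0 : Fin d := ⟨0, by omega⟩
  let i1 : Fin d := ⟨1, by omega⟩
  have hne : i0 ≠ i1 := by
    intro h; have := congrArg Fin.val h; simp [i0, i1] at this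
  refine asym α C hα hα1 ?_
  intro s hs0 hs1
  have habs : |s| ≤ 1 := by rwa [abs_of_pos hs0]
  have habs' : |(-s)| ≤ 1 := by rwa [abs_neg]
  have hAm : ∀ t : ℝ, MeasurableSet (atoms i0 i1 t) := by
    intro t
    unfold atoms
    exact (Set.toFinite _).measurableSet
  have h1 := h (Tm i0 i1 s) (Tm i0 i1 (-s)) (measurable_Tm i0 i1 s) (measurable_Tm i0 i1 (-s))
    (atoms i0 i1 s) (atoms i0 i1 (-s)) (hAm s) (hAm (-s))
    (fun y hy => atoms_norm i0 i1 s habs y hy)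
    (fun y hy => atoms_norm i0 i1 (-s) habs' y hy)
    (atoms_sep i0 i1 s hne) (atoms_sep i0 i1 (-s) hne)
    (fun x => Tm_mem i0 i1 s x) (fun x => Tm_mem i0 i1 (-s) x)
    (fun S' hS' hh => Tm_opt i0 i1 s hne habs S' hS' hh)
    (fun S' hS' hh => Tm_opt i0 i1 (-s) hne habs' S' hS' hh)
    (cpl i0 i1 s) (cpl_fst i0 i1 s) (cpl_snd i0 i1 s hne)
  rw [cpl_cost i0 i1 s hne] at h1
  set M : ℝ≥0∞ := rho d (cell i0 i1 s) with hM
  have hM1 : M ≤ 1 := prob_le_one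
  have hMtop : M ≠ ⊤ := ne_top_of_le_ne_top ENNReal.one_ne_top hM1
  refine ⟨M.toReal, ?_, ?_, ?_⟩
  · have := rho_cell i0 i1 s hne hs0 hs1
    have h2 := ENNReal.toReal_mono hMtop this
    rwa [ENNReal.toReal_ofReal (by positivity)] at h2
  · have := ENNReal.toReal_mono ENNReal.one_ne_top hM1
    simpa using this
  · have h2 : M ^ (1 / 2 : ℝ) ≤ C * ((ENNReal.ofReal (4 * s ^ 2) * M) ^ (1 / 2 : ℝ)) ^ α := by
      refine le_trans ?_ h1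
      exact ENNReal.rpow_le_rpow (diff_cost i0 i1 s hne hs0.le) (by norm_num)
    have htop : (C : ℝ≥0∞) * ((ENNReal.ofReal (4 * s ^ 2) * M) ^ (1 / 2 : ℝ)) ^ α ≠ ⊤ := by
      refine ENNReal.mul_ne_top ENNReal.coe_ne_top ?_
      refine ENNReal.rpow_ne_top_of_nonneg (by linarith) ?_
      refine ENNReal.rpow_ne_top_of_nonneg (by norm_num) ?_
      exact ENNReal.mul_ne_top ENNReal.ofReal_ne_top hMtop
    have h3 := ENNReal.toReal_mono htop h2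
    rw [ENNReal.toReal_mul, ← ENNReal.toReal_rpow, ← ENNReal.toReal_rpow, ← ENNReal.toReal_rpow,
      ENNReal.toReal_mul, ENNReal.toReal_ofReal (by positivity), ENNReal.coe_toReal] at h3
    exact h3

end Vale.Agent.P074
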