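import Mathlib
import Vale.Agent.P074.Sep4

open MeasureTheory Metric Filter Topology Module
open scoped RealInnerProductSpace NNReal ENNReal

namespace Vale.Agent.P074

section
variable {E : Type*} [NormedAddCommGroup E] [InnerProductSpace ℝ E] [FiniteDimensional ℝ E]
  [MeasurableSpace E] [BorelSpace E] (m : Measure E) [m.IsAddHaarMeasure]

/-- The constant `A` in the one-sided estimate. -/
noncomputable def oneA (d r RK R ℓ : ℝ) : ℝ :=
  (d * (1 + 4 * R * d / r) + 2 * R / r) ^ 2 / ℓ ^ 2 * (RK + 8 * RK / ℓ + 1)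

/-- Estimate when only the first target is separated. -/
lemma one_bound (K : Set E) (hKc : IsCompact K) (hKconv : Convex ℝ K) (p : E) (r : ℝ)
    (hr : 0 < r) (hp : closedBall p r ⊆ K) (RK : ℝ≥0) (hRK : ∀ x ∈ K, ‖x‖ ≤ RK)
    (R : ℝ≥0) (u : E) (hu : ‖u‖ = 1) (ℓ : ℝ) (hℓ : 0 < ℓ)
    (S0 : Set E) (hS0 : S0.Finite) (hS0R : ∀ y ∈ S0, ‖y‖ ≤ R)
    (sep0 : ∀ y ∈ S0, ∀ z ∈ S0, y ≠ z → ℓ ≤ ‖y - z‖)
    (T0 T1 : E → E) (hT0 : Measurable T0) (hT1 : Measurable T1)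
    (hR0 : ∀ x, T0 x ∈ S0) (hT1R : ∀ x, ‖T1 x‖ ≤ R)
    (hopt0 : ∀ S : E → E, Measurable S → (nrm m K).map S = (nrm m K).map T0 →
      ∫⁻ x, ‖x - T0 x‖ₑ ^ 2 ∂(nrm m K) ≤ ∫⁻ x, ‖x - S x‖ₑ ^ 2 ∂(nrm m K))
    (hopt1 : ∀ S : E → E, Measurable S → (nrm m K).map S = (nrm m K).map T1 →
      ∫⁻ x, ‖x - T1 x‖ₑ ^ 2 ∂(nrm m K) ≤ ∫⁻ x, ‖x - S x‖ₑ ^ 2 ∂(nrm m K))
    (π : Measure (E × E))
    (hπ0 : π.map Prod.fst = (nrm m K).map T0) (hπ1 : π.map Prod.snd = (nrm m K).map T1)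
    (τ : ℝ) (hτ : 0 < τ) (hτ1 : τ ≤ 1)
    (hc : ∫⁻ q, ‖q.1 - q.2‖ₑ ^ 2 ∂π ≤ ENNReal.ofReal (τ ^ 6)) :
    ∫⁻ x, ‖T0 x - T1 x‖ₑ ^ 2 ∂(nrm m K) ≤ ENNReal.ofReal
      ((1 + 4 * R ^ 2 * (oneA (finrank ℝ E) r RK R ℓ + 1)) * τ ^ 2) := by
  classical
  have hKfin : m K ≠ ⊤ := hKc.measure_lt_top.ne
  have h0 : m K ≠ 0 := by
    intro h
    have h1 : m (closedBall p r) ≤ 0 := (measure_mono hp).trans h.le
    exact absurd (Measure.measure_pos_of_nonempty_interior m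
      (⟨p, interior_mono (ball_subset_closedBall) (by
        rw [isOpen_ball.interior_eq]; exact mem_ball_self hr)⟩ :
        (interior (closedBall p r)).Nonempty)) (not_lt.mpr h1)
  have hprob := nrm_prob m K h0 hKfin
  have hpos : 0 < m.real K := ENNReal.toReal_pos h0 hKfin
  have hKm : MeasurableSet K := hKc.measurableSet
  have hT0R : ∀ x, ‖T0 x‖ ≤ R := fun x => hS0R _ (hR0 x)
  obtain ⟨N0, hN0, hN0S, hN0n⟩ := exists_nearest S0 hS0 ⟨T0 p, hR0 p⟩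
  obtain ⟨G0, φ0, ψ0, hG0, hφ0, hψ0, s0, c0, c0'⟩ :=
    exists_pots m K hKc hKconv h0 T0 hT0 R hT0R RK hRK hopt0 u hu
  obtain ⟨G1, φ1, ψ1, hG1, hφ1, hψ1, s1, c1, c1'⟩ :=
    exists_pots m K hKc hKconv h0 T1 hT1 R hT1R RK hRK hopt1 u hu
  have hGn' : ∀ᵐ x ∂(nrm m K), x ∈ G1 := by
    have hGn : ∀ᵐ x ∂(m.restrict K), x ∈ G1 := by
      rw [ae_restrict_iff' hKm]; exact hG1
    rw [nrm]; exact Measure.ae_smul_measure hGn _
  set U0 : E → E := fun x => N0 (T1 x) with hU0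
  have mU0 : Measurable U0 := hN0.comp hT1
  have U0S : ∀ x, U0 x ∈ S0 := fun x => hN0S _
  have U0R : ∀ x, ‖U0 x‖ ≤ R := fun x => hS0R _ (U0S x)
  obtain ⟨i0, j0, nn0, b0⟩ := gap_side m K hKc hKconv p r hr hp h0 RK hRK R U0 T0 mU0 hT0
    U0R hT0R G0 hG0 φ0 ψ0 hφ0 hψ0 s0 c0 c0'
  have hW : (0 : ℝ) ≤ τ ^ 6 := by positivity
  have hc' : ∫⁻ q : E × E, ‖q.2 - q.1‖ₑ ^ 2 ∂π ≤ ENNReal.ofReal (τ ^ 6) := by
    refine le_of_eq_of_le ?_ hc
    refine lintegral_congr fun q => ?_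
    rw [← ofReal_norm, ← ofReal_norm, norm_sub_rev]
  have a0 := proj_cost (nrm m K) T1 T0 hT1 hT0 S0 hS0.measurableSet hR0 N0 hN0 hN0n π
    Prod.snd Prod.fst measurable_snd measurable_fst hπ1 hπ0 _ hW hc'
  -- the difference of the potentials
  set χ : E → ℝ := fun y => ψ0 y - ψ1 y with hχ
  have hχl : LipschitzWith (RK + RK) χ := hψ0.sub hψ1
  have d0 := pot_diff (nrm m K) T1 T0 hT1 hT0 S0 hS0.measurableSet hR0 R hT1R hS0R ℓ hℓ sep0
    N0 hN0 hN0S hN0n χ (RK + RK) hχl π Prod.snd Prod.fst measurable_snd measurable_fst hπ1 hπ0 _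
    hW hc'
  change ∫ x, ‖U0 x - T1 x‖ ^ 2 ∂(nrm m K) ≤ _ at a0
  change ∫ x, χ (U0 x) - χ (T0 x) ∂(nrm m K) ≤ _ at d0
  -- the bad set
  set B : Set E := {x | ¬ (U0 x = T0 x)} with hB
  have hBm : MeasurableSet B := (measurableSet_eq_fun mU0 hT0).compl
  set g : E → ℝ := B.indicator (fun _ => (1 : ℝ)) with hg
  have g0 : ∀ x, 0 ≤ g x := fun x => Set.indicator_nonneg (fun _ _ => zero_le_one) x
  have gm : Measurable g := measurable_const.indicator hBm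
  have gb : ∀ x, ‖g x‖ ≤ 1 := by
    intro x
    rw [Real.norm_of_nonneg (g0 x)]
    exact Set.indicator_le_self' (fun _ _ => zero_le_one) x
  have gi : Integrable g (nrm m K) :=
    Integrable.of_bound gm.aestronglyMeasurable 1 (Filter.Eventually.of_forall gb)
  set P : ℝ := ∫ x, g x ∂(nrm m K) with hP
  have P0 : 0 ≤ P := integral_nonneg g0
  have ni : ∀ F H : E → E, Measurable F → Measurable H → (∀ x, ‖F x‖ ≤ R) → (∀ x, ‖H x‖ ≤ R) →
      Integrable (fun x => ‖F x - H x‖) (nrm m K) ∧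
      Integrable (fun x => ‖F x - H x‖ ^ 2) (nrm m K) := by
    intro F H hF hH hFR hHR
    have hb : ∀ x, ‖F x - H x‖ ≤ 2 * R := fun x =>
      (norm_sub_le _ _).trans (by linarith [hFR x, hHR x])
    constructor
    · refine Integrable.of_bound (hF.sub hH).norm.aestronglyMeasurable
        (2 * R) (Filter.Eventually.of_forall fun x => ?_)
      rw [norm_norm]
      exact hb x
    · refine Integrable.of_bound ((hF.sub hH).norm.pow_const 2).aestronglyMeasurable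
        ((2 * R) ^ 2) (Filter.Eventually.of_forall fun x => ?_)
      rw [Real.norm_of_nonneg (by positivity)]
      exact pow_le_pow_left₀ (norm_nonneg _) (hb x) 2
  obtain ⟨_, ia0⟩ := ni U0 T1 mU0 hT1 U0R hT1R
  obtain ⟨ib0, _⟩ := ni U0 T0 mU0 hT0 U0R hT0R
  obtain ⟨_, iT⟩ := ni T0 T1 hT0 hT1 hT0R hT1R
  have iχ : Integrable (fun x => χ (U0 x) - χ (T0 x)) (nrm m K) := by
    obtain ⟨C, hC⟩ := (isCompact_closedBall (0 : E) R).exists_bound_of_continuousOn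
      hχl.continuous.continuousOn
    have hχm : Measurable χ := hχl.continuous.measurable
    refine Integrable.sub ?_ ?_
    · exact Integrable.of_bound (hχm.comp mU0).aestronglyMeasurable C
        (Filter.Eventually.of_forall fun x => hC _ (by simpa using U0R x))
    · exact Integrable.of_bound (hχm.comp hT0).aestronglyMeasurable C
        (Filter.Eventually.of_forall fun x => hC _ (by simpa using hT0R x))
  -- the total gap
  set D0 : ℝ := ∫ x, (⟪x, T0 x - U0 x⟫ + (ψ0 (U0 x) - ψ0 (T0 x))) ∂(nrm m K) with hD0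
  have hDD : D0 ≤ RK * (τ ^ 2 * P + τ ^ 4) + 8 * RK / ℓ * τ ^ 6 := by
    have key : ∀ᵐ x ∂(nrm m K), ⟪x, T0 x - U0 x⟫ + (ψ0 (U0 x) - ψ0 (T0 x)) ≤
        RK * (τ ^ 2 * g x + ‖U0 x - T1 x‖ ^ 2 / τ ^ 2) + (χ (U0 x) - χ (T0 x)) := by
      filter_upwards [nrm_ae m K hKm, hGn'] with x hx hxG
      by_cases hxB : x ∈ B
      · have gx : g x = 1 := by rw [hg, Set.indicator_of_mem hxB]
        rw [gx, mul_one]
        have e1 := c1 x hxG (T0 x)
        have e2 := c1' x hxG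
        have e3 : ⟪x, T1 x - U0 x⟫ ≤ RK * ‖U0 x - T1 x‖ := by
          rw [norm_sub_rev]
          exact (real_inner_le_norm _ _).trans
            (mul_le_mul_of_nonneg_right (hRK x hx) (norm_nonneg _))
        have e4 : ψ1 (U0 x) - ψ1 (T1 x) ≤ RK * ‖U0 x - T1 x‖ := by
          have := hψ1.dist_le_mul (U0 x) (T1 x)
          rw [Real.dist_eq, dist_eq_norm] at this
          exact (le_abs_self _).trans this
        rw [inner_sub_right] at e3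
        rw [inner_sub_right]
        simp only [hχ]
        set α := ‖U0 x - T1 x‖
        have e5 : 2 * α ≤ τ ^ 2 + α ^ 2 / τ ^ 2 := by
          have hτ2 : 0 < τ ^ 2 := by positivity
          have e6 : τ ^ 2 + α ^ 2 / τ ^ 2 - 2 * α = (τ ^ 2 - α) ^ 2 / τ ^ 2 := by
            field_simp
            ring
          have e7 : 0 ≤ (τ ^ 2 - α) ^ 2 / τ ^ 2 := by positivity
          linarith
        have e8 : (RK : ℝ) * (2 * α) ≤ RK * (τ ^ 2 + α ^ 2 / τ ^ 2) :=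
          mul_le_mul_of_nonneg_left e5 RK.2
        linarith
      · have hx' : U0 x = T0 x := by
          by_contra h
          exact hxB h
        rw [hx', sub_self, sub_self, sub_self, inner_zero_right, add_zero, add_zero]
        have := g0 x
        positivity
    have hiI : Integrable (fun x => (RK : ℝ) * (τ ^ 2 * g x + ‖U0 x - T1 x‖ ^ 2 / τ ^ 2))
        (nrm m K) := ((gi.const_mul _).add (ia0.div_const _)).const_mul _
    calc D0 ≤ ∫ x, (RK * (τ ^ 2 * g x + ‖U0 x - T1 x‖ ^ 2 / τ ^ 2) +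
            (χ (U0 x) - χ (T0 x))) ∂(nrm m K) :=
          integral_mono_ae (i0.add j0) (hiI.add iχ) key
      _ = RK * (τ ^ 2 * P + (∫ x, ‖U0 x - T1 x‖ ^ 2 ∂(nrm m K)) / τ ^ 2) +
            ∫ x, (χ (U0 x) - χ (T0 x)) ∂(nrm m K) := by
          rw [integral_add hiI iχ,
            integral_const_mul, integral_add (gi.const_mul _) (ia0.div_const _),
            integral_const_mul, integral_div]
      _ ≤ _ := by
          have h1 : (∫ x, ‖U0 x - T1 x‖ ^ 2 ∂(nrm m K)) / τ ^ 2 ≤ τ ^ 4 := by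
            rw [div_le_iff₀ (by positivity)]
            nlinarith
          have h2 : (RK : ℝ) * (τ ^ 2 * P + (∫ x, ‖U0 x - T1 x‖ ^ 2 ∂(nrm m K)) / τ ^ 2) ≤
              RK * (τ ^ 2 * P + τ ^ 4) := mul_le_mul_of_nonneg_left (by linarith) RK.2
          refine add_le_add h2 (d0.trans (le_of_eq ?_))
          push_cast
          ring
  have hτ46 : τ ^ 6 ≤ τ ^ 4 := pow_le_pow_of_le_one hτ.le hτ1 (by norm_num)
  have hτ26 : τ ^ 6 ≤ τ ^ 2 := pow_le_pow_of_le_one hτ.le hτ1 (by norm_num)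
  set A' : ℝ := RK + 8 * RK / ℓ + 1 with hA'
  have hA'0 : 0 < A' := by positivity
  have hQ : D0 ≤ A' * (τ ^ 2 * P + τ ^ 4) := by
    refine hDD.trans ?_
    have h1 : 8 * RK / ℓ * τ ^ 6 ≤ 8 * RK / ℓ * τ ^ 4 :=
      mul_le_mul_of_nonneg_left hτ46 (by positivity)
    have h2 : 0 ≤ 8 * RK / ℓ * (τ ^ 2 * P) := by positivity
    have h3 : 0 ≤ τ ^ 2 * P + τ ^ 4 := by positivity
    have h5 : A' * (τ ^ 2 * P + τ ^ 4) = RK * (τ ^ 2 * P + τ ^ 4) +
      (8 * RK / ℓ * (τ ^ 2 * P) + 8 * RK / ℓ * τ ^ 4) + (τ ^ 2 * P + τ ^ 4) := by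
        rw [hA']; ring
    rw [h5]
    linarith
  have hQpos : 0 < A' * (τ ^ 2 * P + τ ^ 4) := by positivity
  set δ : ℝ := √(A' * (τ ^ 2 * P + τ ^ 4)) with hδ
  have hδ0 : 0 < δ := Real.sqrt_pos.mpr hQpos
  have hδ2 : δ ^ 2 = A' * (τ ^ 2 * P + τ ^ 4) := Real.sq_sqrt hQpos.le
  have f0 := b0 δ hδ0 (by rw [hδ2]; exact hQ)
  set c : ℝ := (finrank ℝ E) * (1 + 4 * R * (finrank ℝ E) / r) + 2 * R / r with hcdef
  have hc0 : 0 ≤ c := by positivity
  have hPle : P ≤ c * δ / ℓ := by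
    have key : ∀ x, g x ≤ ‖U0 x - T0 x‖ / ℓ := by
      intro x
      by_cases hxB : x ∈ B
      · have gx : g x = 1 := by rw [hg, Set.indicator_of_mem hxB]
        rw [gx, le_div_iff₀ hℓ, one_mul]
        exact sep0 _ (U0S x) _ (hR0 x) hxB
      · have gx : g x = 0 := by rw [hg, Set.indicator_of_notMem hxB]
        rw [gx]
        positivity
    calc P ≤ ∫ x, ‖U0 x - T0 x‖ / ℓ ∂(nrm m K) :=
          integral_mono gi (ib0.div_const _) key
      _ = (∫ x, ‖U0 x - T0 x‖ ∂(nrm m K)) / ℓ := by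
          rw [integral_div]
      _ ≤ c * δ / ℓ := div_le_div_of_nonneg_right f0 hℓ.le
  have hPsq : P ^ 2 ≤ oneA (finrank ℝ E) r RK R ℓ * (τ ^ 2 * P + τ ^ 4) := by
    calc P ^ 2 ≤ (c * δ / ℓ) ^ 2 := pow_le_pow_left₀ P0 hPle 2
      _ = c ^ 2 / ℓ ^ 2 * δ ^ 2 := by ring
      _ = _ := by rw [hδ2, oneA, ← hcdef, ← hA']; ring
  have hA0 : 0 ≤ oneA (finrank ℝ E) r RK R ℓ := by
    rw [oneA]; positivity
  have hPfin := quad hA0 hτ hPsq
  have hfin : ∫ x, ‖T0 x - T1 x‖ ^ 2 ∂(nrm m K) ≤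
      (1 + 4 * R ^ 2 * (oneA (finrank ℝ E) r RK R ℓ + 1)) * τ ^ 2 := by
    have key : ∀ x, ‖T0 x - T1 x‖ ^ 2 ≤ ‖U0 x - T1 x‖ ^ 2 + 4 * R ^ 2 * g x := by
      intro x
      by_cases hxB : x ∈ B
      · have gx : g x = 1 := by rw [hg, Set.indicator_of_mem hxB]
        rw [gx, mul_one]
        have hb : ‖T0 x - T1 x‖ ≤ 2 * R :=
          (norm_sub_le _ _).trans (by linarith [hT0R x, hT1R x])
        have h2 := pow_le_pow_left₀ (norm_nonneg _) hb 2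
        have h3 : 0 ≤ ‖U0 x - T1 x‖ ^ 2 := by positivity
        calc ‖T0 x - T1 x‖ ^ 2 ≤ (2 * R) ^ 2 := h2
          _ = 4 * R ^ 2 := by ring
          _ ≤ _ := by linarith
      · have gx : g x = 0 := by rw [hg, Set.indicator_of_notMem hxB]
        have hx' : U0 x = T0 x := by
          by_contra h
          exact hxB h
        rw [gx, mul_zero, add_zero, hx']
    calc ∫ x, ‖T0 x - T1 x‖ ^ 2 ∂(nrm m K)
        ≤ ∫ x, (‖U0 x - T1 x‖ ^ 2 + 4 * R ^ 2 * g x) ∂(nrm m K) :=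
          integral_mono iT (ia0.add (gi.const_mul _)) key
      _ = ∫ x, ‖U0 x - T1 x‖ ^ 2 ∂(nrm m K) + 4 * R ^ 2 * P := by
          rw [integral_add ia0 (gi.const_mul _), integral_const_mul]
      _ ≤ τ ^ 2 + 4 * R ^ 2 * ((oneA (finrank ℝ E) r RK R ℓ + 1) * τ ^ 2) := by
          refine add_le_add (a0.trans hτ26) (mul_le_mul_of_nonneg_left hPfin (by positivity))
      _ = _ := by ring
  have h1 : ∫⁻ x, ‖T0 x - T1 x‖ₑ ^ 2 ∂(nrm m K) =
      ENNReal.ofReal (∫ x, ‖T0 x - T1 x‖ ^ 2 ∂(nrm m K)) := by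
    rw [ofReal_integral_eq_lintegral_ofReal iT
      (Filter.Eventually.of_forall fun x => by positivity)]
    refine lintegral_congr fun x => ?_
    rw [ENNReal.ofReal_pow (norm_nonneg _), ofReal_norm]
  rw [h1]
  exact ENNReal.ofReal_le_ofReal hfin

/-- Hölder estimate with exponent `1/3` when the first target is separated, coupling form. -/
theorem one_holder [Nontrivial E] (K : Set E) (hKc : IsCompact K) (hKconv : Convex ℝ K)
    (hKi : (interior K).Nonempty) (Y : Set E) (hY : IsCompact Y) (hYne : Y.Nonempty)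
    (ℓ : ℝ) (hℓ : 0 < ℓ) :
    ∃ C : ℝ≥0, 0 < C ∧ ∀ T0 T1 : E → E, Measurable T0 → Measurable T1 →
      ∀ S0 : Set E, S0 ⊆ Y → (∀ y ∈ S0, ∀ z ∈ S0, y ≠ z → ℓ ≤ ‖y - z‖) →
      (nrm m K).map T0 S0ᶜ = 0 → (nrm m K).map T1 Yᶜ = 0 →
      (∀ S : E → E, Measurable S → (nrm m K).map S = (nrm m K).map T0 →
        ∫⁻ x, ‖x - T0 x‖ₑ ^ 2 ∂(nrm m K) ≤ ∫⁻ x, ‖x - S x‖ₑ ^ 2 ∂(nrm m K)) →
      (∀ S : E → E, Measurable S → (nrm m K).map S = (nrm m K).map T1 →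
        ∫⁻ x, ‖x - T1 x‖ₑ ^ 2 ∂(nrm m K) ≤ ∫⁻ x, ‖x - S x‖ₑ ^ 2 ∂(nrm m K)) →
      ∀ π : Measure (E × E), π.map Prod.fst = (nrm m K).map T0 →
        π.map Prod.snd = (nrm m K).map T1 →
      ∀ τ : ℝ, 0 < τ → ∫⁻ q, ‖q.1 - q.2‖ₑ ^ 2 ∂π ≤ ENNReal.ofReal (τ ^ 6) →
        ∫⁻ x, ‖T0 x - T1 x‖ₑ ^ 2 ∂(nrm m K) ≤ C * ENNReal.ofReal (τ ^ 2) := by
  obtain ⟨p, hpi⟩ := hKi
  obtain ⟨r, hr, hp⟩ := Metric.nhds_basis_closedBall.mem_iff.mp (mem_interior_iff_mem_nhds.mp hpi)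
  obtain ⟨RK0, hRK0⟩ := hKc.isBounded.exists_norm_le
  obtain ⟨R0, hR0⟩ := hY.isBounded.exists_norm_le
  obtain ⟨u, hu⟩ := exists_norm_eq E (zero_le_one' ℝ)
  obtain ⟨y0, hy0⟩ := hYne
  have hpK : p ∈ K := hp (mem_closedBall_self hr.le)
  have hRK0' : 0 ≤ RK0 := (norm_nonneg p).trans (hRK0 p hpK)
  have hR0' : 0 ≤ R0 := (norm_nonneg y0).trans (hR0 y0 hy0)
  set RK : ℝ≥0 := ⟨RK0, hRK0'⟩ with hRK
  set R : ℝ≥0 := ⟨R0, hR0'⟩ with hR
  have h0 : m K ≠ 0 := by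
    intro h
    have h1 : m (closedBall p r) ≤ 0 := (measure_mono hp).trans h.le
    exact absurd (Measure.measure_pos_of_nonempty_interior m
      (⟨p, interior_mono (ball_subset_closedBall) (by
        rw [isOpen_ball.interior_eq]; exact mem_ball_self hr)⟩ :
        (interior (closedBall p r)).Nonempty)) (not_lt.mpr h1)
  have hprob := nrm_prob m K h0 hKc.measure_lt_top.ne
  have hA0 : 0 ≤ oneA (finrank ℝ E) r RK R ℓ := by
    rw [oneA]; positivity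
  set Q : ℝ := 1 + 4 * R ^ 2 * (oneA (finrank ℝ E) r RK R ℓ + 1) with hQ
  have hQ0 : 0 ≤ Q := by positivity
  have hQR : (2 * (R : ℝ)) ^ 2 ≤ Q := by
    rw [hQ]
    have : 0 ≤ 4 * (R : ℝ) ^ 2 * oneA (finrank ℝ E) r RK R ℓ := by positivity
    nlinarith
  refine ⟨Real.toNNReal Q + 1, by positivity, ?_⟩
  intro T0 T1 hT0 hT1 S0 hS0Y sep0 hY0 hY1 hopt0 hopt1 π hπ0 hπ1 τ hτ hc
  classical
  have hS0 := finite_of_sep Y hY ℓ hℓ S0 hS0Y sep0
  -- modify the maps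
  have hmod : ∀ T : E → E, Measurable T → ∀ A : Set E, MeasurableSet A → (nrm m K).map T Aᶜ = 0 →
      (∀ S : E → E, Measurable S → (nrm m K).map S = (nrm m K).map T →
        ∫⁻ x, ‖x - T x‖ₑ ^ 2 ∂(nrm m K) ≤ ∫⁻ x, ‖x - S x‖ₑ ^ 2 ∂(nrm m K)) →
      ∃ T' : E → E, Measurable T' ∧ (∀ x, T' x ∈ A) ∧ T =ᵐ[nrm m K] T' ∧
        (∀ S : E → E, Measurable S → (nrm m K).map S = (nrm m K).map T' →
          ∫⁻ x, ‖x - T' x‖ₑ ^ 2 ∂(nrm m K) ≤ ∫⁻ x, ‖x - S x‖ₑ ^ 2 ∂(nrm m K)) := by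
    intro T hT A hA hTY hTo
    rw [Measure.map_apply hT hA.compl] at hTY
    have hmem : ∀ᵐ x ∂(nrm m K), T x ∈ A := hTY
    obtain ⟨x0, hx0⟩ := hmem.exists
    have hae : T =ᵐ[nrm m K] fun x => if T x ∈ A then T x else T x0 := by
      filter_upwards [hmem] with x hx
      simp [hx]
    refine ⟨fun x => if T x ∈ A then T x else T x0, ?_, ?_, hae, ?_⟩
    · exact Measurable.ite (hT hA) hT measurable_const
    · intro x
      simp only
      split_ifs with h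
      · exact h
      · exact hx0
    · intro S hS hSm
      rw [← Measure.map_congr hae] at hSm
      refine le_of_eq_of_le ?_ (hTo S hS hSm)
      refine lintegral_congr_ae ?_
      filter_upwards [hae] with x hx
      rw [← hx]
  obtain ⟨T0', m0, b0, a0, o0⟩ := hmod T0 hT0 S0 hS0.measurableSet hY0 hopt0
  obtain ⟨T1', m1, b1, a1, o1⟩ := hmod T1 hT1 Y hY.measurableSet hY1 hopt1
  rw [Measure.map_congr a0] at hπ0
  rw [Measure.map_congr a1] at hπ1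
  have heq : ∫⁻ x, ‖T0 x - T1 x‖ₑ ^ 2 ∂(nrm m K) = ∫⁻ x, ‖T0' x - T1' x‖ₑ ^ 2 ∂(nrm m K) := by
    refine lintegral_congr_ae ?_
    filter_upwards [a0, a1] with x h0 h1
    rw [h0, h1]
  rw [heq]
  have hS0R : ∀ y ∈ S0, ‖y‖ ≤ R := fun y hy => hR0 y (hS0Y hy)
  have hT1R : ∀ x, ‖T1' x‖ ≤ R := fun x => hR0 _ (b1 x)
  have hmain : ∫⁻ x, ‖T0' x - T1' x‖ₑ ^ 2 ∂(nrm m K) ≤ ENNReal.ofReal (Q * τ ^ 2) := by
    rcases le_or_gt τ 1 with hτ1 | hτ1
    · exact one_bound m K hKc hKconv p r hr hp RK (fun x hx => hRK0 x hx) R u hu ℓ hℓ S0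
        hS0 hS0R sep0 T0' T1' m0 m1 b0 hT1R o0 o1 π hπ0 hπ1 τ hτ hτ1 hc
    · calc ∫⁻ x, ‖T0' x - T1' x‖ₑ ^ 2 ∂(nrm m K)
          ≤ ∫⁻ _, ENNReal.ofReal ((2 * R) ^ 2) ∂(nrm m K) := by
            refine lintegral_mono fun x => ?_
            simp only
            rw [← ofReal_norm, ← ENNReal.ofReal_pow (norm_nonneg _)]
            refine ENNReal.ofReal_le_ofReal (pow_le_pow_left₀ (norm_nonneg _) ?_ 2)
            exact (norm_sub_le _ _).trans (by linarith [hS0R _ (b0 x), hT1R x])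
        _ = ENNReal.ofReal ((2 * R) ^ 2) := by simp
        _ ≤ ENNReal.ofReal (Q * τ ^ 2) := by
            refine ENNReal.ofReal_le_ofReal (hQR.trans ?_)
            have : 1 ≤ τ ^ 2 := one_le_pow₀ hτ1.le
            nlinarith
  refine hmain.trans ?_
  rw [ENNReal.ofReal_mul hQ0]
  refine mul_le_mul_left ?_ _
  rw [ENNReal.ofReal]
  exact_mod_cast le_add_of_nonneg_right (zero_le_one)

end

end Vale.Agent.P074
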