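import Mathlib

/-!
# Definitions: optimal maps, Wasserstein distance, admissible stability exponents
-/

namespace Vale.Agent.P074Sep

open MeasureTheory
open scoped ENNReal NNReal

section
variable {E : Type*} [NormedAddCommGroup E]

/-- `T` is a quadratic optimal transport map from `ρ` to `μ`: it minimizes
`∫ |x - T x|² dρ` over Borel maps pushing `ρ` forward to `μ`. -/
def IsOptimalMap [MeasurableSpace E] (ρ μ : Measure E) (T : E → E) : Prop :=
  Measurable T ∧ ρ.map T = μ ∧
    ∀ S : E → E, Measurable S → ρ.map S = μ →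
      ∫⁻ x, ‖x - T x‖ₑ ^ 2 ∂ρ ≤ ∫⁻ x, ‖x - S x‖ₑ ^ 2 ∂ρ

/-- The Wasserstein distance `W₂`: infimum over all couplings of `μ` and `ν`. -/
noncomputable def W2 [MeasurableSpace E] (μ ν : Measure E) : ℝ≥0∞ :=
  (⨅ (π : Measure (E × E)) (_ : π.map Prod.fst = μ ∧ π.map Prod.snd = ν),
    ∫⁻ q, ‖q.1 - q.2‖ₑ ^ 2 ∂π) ^ (1 / 2 : ℝ)

/-- The distance `‖S - T‖` in `L²(ρ)`. -/
noncomputable def L2dist [MeasurableSpace E] (ρ : Measure E) (S T : E → E) : ℝ≥0∞ :=
  (∫⁻ x, ‖S x - T x‖ₑ ^ 2 ∂ρ) ^ (1 / 2 : ℝ)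

/-- The uniform probability measure on `K`. -/
noncomputable def unif [MeasureSpace E] (K : Set E) : Measure E :=
  (volume K)⁻¹ • volume.restrict K

end

/-- The exponent `α` is admissible in the Euclidean space `E`: for every compact convex `K` with
nonempty interior (carrying its uniform probability measure) and every nonempty compact `Y` there
is a finite constant `C` with `‖T_μ - T_ν‖ ≤ C W₂(μ, ν)^α` for all probability measures `μ, ν`
supported in `Y`. -/
def Admissible (E : Type*) [NormedAddCommGroup E] [NormedSpace ℝ E] [MeasureSpace E]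
    (α : ℝ) : Prop :=
  ∀ K : Set E, IsCompact K → Convex ℝ K → (interior K).Nonempty →
    ∀ Y : Set E, IsCompact Y → Y.Nonempty →
      ∃ C : ℝ≥0, ∀ μ ν : Measure E, IsProbabilityMeasure μ → IsProbabilityMeasure ν →
        μ Yᶜ = 0 → ν Yᶜ = 0 → ∀ S T : E → E,
          IsOptimalMap (unif K) μ S → IsOptimalMap (unif K) ν T →
            L2dist (unif K) S T ≤ C * W2 μ ν ^ α

/-- The set `A` is `ℓ`-separated: distinct points of `A` have distance at least `ℓ`. -/
def IsSep {E : Type*} [NormedAddCommGroup E] (ℓ : ℝ) (A : Set E) : Prop :=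
  ∀ y ∈ A, ∀ z ∈ A, y ≠ z → ℓ ≤ ‖y - z‖

/-- The exponent `α` is admissible in `E` for separated discrete targets: for every compact
convex `K` with nonempty interior, every nonempty compact `Y` and every `ℓ > 0` there is a finite
constant `C` with `‖T_μ - T_ν‖ ≤ C W₂(μ, ν)^α` for all probability measures `μ, ν` each of which
is concentrated on some `ℓ`-separated subset of `Y` (the two subsets may be different). -/
def AdmissibleSep (E : Type*) [NormedAddCommGroup E] [NormedSpace ℝ E] [MeasureSpace E]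
    (α : ℝ) : Prop :=
  ∀ K : Set E, IsCompact K → Convex ℝ K → (interior K).Nonempty →
    ∀ Y : Set E, IsCompact Y → Y.Nonempty → ∀ ℓ : ℝ, 0 < ℓ →
      ∃ C : ℝ≥0, ∀ μ ν : Measure E, IsProbabilityMeasure μ → IsProbabilityMeasure ν →
        (∃ A : Set E, A ⊆ Y ∧ IsSep ℓ A ∧ μ Aᶜ = 0) →
        (∃ B : Set E, B ⊆ Y ∧ IsSep ℓ B ∧ ν Bᶜ = 0) → ∀ S T : E → E,
          IsOptimalMap (unif K) μ S → IsOptimalMap (unif K) ν T →
            L2dist (unif K) S T ≤ C * W2 μ ν ^ α

/-- The supremum of the admissible exponents in `(0, 1]`, in dimension `d`. -/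
noncomputable def alphaStar (d : ℕ) : ℝ :=
  sSup {α : ℝ | 0 < α ∧ α ≤ 1 ∧ Admissible (EuclideanSpace ℝ (Fin d)) α}

end Vale.Agent.P074Sep
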