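import Mathlib
import Vale.Agent.P074.SepDefs

/-!
# Admissible exponents for pairs of targets one of which is separated discrete
-/

namespace Vale.Agent.P074Sep

open MeasureTheory
open scoped ENNReal NNReal

/-- The exponent `α` is admissible in `E` for pairs of targets of which the first is separated
discrete and the second is arbitrary: for every compact convex `K` with nonempty interior, every
nonempty compact `Y` and every `ℓ > 0` there is a finite constant `C` with
`‖T_μ - T_ν‖ ≤ C W₂(μ, ν)^α` for all probability measures `μ, ν` such that `μ` is concentrated on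
some `ℓ`-separated subset of `Y` and `ν` is any probability measure supported in `Y`. -/
def AdmissibleDisc (E : Type*) [NormedAddCommGroup E] [NormedSpace ℝ E] [MeasureSpace E]
    (α : ℝ) : Prop :=
  ∀ K : Set E, IsCompact K → Convex ℝ K → (interior K).Nonempty →
    ∀ Y : Set E, IsCompact Y → Y.Nonempty → ∀ ℓ : ℝ, 0 < ℓ →
      ∃ C : ℝ≥0, ∀ μ ν : Measure E, IsProbabilityMeasure μ → IsProbabilityMeasure ν →
        (∃ A : Set E, A ⊆ Y ∧ IsSep ℓ A ∧ μ Aᶜ = 0) → ν Yᶜ = 0 → ∀ S T : E → E,
          IsOptimalMap (unif K) μ S → IsOptimalMap (unif K) ν T →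
            L2dist (unif K) S T ≤ C * W2 μ ν ^ α

end Vale.Agent.P074Sep
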