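import Mathlib
import Vale.Agent.P074.Upper
import Vale.Agent.P074.Lower
import Vale.Agent.P074.Sep4
import Vale.Agent.P074.SepDefs

namespace Vale.Agent.P074Sep

open MeasureTheory
open scoped ENNReal NNReal

lemma not_admissible (d : ℕ) (hd : 2 ≤ d) (α : ℝ) (hα : 1 / 3 < α) (hα1 : α ≤ 1) :
    ¬ Admissible (EuclideanSpace ℝ (Fin d)) α := by
  intro hadm
  obtain ⟨C, hC⟩ := hadm (Vale.Agent.P074.cube d) (Vale.Agent.P074.isCompact_cube d)
    (Vale.Agent.P074.convex_cube d) (Vale.Agent.P074.interior_cube d)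
    (Metric.closedBall 0 1) (isCompact_closedBall 0 1) ⟨0, by simp⟩
  refine Vale.Agent.P074.upper d hd α hα hα1 C ?_
  intro S T hS hT hS1 hT1 hSo hTo π hπ1 hπ2
  have hsupp : ∀ U : EuclideanSpace ℝ (Fin d) → EuclideanSpace ℝ (Fin d), Measurable U →
      (∀ x, ‖U x‖ ≤ 1) →
      ((Vale.Agent.P074.rho d).map U) (Metric.closedBall 0 1)ᶜ = 0 := by
    intro U hU hU1
    rw [Measure.map_apply hU Metric.isClosed_closedBall.measurableSet.compl]
    have : U ⁻¹' (Metric.closedBall 0 1)ᶜ = ∅ := by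
      ext x; simpa using hU1 x
    rw [this, measure_empty]
  have h := hC ((Vale.Agent.P074.rho d).map S) ((Vale.Agent.P074.rho d).map T)
    (Measure.isProbabilityMeasure_map hS.aemeasurable)
    (Measure.isProbabilityMeasure_map hT.aemeasurable)
    (hsupp S hS hS1) (hsupp T hT hT1) S T ⟨hS, rfl, hSo⟩ ⟨hT, rfl, hTo⟩
  refine h.trans ?_
  gcongr
  refine ENNReal.rpow_le_rpow ?_ (by norm_num)
  exact iInf₂_le π ⟨hπ1, hπ2⟩

lemma cost_bound {X c C : ℝ≥0∞} (hC0 : C ≠ 0) (hC1 : C ≠ ⊤)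
    (h : ∀ w : ℝ, 0 < w → c ≤ ENNReal.ofReal (w ^ 2) → X ≤ C * ENNReal.ofReal (√w)) :
    (X / C) ^ (4 : ℝ) ≤ c := by
  have key : X ≤ C * c ^ (1 / 4 : ℝ) := by
    rcases eq_or_ne c ⊤ with rfl | hct
    · rw [ENNReal.top_rpow_of_pos (by norm_num), ENNReal.mul_top hC0]
      exact le_top
    rcases eq_or_ne c 0 with rfl | hc0
    · refine ENNReal.le_of_forall_pos_le_add fun ε hε _ => ?_
      have hCr : 0 < C.toReal := ENNReal.toReal_pos hC0 hC1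
      have hw : 0 < (ε : ℝ) / C.toReal := div_pos hε hCr
      have h1 := h (((ε : ℝ) / C.toReal) ^ 2) (by positivity) (by simp)
      rw [Real.sqrt_sq hw.le] at h1
      refine h1.trans ?_
      rw [ENNReal.zero_rpow_of_pos (by norm_num), mul_zero, zero_add]
      rw [← ENNReal.ofReal_toReal hC1, ← ENNReal.ofReal_mul hCr.le,
        ENNReal.ofReal_toReal hC1, mul_div_cancel₀ _ hCr.ne', ENNReal.ofReal_coe_nnreal]
    · have hcr : 0 < c.toReal := ENNReal.toReal_pos hc0 hct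
      have h1 := h (√c.toReal) (Real.sqrt_pos.mpr hcr) (by
        rw [Real.sq_sqrt hcr.le, ENNReal.ofReal_toReal hct])
      refine h1.trans (le_of_eq ?_)
      congr 1
      rw [← ENNReal.ofReal_toReal hct, ENNReal.ofReal_rpow_of_pos hcr, ENNReal.ofReal_toReal hct]
      congr 1
      rw [Real.sqrt_eq_rpow, Real.sqrt_eq_rpow, ← Real.rpow_mul hcr.le]
      norm_num
  have h2 : X / C ≤ c ^ (1 / 4 : ℝ) := ENNReal.div_le_of_le_mul' key
  calc (X / C) ^ (4 : ℝ) ≤ (c ^ (1 / 4 : ℝ)) ^ (4 : ℝ) := ENNReal.rpow_le_rpow h2 (by norm_num)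
    _ = c := by rw [← ENNReal.rpow_mul]; norm_num

lemma admissible_quarter (d : ℕ) (hd : 2 ≤ d) :
    Admissible (EuclideanSpace ℝ (Fin d)) (1 / 4) := by
  have : Nontrivial (EuclideanSpace ℝ (Fin d)) := by
    have : Nonempty (Fin d) := ⟨⟨0, by omega⟩⟩
    infer_instance
  intro K hKc hKconv hKi Y hY hYne
  obtain ⟨C, hC0, hC⟩ := Vale.Agent.P074.holder_bound
    (volume : Measure (EuclideanSpace ℝ (Fin d))) K hKc hKconv hKi Y hY hYne
  refine ⟨C ^ (1 / 2 : ℝ), ?_⟩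
  intro μ ν _ _ hμ hν S T hS hT
  obtain ⟨hSm, hSμ, hSo⟩ := hS
  obtain ⟨hTm, hTν, hTo⟩ := hT
  set X : ℝ≥0∞ := ∫⁻ x, ‖S x - T x‖ₑ ^ 2 ∂(unif K) with hX
  set c : ℝ≥0∞ := ⨅ (π : Measure (EuclideanSpace ℝ (Fin d) × EuclideanSpace ℝ (Fin d)))
    (_ : π.map Prod.fst = μ ∧ π.map Prod.snd = ν), ∫⁻ q, ‖q.1 - q.2‖ₑ ^ 2 ∂π with hc
  have hCe0 : (C : ℝ≥0∞) ≠ 0 := by exact_mod_cast hC0.ne'
  have h1 : (X / C) ^ (4 : ℝ) ≤ c := by
    refine le_iInf₂ fun π hπ => ?_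
    refine cost_bound hCe0 ENNReal.coe_ne_top fun w hw hcw => ?_
    refine hC S T hSm hTm ?_ ?_ ?_ ?_ π ?_ ?_ w hw hcw
    · change (unif K).map S Yᶜ = 0
      rw [hSμ]; exact hμ
    · change (unif K).map T Yᶜ = 0
      rw [hTν]; exact hν
    · intro S' hS' hm
      exact hSo S' hS' (hm.trans hSμ)
    · intro S' hS' hm
      exact hTo S' hS' (hm.trans hTν)
    · exact hπ.1.trans hSμ.symm
    · exact hπ.2.trans hTν.symm
  have h2 : X / C ≤ c ^ (1 / 4 : ℝ) := by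
    have := ENNReal.rpow_le_rpow h1 (by norm_num : (0 : ℝ) ≤ 1 / 4)
    rw [← ENNReal.rpow_mul] at this
    norm_num at this
    norm_num
    exact this
  have h3 : X ≤ C * c ^ (1 / 4 : ℝ) := by
    have := (ENNReal.div_le_iff hCe0 ENNReal.coe_ne_top).mp h2
    rwa [mul_comm] at this
  have h4 : X ^ (1 / 2 : ℝ) ≤ (C * c ^ (1 / 4 : ℝ)) ^ (1 / 2 : ℝ) :=
    ENNReal.rpow_le_rpow h3 (by norm_num)
  unfold L2dist W2
  refine h4.trans (le_of_eq ?_)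
  rw [ENNReal.mul_rpow_of_nonneg _ _ (by norm_num), ← ENNReal.rpow_mul, ← ENNReal.rpow_mul,
    ENNReal.coe_rpow_of_nonneg _ (by norm_num)]
  norm_num
  rw [← hc]

lemma not_admissibleSep (d : ℕ) (hd : 2 ≤ d) (α : ℝ) (hα : 1 / 3 < α) (hα1 : α ≤ 1) :
    ¬ AdmissibleSep (EuclideanSpace ℝ (Fin d)) α := by
  intro hadm
  obtain ⟨C, hC⟩ := hadm (Vale.Agent.P074.cube d) (Vale.Agent.P074.isCompact_cube d)
    (Vale.Agent.P074.convex_cube d) (Vale.Agent.P074.interior_cube d)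
    (Metric.closedBall 0 1) (isCompact_closedBall 0 1) ⟨0, by simp⟩ 1 one_pos
  refine Vale.Agent.P074.upper_sep d hd α hα hα1 C ?_
  intro S T hS hT A B hA hB hA1 hB1 hAs hBs hSA hTB hSo hTo π hπ1 hπ2
  have hsupp : ∀ (U : EuclideanSpace ℝ (Fin d) → EuclideanSpace ℝ (Fin d))
      (D : Set (EuclideanSpace ℝ (Fin d))), Measurable U → MeasurableSet D →
      (∀ x, U x ∈ D) → ((Vale.Agent.P074.rho d).map U) Dᶜ = 0 := by
    intro U D hU hD hUD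
    rw [Measure.map_apply hU hD.compl]
    have : U ⁻¹' Dᶜ = ∅ := by
      ext x; simpa using hUD x
    rw [this, measure_empty]
  have h := hC ((Vale.Agent.P074.rho d).map S) ((Vale.Agent.P074.rho d).map T)
    (Measure.isProbabilityMeasure_map hS.aemeasurable)
    (Measure.isProbabilityMeasure_map hT.aemeasurable)
    ⟨A, fun y hy => by simpa using hA1 y hy, hAs, hsupp S A hS hA hSA⟩
    ⟨B, fun y hy => by simpa using hB1 y hy, hBs, hsupp T B hT hB hTB⟩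
    S T ⟨hS, rfl, hSo⟩ ⟨hT, rfl, hTo⟩
  refine h.trans ?_
  gcongr
  refine ENNReal.rpow_le_rpow ?_ (by norm_num)
  exact iInf₂_le π ⟨hπ1, hπ2⟩

lemma admissibleSep_third (d : ℕ) (hd : 2 ≤ d) :
    AdmissibleSep (EuclideanSpace ℝ (Fin d)) (1 / 3) := by
  have : Nontrivial (EuclideanSpace ℝ (Fin d)) := by
    have : Nonempty (Fin d) := ⟨⟨0, by omega⟩⟩
    infer_instance
  intro K hKc hKconv hKi Y hY hYne ℓ hℓ
  obtain ⟨C, hC0, hC⟩ := Vale.Agent.P074.sep_holder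
    (volume : Measure (EuclideanSpace ℝ (Fin d))) K hKc hKconv hKi Y hY hYne ℓ hℓ
  refine ⟨C ^ (1 / 2 : ℝ), ?_⟩
  intro μ ν _ _ hμ hν S T hS hT
  obtain ⟨A, hAY, hAs, hA0⟩ := hμ
  obtain ⟨B, hBY, hBs, hB0⟩ := hν
  obtain ⟨hSm, hSμ, hSo⟩ := hS
  obtain ⟨hTm, hTν, hTo⟩ := hT
  set X : ℝ≥0∞ := ∫⁻ x, ‖S x - T x‖ₑ ^ 2 ∂(unif K) with hX
  set c : ℝ≥0∞ := ⨅ (π : Measure (EuclideanSpace ℝ (Fin d) × EuclideanSpace ℝ (Fin d)))
    (_ : π.map Prod.fst = μ ∧ π.map Prod.snd = ν), ∫⁻ q, ‖q.1 - q.2‖ₑ ^ 2 ∂π with hc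
  have hCe0 : (C : ℝ≥0∞) ≠ 0 := by exact_mod_cast hC0.ne'
  have h1 : (X / C) ^ (3 : ℝ) ≤ c := by
    refine le_iInf₂ fun π hπ => ?_
    refine Vale.Agent.P074.cost_bound3 hCe0 ENNReal.coe_ne_top fun w hw hcw => ?_
    refine hC S T hSm hTm A B hAY hBY hAs hBs ?_ ?_ ?_ ?_ π ?_ ?_ w hw hcw
    · change (unif K).map S Aᶜ = 0
      rw [hSμ]; exact hA0
    · change (unif K).map T Bᶜ = 0
      rw [hTν]; exact hB0
    · intro S' hS' hm
      exact hSo S' hS' (hm.trans hSμ)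
    · intro S' hS' hm
      exact hTo S' hS' (hm.trans hTν)
    · exact hπ.1.trans hSμ.symm
    · exact hπ.2.trans hTν.symm
  have h2 : X / C ≤ c ^ (1 / 3 : ℝ) := by
    have := ENNReal.rpow_le_rpow h1 (by norm_num : (0 : ℝ) ≤ 1 / 3)
    rw [← ENNReal.rpow_mul] at this
    norm_num at this
    norm_num
    exact this
  have h3 : X ≤ C * c ^ (1 / 3 : ℝ) := by
    have := (ENNReal.div_le_iff hCe0 ENNReal.coe_ne_top).mp h2
    rwa [mul_comm] at this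
  have h4 : X ^ (1 / 2 : ℝ) ≤ (C * c ^ (1 / 3 : ℝ)) ^ (1 / 2 : ℝ) :=
    ENNReal.rpow_le_rpow h3 (by norm_num)
  unfold L2dist W2
  refine h4.trans (le_of_eq ?_)
  rw [ENNReal.mul_rpow_of_nonneg _ _ (by norm_num), ← ENNReal.rpow_mul, ← ENNReal.rpow_mul,
    ENNReal.coe_rpow_of_nonneg _ (by norm_num)]
  norm_num
  rw [← hc]

end Vale.Agent.P074Sep
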