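import Mathlib
import Vale.Agent.P074.One
import Vale.Agent.P074.SepFinal
import Vale.Agent.P074.OneDefs

namespace Vale.Agent.P074Sep

open MeasureTheory
open scoped ENNReal NNReal

lemma admissibleDisc_third (d : ℕ) (hd : 2 ≤ d) :
    AdmissibleDisc (EuclideanSpace ℝ (Fin d)) (1 / 3) := by
  have : Nontrivial (EuclideanSpace ℝ (Fin d)) := by
    have : Nonempty (Fin d) := ⟨⟨0, by omega⟩⟩
    infer_instance
  intro K hKc hKconv hKi Y hY hYne ℓ hℓ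
  obtain ⟨C, hC0, hC⟩ := Vale.Agent.P074.one_holder
    (volume : Measure (EuclideanSpace ℝ (Fin d))) K hKc hKconv hKi Y hY hYne ℓ hℓ
  refine ⟨C ^ (1 / 2 : ℝ), ?_⟩
  intro μ ν _ _ hμ hν S T hS hT
  obtain ⟨A, hAY, hAs, hA0⟩ := hμ
  obtain ⟨hSm, hSμ, hSo⟩ := hS
  obtain ⟨hTm, hTν, hTo⟩ := hT
  set X : ℝ≥0∞ := ∫⁻ x, ‖S x - T x‖ₑ ^ 2 ∂(unif K) with hX
  set c : ℝ≥0∞ := ⨅ (π : Measure (EuclideanSpace ℝ (Fin d) × EuclideanSpace ℝ (Fin d)))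
    (_ : π.map Prod.fst = μ ∧ π.map Prod.snd = ν), ∫⁻ q, ‖q.1 - q.2‖ₑ ^ 2 ∂π with hc
  have hCe0 : (C : ℝ≥0∞) ≠ 0 := by exact_mod_cast hC0.ne'
  have h1 : (X / C) ^ (3 : ℝ) ≤ c := by
    refine le_iInf₂ fun π hπ => ?_
    refine Vale.Agent.P074.cost_bound3 hCe0 ENNReal.coe_ne_top fun w hw hcw => ?_
    refine hC S T hSm hTm A hAY hAs ?_ ?_ ?_ ?_ π ?_ ?_ w hw hcw
    · change (unif K).map S Aᶜ = 0
      rw [hSμ]; exact hA0
    · change (unif K).map T Yᶜ = 0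
      rw [hTν]; exact hν
    · intro S' hS' hm
      exact hSo S' hS' (hm.trans hSμ)
    · intro S' hS' hm
      exact hTo S' hS' (hm.trans hTν)
    · exact hπ.1.trans hSμ.symm
    · exact hπ.2.trans hTν.symm
  have h2 : X / C ≤ c ^ (1 / 3 : ℝ) := by
    have := ENNReal.rpow_le_rpow h1 (by norm_num : (0 : ℝ) ≤ 1 / 3)
    rw [← ENNReal.rpow_mul] at this
    norm_num at this
    norm_num
    exact this
  have h3 : X ≤ C * c ^ (1 / 3 : ℝ) := by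
    have := (ENNReal.div_le_iff hCe0 ENNReal.coe_ne_top).mp h2
    rwa [mul_comm] at this
  have h4 : X ^ (1 / 2 : ℝ) ≤ (C * c ^ (1 / 3 : ℝ)) ^ (1 / 2 : ℝ) :=
    ENNReal.rpow_le_rpow h3 (by norm_num)
  unfold L2dist W2
  refine h4.trans (le_of_eq ?_)
  rw [ENNReal.mul_rpow_of_nonneg _ _ (by norm_num), ← ENNReal.rpow_mul, ← ENNReal.rpow_mul,
    ENNReal.coe_rpow_of_nonneg _ (by norm_num)]
  norm_num
  rw [← hc]

lemma sep_of_disc (E : Type*) [NormedAddCommGroup E] [NormedSpace ℝ E] [MeasureSpace E]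
    (α : ℝ) (h : AdmissibleDisc E α) : AdmissibleSep E α := by
  intro K hKc hKconv hKi Y hY hYne ℓ hℓ
  obtain ⟨C, hC⟩ := h K hKc hKconv hKi Y hY hYne ℓ hℓ
  refine ⟨C, fun μ ν hμp hνp hμ hν S T hS hT => hC μ ν hμp hνp hμ ?_ S T hS hT⟩
  obtain ⟨B, hBY, _, hB0⟩ := hν
  exact measure_mono_null (Set.compl_subset_compl.mpr hBY) hB0

end Vale.Agent.P074Sep
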