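import Mathlib
import Vale.Agent.P074.OneDefs

/-!
# The distance `W₁` and the corresponding admissible exponents
-/

namespace Vale.Agent.P074Sep

open MeasureTheory
open scoped ENNReal NNReal

/-- The Wasserstein distance `W₁`: infimum over all couplings of `μ` and `ν`. -/
noncomputable def W1 {E : Type*} [NormedAddCommGroup E] [MeasurableSpace E]
    (μ ν : Measure E) : ℝ≥0∞ :=
  ⨅ (π : Measure (E × E)) (_ : π.map Prod.fst = μ ∧ π.map Prod.snd = ν), ∫⁻ q, ‖q.1 - q.2‖ₑ ∂π

/-- The same as `Admissible`, with `W₁` in place of `W₂`. -/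
def AdmissibleW1 (E : Type*) [NormedAddCommGroup E] [NormedSpace ℝ E] [MeasureSpace E]
    (α : ℝ) : Prop :=
  ∀ K : Set E, IsCompact K → Convex ℝ K → (interior K).Nonempty →
    ∀ Y : Set E, IsCompact Y → Y.Nonempty →
      ∃ C : ℝ≥0, ∀ μ ν : Measure E, IsProbabilityMeasure μ → IsProbabilityMeasure ν →
        μ Yᶜ = 0 → ν Yᶜ = 0 → ∀ S T : E → E,
          IsOptimalMap (unif K) μ S → IsOptimalMap (unif K) ν T →
            L2dist (unif K) S T ≤ C * W1 μ ν ^ α

end Vale.Agent.P074Sep
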