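import Mathlib
import Vale.Agent.P074.Lower
import Vale.Agent.P074.Upper

open MeasureTheory Metric Filter Topology Module
open scoped RealInnerProductSpace NNReal ENNReal

namespace Vale.Agent.P074

section
variable {E : Type*} [NormedAddCommGroup E] [InnerProductSpace ℝ E] [FiniteDimensional ℝ E]
  [MeasurableSpace E] [BorelSpace E] (m : Measure E) [m.IsAddHaarMeasure]

lemma gap_coupling1 (K : Set E) (hKc : IsCompact K) (h0 : m K ≠ 0)
    (T0 T1 : E → E) (hT0 : Measurable T0) (hT1 : Measurable T1) (R : ℝ≥0)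
    (hR0 : ∀ x, ‖T0 x‖ ≤ R) (hR1 : ∀ x, ‖T1 x‖ ≤ R) (ψ0 ψ1 : E → ℝ) (RK : ℝ≥0)
    (hψ0 : LipschitzWith RK ψ0) (hψ1 : LipschitzWith RK ψ1) (π : Measure (E × E))
    (hπ0 : π.map Prod.fst = (nrm m K).map T0) (hπ1 : π.map Prod.snd = (nrm m K).map T1)
    (w : ℝ) (hw : 0 < w) (hc : ∫⁻ q, ‖q.1 - q.2‖ₑ ∂π ≤ ENNReal.ofReal w) :
    ∫ x in K, gap ψ0 ψ1 (T0 x) (T1 x) ∂m ≤ m.real K * (2 * RK * w) := by
  have hKfin : m K ≠ ⊤ := hKc.measure_lt_top.ne
  have hprob := nrm_prob m K h0 hKfin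
  have hpos : 0 < m.real K := ENNReal.toReal_pos h0 hKfin
  set χ : E → ℝ := fun y => ψ1 y - ψ0 y with hχ
  have hχc : Continuous χ := hψ1.continuous.sub hψ0.continuous
  have hgap : ∀ y z, gap ψ0 ψ1 y z = χ y - χ z := by
    intro y z; simp only [gap, hχ]; ring
  have hπprob : IsProbabilityMeasure π := by
    have h1 : π.map Prod.fst Set.univ = 1 := by
      rw [hπ0, Measure.map_apply hT0 MeasurableSet.univ, Set.preimage_univ, measure_univ]
    rw [Measure.map_apply measurable_fst MeasurableSet.univ, Set.preimage_univ] at h1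
    exact ⟨h1⟩
  obtain ⟨Cχ, hCχ⟩ := (isCompact_closedBall (0 : E) R).exists_bound_of_continuousOn hχc.continuousOn
  have hint : ∀ S : E → E, Measurable S → (∀ x, ‖S x‖ ≤ R) →
      Integrable (fun x => χ (S x)) (nrm m K) := by
    intro S hS hSR
    refine Integrable.of_bound (hχc.measurable.comp hS).aestronglyMeasurable Cχ
      (Filter.Eventually.of_forall fun x => hCχ _ (by simpa using hSR x))
  have haeq : ∀ (T : E → E) (P : E × E → E), Measurable T → Measurable P → (∀ x, ‖T x‖ ≤ R) →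
      π.map P = (nrm m K).map T → ∀ᵐ q ∂π, ‖P q‖ ≤ R := by
    intro T P hT hP hTR hPT
    refine ae_of_ae_map hP.aemeasurable (p := fun y => ‖y‖ ≤ R) ?_
    rw [hPT, ae_map_iff hT.aemeasurable (measurableSet_le measurable_norm measurable_const)]
    exact Filter.Eventually.of_forall hTR
  have hae0 := haeq T0 Prod.fst hT0 measurable_fst hR0 hπ0
  have hae1 := haeq T1 Prod.snd hT1 measurable_snd hR1 hπ1
  have hintπ0 : Integrable (fun q : E × E => χ q.1) π := by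
    refine Integrable.of_bound (hχc.measurable.comp measurable_fst).aestronglyMeasurable Cχ ?_
    filter_upwards [hae0] with q hq
    exact hCχ _ (by simpa using hq)
  have hintπ1 : Integrable (fun q : E × E => χ q.2) π := by
    refine Integrable.of_bound (hχc.measurable.comp measurable_snd).aestronglyMeasurable Cχ ?_
    filter_upwards [hae1] with q hq
    exact hCχ _ (by simpa using hq)
  have e0 : ∫ x, χ (T0 x) ∂(nrm m K) = ∫ q, χ q.1 ∂π := by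
    rw [← integral_map hT0.aemeasurable hχc.measurable.aestronglyMeasurable, ← hπ0,
      integral_map measurable_fst.aemeasurable hχc.measurable.aestronglyMeasurable]
  have e1 : ∫ x, χ (T1 x) ∂(nrm m K) = ∫ q, χ q.2 ∂π := by
    rw [← integral_map hT1.aemeasurable hχc.measurable.aestronglyMeasurable, ← hπ1,
      integral_map measurable_snd.aemeasurable hχc.measurable.aestronglyMeasurable]
  have hnint : Integrable (fun q : E × E => ‖q.1 - q.2‖) π := by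
    refine Integrable.of_bound
      (measurable_fst.sub measurable_snd).norm.aestronglyMeasurable
      (R + R) ?_
    filter_upwards [hae0, hae1] with q h1 h2
    rw [norm_norm]
    exact (norm_sub_le _ _).trans (add_le_add h1 h2)
  have hno : ∫ q, ‖q.1 - q.2‖ ∂π ≤ w := by
    have h1 : ∫⁻ q, ‖q.1 - q.2‖ₑ ∂π = ENNReal.ofReal (∫ q, ‖q.1 - q.2‖ ∂π) := by
      rw [ofReal_integral_eq_lintegral_ofReal hnint (Filter.Eventually.of_forall fun x => norm_nonneg _)]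
      refine lintegral_congr fun x => ?_
      rw [ofReal_norm]
    rw [h1] at hc
    exact (ENNReal.ofReal_le_ofReal_iff hw.le).mp hc
  have hmain : ∫ x, gap ψ0 ψ1 (T0 x) (T1 x) ∂(nrm m K) ≤ 2 * RK * w := by
    calc ∫ x, gap ψ0 ψ1 (T0 x) (T1 x) ∂(nrm m K)
        = ∫ x, (χ (T0 x) - χ (T1 x)) ∂(nrm m K) := by simp_rw [hgap]
      _ = ∫ q, χ q.1 ∂π - ∫ q, χ q.2 ∂π := by
          rw [integral_sub (hint T0 hT0 hR0) (hint T1 hT1 hR1), e0, e1]
      _ = ∫ q, (χ q.1 - χ q.2) ∂π := (integral_sub hintπ0 hintπ1).symm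
      _ ≤ ∫ q, 2 * RK * ‖q.1 - q.2‖ ∂π := by
          refine integral_mono (hintπ0.sub hintπ1) (hnint.const_mul _) ?_
          intro q
          simp only
          rw [← hgap]
          exact (le_abs_self _).trans (gap_le ψ0 ψ1 RK hψ0 hψ1 _ _)
      _ = 2 * RK * ∫ q, ‖q.1 - q.2‖ ∂π := integral_const_mul _ _
      _ ≤ 2 * RK * w := mul_le_mul_of_nonneg_left hno (by positivity)
  rw [integral_nrm] at hmain
  calc ∫ x in K, gap ψ0 ψ1 (T0 x) (T1 x) ∂m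
      = m.real K * ((m.real K)⁻¹ * ∫ x in K, gap ψ0 ψ1 (T0 x) (T1 x) ∂m) := by
        field_simp
    _ ≤ _ := mul_le_mul_of_nonneg_left hmain hpos.le

/-- The main estimate for maps with values in a ball. -/
lemma main_bound1 (K : Set E) (hKc : IsCompact K) (hKconv : Convex ℝ K) (p : E) (r : ℝ)
    (hr : 0 < r) (hp : closedBall p r ⊆ K) (RK : ℝ≥0) (hRK : ∀ x ∈ K, ‖x‖ ≤ RK)
    (R : ℝ≥0) (u : E) (hu : ‖u‖ = 1)
    (T0 T1 : E → E) (hT0 : Measurable T0) (hT1 : Measurable T1)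
    (hR0 : ∀ x, ‖T0 x‖ ≤ R) (hR1 : ∀ x, ‖T1 x‖ ≤ R)
    (hopt0 : ∀ S : E → E, Measurable S → (nrm m K).map S = (nrm m K).map T0 →
      ∫⁻ x, ‖x - T0 x‖ₑ ^ 2 ∂(nrm m K) ≤ ∫⁻ x, ‖x - S x‖ₑ ^ 2 ∂(nrm m K))
    (hopt1 : ∀ S : E → E, Measurable S → (nrm m K).map S = (nrm m K).map T1 →
      ∫⁻ x, ‖x - T1 x‖ₑ ^ 2 ∂(nrm m K) ≤ ∫⁻ x, ‖x - S x‖ₑ ^ 2 ∂(nrm m K))
    (π : Measure (E × E))
    (hπ0 : π.map Prod.fst = (nrm m K).map T0) (hπ1 : π.map Prod.snd = (nrm m K).map T1)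
    (w : ℝ) (hw : 0 < w) (hc : ∫⁻ q, ‖q.1 - q.2‖ₑ ∂π ≤ ENNReal.ofReal w) :
    ∫⁻ x, ‖T0 x - T1 x‖ₑ ^ 2 ∂(nrm m K) ≤ ENNReal.ofReal
      (2 * R * (((finrank ℝ E) * (2 * RK + 4 * R * (finrank ℝ E) / r) + 2 * R / r) * √w)) := by
  have hKfin : m K ≠ ⊤ := hKc.measure_lt_top.ne
  have h0 : m K ≠ 0 := by
    intro h
    have h1 : m (closedBall p r) ≤ 0 := (measure_mono hp).trans h.le
    exact absurd (Measure.measure_pos_of_nonempty_interior m
      (⟨p, interior_mono (ball_subset_closedBall) (by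
        rw [isOpen_ball.interior_eq]; exact mem_ball_self hr)⟩ :
        (interior (closedBall p r)).Nonempty)) (not_lt.mpr h1)
  have hprob := nrm_prob m K h0 hKfin
  have hpos : 0 < m.real K := ENNReal.toReal_pos h0 hKfin
  obtain ⟨G0, φ0, ψ0, hG0, hφ0, hψ0, s0, c0, c0'⟩ :=
    exists_pots m K hKc hKconv h0 T0 hT0 R hR0 RK hRK hopt0 u hu
  obtain ⟨G1, φ1, ψ1, hG1, hφ1, hψ1, s1, c1, c1'⟩ :=
    exists_pots m K hKc hKconv h0 T1 hT1 R hR1 RK hRK hopt1 u hu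
  have hI := gap_coupling1 m K hKc h0 T0 T1 hT0 hT1 R hR0 hR1 ψ0 ψ1 RK hψ0 hψ1 π hπ0 hπ1 w hw hc
  have hL1 := l1_bound m K hKc hKconv p r hr hp w hw T0 T1 hT0 hT1 R hR0 hR1 G0 G1 hG0 hG1
    φ0 φ1 ψ0 ψ1 hφ1 RK hψ0 hψ1 s1 c0 c0' c1 c1' hI
  set Q : ℝ := ((finrank ℝ E) * (2 * RK + 4 * R * (finrank ℝ E) / r) + 2 * R / r) * √w with hQ
  have hTT : ∀ x, ‖T0 x - T1 x‖ ≤ 2 * R := fun x =>
    (norm_sub_le _ _).trans (by linarith [hR0 x, hR1 x])
  have hsqint : Integrable (fun x => ‖T0 x - T1 x‖ ^ 2) (nrm m K) := by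
    refine Integrable.of_bound ((hT0.sub hT1).norm.pow_const 2).aestronglyMeasurable
      ((2 * R) ^ 2) (Filter.Eventually.of_forall fun x => ?_)
    rw [Real.norm_of_nonneg (by positivity)]
    exact pow_le_pow_left₀ (norm_nonneg _) (hTT x) 2
  have hint : Integrable (fun x => ‖T0 x - T1 x‖) (nrm m K) := by
    refine Integrable.of_bound (hT0.sub hT1).norm.aestronglyMeasurable
      (2 * R) (Filter.Eventually.of_forall fun x => ?_)
    rw [norm_norm]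
    exact hTT x
  have h1 : ∫⁻ x, ‖T0 x - T1 x‖ₑ ^ 2 ∂(nrm m K) =
      ENNReal.ofReal (∫ x, ‖T0 x - T1 x‖ ^ 2 ∂(nrm m K)) := by
    rw [ofReal_integral_eq_lintegral_ofReal hsqint
      (Filter.Eventually.of_forall fun x => by positivity)]
    refine lintegral_congr fun x => ?_
    rw [ENNReal.ofReal_pow (norm_nonneg _), ofReal_norm]
  rw [h1]
  refine ENNReal.ofReal_le_ofReal ?_
  calc ∫ x, ‖T0 x - T1 x‖ ^ 2 ∂(nrm m K) ≤ ∫ x, 2 * R * ‖T0 x - T1 x‖ ∂(nrm m K) := by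
        refine integral_mono hsqint (hint.const_mul _) fun x => ?_
        simp only
        rw [sq]
        exact mul_le_mul_of_nonneg_right (hTT x) (norm_nonneg _)
    _ = 2 * R * ((m.real K)⁻¹ * ∫ x in K, ‖T0 x - T1 x‖ ∂m) := by
        rw [integral_const_mul, integral_nrm]
    _ ≤ 2 * R * ((m.real K)⁻¹ * (m.real K * Q)) := by
        have := mul_le_mul_of_nonneg_left hL1 (inv_nonneg.mpr hpos.le)
        exact mul_le_mul_of_nonneg_left this (by positivity)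
    _ = 2 * R * Q := by field_simp

/-- Hölder estimate with exponent `1/4`, coupling form. -/
theorem holder_bound1 [Nontrivial E] (K : Set E) (hKc : IsCompact K) (hKconv : Convex ℝ K)
    (hKi : (interior K).Nonempty) (Y : Set E) (hY : IsCompact Y) (hYne : Y.Nonempty) :
    ∃ C : ℝ≥0, 0 < C ∧ ∀ T0 T1 : E → E, Measurable T0 → Measurable T1 →
      (nrm m K).map T0 Yᶜ = 0 → (nrm m K).map T1 Yᶜ = 0 →
      (∀ S : E → E, Measurable S → (nrm m K).map S = (nrm m K).map T0 →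
        ∫⁻ x, ‖x - T0 x‖ₑ ^ 2 ∂(nrm m K) ≤ ∫⁻ x, ‖x - S x‖ₑ ^ 2 ∂(nrm m K)) →
      (∀ S : E → E, Measurable S → (nrm m K).map S = (nrm m K).map T1 →
        ∫⁻ x, ‖x - T1 x‖ₑ ^ 2 ∂(nrm m K) ≤ ∫⁻ x, ‖x - S x‖ₑ ^ 2 ∂(nrm m K)) →
      ∀ π : Measure (E × E), π.map Prod.fst = (nrm m K).map T0 →
        π.map Prod.snd = (nrm m K).map T1 →
      ∀ w : ℝ, 0 < w → ∫⁻ q, ‖q.1 - q.2‖ₑ ∂π ≤ ENNReal.ofReal w →
        ∫⁻ x, ‖T0 x - T1 x‖ₑ ^ 2 ∂(nrm m K) ≤ C * ENNReal.ofReal (√w) := by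
  obtain ⟨p, hpi⟩ := hKi
  obtain ⟨r, hr, hp⟩ := Metric.nhds_basis_closedBall.mem_iff.mp (mem_interior_iff_mem_nhds.mp hpi)
  obtain ⟨RK0, hRK0⟩ := hKc.isBounded.exists_norm_le
  obtain ⟨R0, hR0⟩ := hY.isBounded.exists_norm_le
  obtain ⟨u, hu⟩ := exists_norm_eq E (zero_le_one' ℝ)
  obtain ⟨y0, hy0⟩ := hYne
  have hpK : p ∈ K := hp (mem_closedBall_self hr.le)
  have hRK0' : 0 ≤ RK0 := (norm_nonneg p).trans (hRK0 p hpK)
  have hR0' : 0 ≤ R0 := (norm_nonneg y0).trans (hR0 y0 hy0)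
  set RK : ℝ≥0 := ⟨RK0, hRK0'⟩ with hRK
  set R : ℝ≥0 := ⟨R0, hR0'⟩ with hR
  set Q : ℝ := 2 * R * ((finrank ℝ E) * (2 * RK + 4 * R * (finrank ℝ E) / r) + 2 * R / r) with hQ
  have hQ0 : 0 ≤ Q := by positivity
  refine ⟨Real.toNNReal Q + 1, by positivity, ?_⟩
  intro T0 T1 hT0 hT1 hY0 hY1 hopt0 hopt1 π hπ0 hπ1 w hw hc
  classical
  -- modify the maps off `Y`
  have hmod : ∀ T : E → E, Measurable T → (nrm m K).map T Yᶜ = 0 →
      (∀ S : E → E, Measurable S → (nrm m K).map S = (nrm m K).map T →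
        ∫⁻ x, ‖x - T x‖ₑ ^ 2 ∂(nrm m K) ≤ ∫⁻ x, ‖x - S x‖ₑ ^ 2 ∂(nrm m K)) →
      ∃ T' : E → E, Measurable T' ∧ (∀ x, ‖T' x‖ ≤ R) ∧ T =ᵐ[nrm m K] T' ∧
        (∀ S : E → E, Measurable S → (nrm m K).map S = (nrm m K).map T' →
          ∫⁻ x, ‖x - T' x‖ₑ ^ 2 ∂(nrm m K) ≤ ∫⁻ x, ‖x - S x‖ₑ ^ 2 ∂(nrm m K)) := by
    intro T hT hTY hTo
    have hae : T =ᵐ[nrm m K] fun x => if T x ∈ Y then T x else y0 := by
      rw [Measure.map_apply hT hY.measurableSet.compl] at hTY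
      have : ∀ᵐ x ∂(nrm m K), T x ∈ Y := hTY
      filter_upwards [this] with x hx
      simp [hx]
    refine ⟨fun x => if T x ∈ Y then T x else y0, ?_, ?_, hae, ?_⟩
    · exact Measurable.ite (hT hY.measurableSet) hT measurable_const
    · intro x
      simp only
      split_ifs with h
      · exact hR0 _ h
      · exact hR0 _ hy0
    · intro S hS hSm
      rw [← Measure.map_congr hae] at hSm
      refine le_of_eq_of_le ?_ (hTo S hS hSm)
      refine lintegral_congr_ae ?_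
      filter_upwards [hae] with x hx
      rw [← hx]
  obtain ⟨T0', m0, b0, a0, o0⟩ := hmod T0 hT0 hY0 hopt0
  obtain ⟨T1', m1, b1, a1, o1⟩ := hmod T1 hT1 hY1 hopt1
  rw [Measure.map_congr a0] at hπ0
  rw [Measure.map_congr a1] at hπ1
  have hmain := main_bound1 m K hKc hKconv p r hr hp RK (fun x hx => hRK0 x hx) R u hu T0' T1'
    m0 m1 b0 b1 o0 o1 π hπ0 hπ1 w hw hc
  have heq : ∫⁻ x, ‖T0 x - T1 x‖ₑ ^ 2 ∂(nrm m K) = ∫⁻ x, ‖T0' x - T1' x‖ₑ ^ 2 ∂(nrm m K) := by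
    refine lintegral_congr_ae ?_
    filter_upwards [a0, a1] with x h0 h1
    rw [h0, h1]
  rw [heq]
  refine hmain.trans ?_
  rw [← mul_assoc, ENNReal.ofReal_mul (by positivity)]
  refine mul_le_mul_left ?_ _
  rw [ENNReal.ofReal]
  exact_mod_cast le_add_of_nonneg_right (zero_le_one)

end

lemma cpl_cost1 {d : ℕ} (i0 i1 : Fin d) (s : ℝ) (hne : i0 ≠ i1) (hs : 0 ≤ s) :
    ∫⁻ q, ‖q.1 - q.2‖ₑ ∂(cpl i0 i1 s) = ENNReal.ofReal (2 * s) * rho d (cell i0 i1 s) := by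
  classical
  unfold cpl
  have hm : Measurable (fun q : Sp d × Sp d => ‖q.1 - q.2‖ₑ) := by fun_prop
  rw [lintegral_map hm (cpl_meas i0 i1 s)]
  rw [← lintegral_indicator_const (measurableSet_cell i0 i1 s)]
  refine lintegral_congr fun x => ?_
  by_cases h : x ∈ cell i0 i1 s
  · rw [Set.indicator_of_mem h]
    have h1 : Tm i0 i1 s x = s • ev i1 := by unfold Tm; rw [if_pos h]
    show ‖Tm i0 i1 s x - Rf i1 (Tm i0 i1 s x)‖ₑ = _
    rw [h1, Rf_smul_ev, ← sub_smul, enorm_smul]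
    have h2 : ‖(ev i1 : Sp d)‖ₑ = 1 := by
      rw [← ofReal_norm, norm_ev]; simp
    rw [h2, mul_one, Real.enorm_eq_ofReal_abs]
    congr 1
    rw [show s - -s = 2 * s by ring, abs_of_nonneg (by linarith)]
  · rw [Set.indicator_of_notMem h]
    show ‖Tm i0 i1 s x - Rf i1 (Tm i0 i1 s x)‖ₑ = _
    have h1 : Rf i1 (Tm i0 i1 s x) = Tm i0 i1 s x := by
      unfold Tm; rw [if_neg h]
      split_ifs
      · rw [Rf_ev_ne i0 i1 hne]
      · rw [map_neg, Rf_ev_ne i0 i1 hne]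
    rw [h1, sub_self]; simp

/-- The asymptotic contradiction for `W₁`. -/
lemma asym1 (α C : ℝ) (hα : 1 / 4 < α) (hα1 : α ≤ 1)
    (h : ∀ s : ℝ, 0 < s → s ≤ 1 → ∃ m : ℝ, s / 64 ≤ m ∧ m ≤ 1 ∧
      m ^ (1 / 2 : ℝ) ≤ C * (2 * s * m) ^ α) : False := by
  have hC : 0 ≤ C := by
    obtain ⟨m, h1, h2, h3⟩ := h 1 one_pos le_rfl
    have hm : 0 < m := lt_of_lt_of_le (by norm_num) h1
    by_contra hC
    have h4 : 0 < m ^ (1 / 2 : ℝ) := by positivity
    have h5 : 0 < (2 * 1 * m) ^ α := by positivity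
    have h6 : C * (2 * 1 * m) ^ α < 0 := mul_neg_of_neg_of_pos (not_le.mp hC) h5
    exact absurd (h4.trans_le h3) (not_lt.mpr h6.le)
  -- reduce to `β = min α (1/2)`
  set β : ℝ := min α (1 / 2) with hβ
  have hβ4 : 1 / 4 < β := lt_min hα (by norm_num)
  have hβ2 : β ≤ 1 / 2 := min_le_right _ _
  have hβα : β ≤ α := min_le_left _ _
  have key : ∀ s : ℝ, 0 < s → s ≤ 1 / 2 →
      (1 / 64 : ℝ) ^ (1 / 2 - β) ≤ C * 2 ^ β * s ^ (2 * β - 1 / 2) := by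
    intro s hs hs1
    obtain ⟨m, h1, h2, h3⟩ := h s hs (by linarith)
    have hm : 0 < m := lt_of_lt_of_le (by positivity) h1
    have hx1 : 2 * s * m ≤ 1 := by nlinarith
    have h3' : m ^ (1 / 2 : ℝ) ≤ C * (2 * s * m) ^ β :=
      h3.trans (mul_le_mul_of_nonneg_left
        (Real.rpow_le_rpow_of_exponent_ge (by positivity) hx1 hβα) hC)
    rw [Real.mul_rpow (by positivity) hm.le] at h3'
    have e2 : m ^ (1 / 2 : ℝ) = m ^ (1 / 2 - β) * m ^ β := by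
      rw [← Real.rpow_add hm]; congr 1; ring
    rw [e2, ← mul_assoc] at h3'
    have h4 : m ^ (1 / 2 - β) ≤ C * (2 * s) ^ β := le_of_mul_le_mul_right h3' (by positivity)
    have h5 : (s / 64) ^ (1 / 2 - β) ≤ m ^ (1 / 2 - β) :=
      Real.rpow_le_rpow (by positivity) h1 (by linarith)
    have h6 := h5.trans h4
    rw [show s / 64 = s * (1 / 64) by ring, Real.mul_rpow hs.le (by norm_num),
      Real.mul_rpow (by norm_num) hs.le] at h6
    have e3 : s ^ β = s ^ (1 / 2 - β) * s ^ (2 * β - 1 / 2) := by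
      rw [← Real.rpow_add hs]; congr 1; ring
    rw [e3] at h6
    have hpos : 0 < s ^ (1 / 2 - β) := by positivity
    refine le_of_mul_le_mul_left ?_ hpos
    calc s ^ (1 / 2 - β) * (1 / 64) ^ (1 / 2 - β)
        ≤ C * (2 ^ β * (s ^ (1 / 2 - β) * s ^ (2 * β - 1 / 2))) := h6
      _ = _ := by ring
  have hγ : 0 < 2 * β - 1 / 2 := by linarith
  have ht : Filter.Tendsto (fun s : ℝ => C * 2 ^ β * s ^ (2 * β - 1 / 2))
      (nhdsWithin 0 (Set.Ioi 0)) (nhds 0) := by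
    have h1 : Filter.Tendsto (fun s : ℝ => s ^ (2 * β - 1 / 2)) (nhds 0) (nhds 0) := by
      have := (Real.continuousAt_rpow_const 0 (2 * β - 1 / 2) (Or.inr hγ.le)).tendsto
      rwa [Real.zero_rpow hγ.ne'] at this
    have h2 : Filter.Tendsto (fun s : ℝ => s ^ (2 * β - 1 / 2)) (nhdsWithin 0 (Set.Ioi 0))
      (nhds 0) := h1.mono_left nhdsWithin_le_nhds
    have h3 := h2.const_mul (C * 2 ^ β)
    rwa [mul_zero] at h3
  have hle : (1 / 64 : ℝ) ^ (1 / 2 - β) ≤ 0 := by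
    refine ge_of_tendsto ht ?_
    have hmem : Set.Ioc (0 : ℝ) (1 / 2) ∈ nhdsWithin (0 : ℝ) (Set.Ioi 0) :=
      Ioc_mem_nhdsGT (by norm_num)
    filter_upwards [hmem] with s hs
    exact key s hs.1 hs.2
  have : (0 : ℝ) < (1 / 64 : ℝ) ^ (1 / 2 - β) := by positivity
  linarith

/-- The family of examples, for `W₁`. -/
lemma upper1 (d : ℕ) (hd : 2 ≤ d) (α : ℝ) (hα : 1 / 4 < α) (hα1 : α ≤ 1) (C : ℝ≥0)
    (h : ∀ S T : Sp d → Sp d, Measurable S → Measurable T → (∀ x, ‖S x‖ ≤ 1) → (∀ x, ‖T x‖ ≤ 1) →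
      (∀ S' : Sp d → Sp d, Measurable S' → (rho d).map S' = (rho d).map S →
        ∫⁻ x, ‖x - S x‖ₑ ^ 2 ∂(rho d) ≤ ∫⁻ x, ‖x - S' x‖ₑ ^ 2 ∂(rho d)) →
      (∀ S' : Sp d → Sp d, Measurable S' → (rho d).map S' = (rho d).map T →
        ∫⁻ x, ‖x - T x‖ₑ ^ 2 ∂(rho d) ≤ ∫⁻ x, ‖x - S' x‖ₑ ^ 2 ∂(rho d)) →
      ∀ π : Measure (Sp d × Sp d), π.map Prod.fst = (rho d).map S →
        π.map Prod.snd = (rho d).map T →
      (∫⁻ x, ‖S x - T x‖ₑ ^ 2 ∂(rho d)) ^ (1 / 2 : ℝ) ≤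
        C * (∫⁻ q, ‖q.1 - q.2‖ₑ ∂π) ^ α) : False := by
  let i0 : Fin d := ⟨0, by omega⟩
  let i1 : Fin d := ⟨1, by omega⟩
  have hne : i0 ≠ i1 := by
    intro h; have := congrArg Fin.val h; simp [i0, i1] at this
  refine asym1 α C hα hα1 ?_
  intro s hs0 hs1
  have habs : |s| ≤ 1 := by rwa [abs_of_pos hs0]
  have habs' : |(-s)| ≤ 1 := by rwa [abs_neg]
  have h1 := h (Tm i0 i1 s) (Tm i0 i1 (-s)) (measurable_Tm i0 i1 s) (measurable_Tm i0 i1 (-s))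
    (fun x => atoms_norm i0 i1 s habs _ (Tm_mem i0 i1 s x))
    (fun x => atoms_norm i0 i1 (-s) habs' _ (Tm_mem i0 i1 (-s) x))
    (fun S' hS' hh => Tm_opt i0 i1 s hne habs S' hS' hh)
    (fun S' hS' hh => Tm_opt i0 i1 (-s) hne habs' S' hS' hh)
    (cpl i0 i1 s) (cpl_fst i0 i1 s) (cpl_snd i0 i1 s hne)
  rw [cpl_cost1 i0 i1 s hne hs0.le] at h1
  set M : ℝ≥0∞ := rho d (cell i0 i1 s) with hM
  have hM1 : M ≤ 1 := prob_le_one
  have hMtop : M ≠ ⊤ := ne_top_of_le_ne_top ENNReal.one_ne_top hM1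
  refine ⟨M.toReal, ?_, ?_, ?_⟩
  · have := rho_cell i0 i1 s hne hs0 hs1
    have h2 := ENNReal.toReal_mono hMtop this
    rwa [ENNReal.toReal_ofReal (by positivity)] at h2
  · have := ENNReal.toReal_mono ENNReal.one_ne_top hM1
    simpa using this
  · have h2 : M ^ (1 / 2 : ℝ) ≤ C * (ENNReal.ofReal (2 * s) * M) ^ α := by
      refine le_trans ?_ h1
      exact ENNReal.rpow_le_rpow (diff_cost i0 i1 s hne hs0.le) (by norm_num)
    have htop : (C : ℝ≥0∞) * (ENNReal.ofReal (2 * s) * M) ^ α ≠ ⊤ := by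
      refine ENNReal.mul_ne_top ENNReal.coe_ne_top ?_
      refine ENNReal.rpow_ne_top_of_nonneg (by linarith) ?_
      exact ENNReal.mul_ne_top ENNReal.ofReal_ne_top hMtop
    have h3 := ENNReal.toReal_mono htop h2
    rw [ENNReal.toReal_mul, ← ENNReal.toReal_rpow, ← ENNReal.toReal_rpow,
      ENNReal.toReal_mul, ENNReal.toReal_ofReal (by positivity), ENNReal.coe_toReal] at h3
    exact h3

lemma cost_bound1 {X c C : ℝ≥0∞} (hC0 : C ≠ 0) (hC1 : C ≠ ⊤)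
    (h : ∀ w : ℝ, 0 < w → c ≤ ENNReal.ofReal w → X ≤ C * ENNReal.ofReal (√w)) :
    (X / C) ^ (2 : ℝ) ≤ c := by
  have key : X ≤ C * c ^ (1 / 2 : ℝ) := by
    rcases eq_or_ne c ⊤ with rfl | hct
    · rw [ENNReal.top_rpow_of_pos (by norm_num), ENNReal.mul_top hC0]
      exact le_top
    rcases eq_or_ne c 0 with rfl | hc0
    · refine ENNReal.le_of_forall_pos_le_add fun ε hε _ => ?_
      have hCr : 0 < C.toReal := ENNReal.toReal_pos hC0 hC1
      have hw : 0 < (ε : ℝ) / C.toReal := div_pos hε hCr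
      have h1 := h (((ε : ℝ) / C.toReal) ^ 2) (by positivity) (by simp)
      rw [Real.sqrt_sq hw.le] at h1
      refine h1.trans ?_
      rw [ENNReal.zero_rpow_of_pos (by norm_num), mul_zero, zero_add]
      rw [← ENNReal.ofReal_toReal hC1, ← ENNReal.ofReal_mul hCr.le,
        ENNReal.ofReal_toReal hC1, mul_div_cancel₀ _ hCr.ne', ENNReal.ofReal_coe_nnreal]
    · have hcr : 0 < c.toReal := ENNReal.toReal_pos hc0 hct
      have h1 := h c.toReal hcr (by rw [ENNReal.ofReal_toReal hct])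
      refine h1.trans (le_of_eq ?_)
      rw [Real.sqrt_eq_rpow, ← ENNReal.ofReal_rpow_of_pos hcr, ENNReal.ofReal_toReal hct]
  have h2 : X / C ≤ c ^ (1 / 2 : ℝ) := ENNReal.div_le_of_le_mul' key
  calc (X / C) ^ (2 : ℝ) ≤ (c ^ (1 / 2 : ℝ)) ^ (2 : ℝ) := ENNReal.rpow_le_rpow h2 (by norm_num)
    _ = c := by rw [← ENNReal.rpow_mul]; norm_num

end Vale.Agent.P074
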