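import Mathlib
import Vale.Agent.P074.WOne
import Vale.Agent.P074.OneFinal
import Vale.Agent.P074.WDefs

namespace Vale.Agent.P074Sep

open MeasureTheory
open scoped ENNReal NNReal

lemma not_admissibleW1 (d : ℕ) (hd : 2 ≤ d) (α : ℝ) (hα : 1 / 4 < α) (hα1 : α ≤ 1) :
    ¬ AdmissibleW1 (EuclideanSpace ℝ (Fin d)) α := by
  intro hadm
  obtain ⟨C, hC⟩ := hadm (Vale.Agent.P074.cube d) (Vale.Agent.P074.isCompact_cube d)
    (Vale.Agent.P074.convex_cube d) (Vale.Agent.P074.interior_cube d)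
    (Metric.closedBall 0 1) (isCompact_closedBall 0 1) ⟨0, by simp⟩
  refine Vale.Agent.P074.upper1 d hd α hα hα1 C ?_
  intro S T hS hT hS1 hT1 hSo hTo π hπ1 hπ2
  have hsupp : ∀ U : EuclideanSpace ℝ (Fin d) → EuclideanSpace ℝ (Fin d), Measurable U →
      (∀ x, ‖U x‖ ≤ 1) →
      ((Vale.Agent.P074.rho d).map U) (Metric.closedBall 0 1)ᶜ = 0 := by
    intro U hU hU1
    rw [Measure.map_apply hU Metric.isClosed_closedBall.measurableSet.compl]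
    have : U ⁻¹' (Metric.closedBall 0 1)ᶜ = ∅ := by
      ext x; simpa using hU1 x
    rw [this, measure_empty]
  have h := hC ((Vale.Agent.P074.rho d).map S) ((Vale.Agent.P074.rho d).map T)
    (Measure.isProbabilityMeasure_map hS.aemeasurable)
    (Measure.isProbabilityMeasure_map hT.aemeasurable)
    (hsupp S hS hS1) (hsupp T hT hT1) S T ⟨hS, rfl, hSo⟩ ⟨hT, rfl, hTo⟩
  refine h.trans ?_
  gcongr
  exact iInf₂_le π ⟨hπ1, hπ2⟩

lemma admissibleW1_quarter (d : ℕ) (hd : 2 ≤ d) :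
    AdmissibleW1 (EuclideanSpace ℝ (Fin d)) (1 / 4) := by
  have : Nontrivial (EuclideanSpace ℝ (Fin d)) := by
    have : Nonempty (Fin d) := ⟨⟨0, by omega⟩⟩
    infer_instance
  intro K hKc hKconv hKi Y hY hYne
  obtain ⟨C, hC0, hC⟩ := Vale.Agent.P074.holder_bound1
    (volume : Measure (EuclideanSpace ℝ (Fin d))) K hKc hKconv hKi Y hY hYne
  refine ⟨C ^ (1 / 2 : ℝ), ?_⟩
  intro μ ν _ _ hμ hν S T hS hT
  obtain ⟨hSm, hSμ, hSo⟩ := hS
  obtain ⟨hTm, hTν, hTo⟩ := hT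
  set X : ℝ≥0∞ := ∫⁻ x, ‖S x - T x‖ₑ ^ 2 ∂(unif K) with hX
  set c : ℝ≥0∞ := ⨅ (π : Measure (EuclideanSpace ℝ (Fin d) × EuclideanSpace ℝ (Fin d)))
    (_ : π.map Prod.fst = μ ∧ π.map Prod.snd = ν), ∫⁻ q, ‖q.1 - q.2‖ₑ ∂π with hc
  have hCe0 : (C : ℝ≥0∞) ≠ 0 := by exact_mod_cast hC0.ne'
  have h1 : (X / C) ^ (2 : ℝ) ≤ c := by
    refine le_iInf₂ fun π hπ => ?_
    refine Vale.Agent.P074.cost_bound1 hCe0 ENNReal.coe_ne_top fun w hw hcw => ?_
    refine hC S T hSm hTm ?_ ?_ ?_ ?_ π ?_ ?_ w hw hcw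
    · change (unif K).map S Yᶜ = 0
      rw [hSμ]; exact hμ
    · change (unif K).map T Yᶜ = 0
      rw [hTν]; exact hν
    · intro S' hS' hm
      exact hSo S' hS' (hm.trans hSμ)
    · intro S' hS' hm
      exact hTo S' hS' (hm.trans hTν)
    · exact hπ.1.trans hSμ.symm
    · exact hπ.2.trans hTν.symm
  have h2 : X / C ≤ c ^ (1 / 2 : ℝ) := by
    have := ENNReal.rpow_le_rpow h1 (by norm_num : (0 : ℝ) ≤ 1 / 2)
    rw [← ENNReal.rpow_mul] at this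
    norm_num at this
    norm_num
    exact this
  have h3 : X ≤ C * c ^ (1 / 2 : ℝ) := by
    have := (ENNReal.div_le_iff hCe0 ENNReal.coe_ne_top).mp h2
    rwa [mul_comm] at this
  have h4 : X ^ (1 / 2 : ℝ) ≤ (C * c ^ (1 / 2 : ℝ)) ^ (1 / 2 : ℝ) :=
    ENNReal.rpow_le_rpow h3 (by norm_num)
  unfold L2dist W1
  refine h4.trans (le_of_eq ?_)
  rw [ENNReal.mul_rpow_of_nonneg _ _ (by norm_num), ← ENNReal.rpow_mul,
    ENNReal.coe_rpow_of_nonneg _ (by norm_num)]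
  norm_num
  rw [← hc]

end Vale.Agent.P074Sep
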